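import Mathlib

/-!
# P328: the abstract trace argument (helper71's proof of the slice inequality)

Hilbert-Schmidt calculus for the commutator with a real symmetric matrix.
-/

open Finset Matrix

namespace P328A

variable {ι : Type*} [Fintype ι] [DecidableEq ι]

/-- Hilbert-Schmidt inner product -/
def ip (A B : Matrix ι ι ℝ) : ℝ := ∑ i, ∑ j, A i j * B i j

omit [DecidableEq ι] in
theorem ip_eq_trace (A B : Matrix ι ι ℝ) : ip A B = Matrix.trace (Aᵀ * B) := by
  unfold ip Matrix.trace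
  rw [sum_comm]
  simp only [Matrix.diag_apply, Matrix.mul_apply, Matrix.transpose_apply]

omit [DecidableEq ι] in
theorem ip_comm (A B : Matrix ι ι ℝ) : ip A B = ip B A := by
  unfold ip
  simp only [mul_comm]

omit [DecidableEq ι] in
theorem ip_conj (U A B : Matrix ι ι ℝ) : ip (Uᵀ * A * U) B = ip A (U * B * Uᵀ) := by
  rw [ip_eq_trace, ip_eq_trace]
  simp only [Matrix.transpose_mul, Matrix.transpose_transpose]
  rw [Matrix.mul_assoc, Matrix.mul_assoc, Matrix.trace_mul_comm]
  simp only [Matrix.mul_assoc]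

omit [DecidableEq ι] in
theorem ip_conj' (U A B : Matrix ι ι ℝ) : ip (U * A * Uᵀ) B = ip A (Uᵀ * B * U) := by
  have := ip_conj Uᵀ A B
  simpa only [Matrix.transpose_transpose] using this

theorem ip_conj_conj (U : Matrix ι ι ℝ) (hU : U * Uᵀ = 1) (A B : Matrix ι ι ℝ) :
    ip (Uᵀ * A * U) (Uᵀ * B * U) = ip A B := by
  rw [ip_conj]
  congr 1
  calc U * (Uᵀ * B * U) * Uᵀ = (U * Uᵀ) * B * (U * Uᵀ) := by simp only [Matrix.mul_assoc]
    _ = B := by rw [hU, Matrix.one_mul, Matrix.mul_one]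

/-- entrywise multiplication by a weight -/
def had (w : ι → ι → ℝ) (Z : Matrix ι ι ℝ) : Matrix ι ι ℝ := Matrix.of fun i j => w i j * Z i j

omit [DecidableEq ι] in
theorem ip_had (w : ι → ι → ℝ) (A B : Matrix ι ι ℝ) : ip (had w A) B = ip A (had w B) := by
  unfold ip had
  simp only [Matrix.of_apply]
  refine sum_congr rfl fun i _ => sum_congr rfl fun j _ => by ring

/-- the absolute value of the commutator, in an eigenbasis -/
def absad (U : Matrix ι ι ℝ) (c : ι → ℝ) (Z : Matrix ι ι ℝ) : Matrix ι ι ℝ :=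
  U * had (fun i j => |c i - c j|) (Uᵀ * Z * U) * Uᵀ

/-- the commutator -/
def ad (C Z : Matrix ι ι ℝ) : Matrix ι ι ℝ := C * Z - Z * C

structure Eig (C U : Matrix ι ι ℝ) (c : ι → ℝ) : Prop where
  l : Uᵀ * U = 1
  r : U * Uᵀ = 1
  e : C = U * Matrix.diagonal c * Uᵀ

theorem exists_eig (C : Matrix ι ι ℝ) (hC : C.IsSymm) :
    ∃ (U : Matrix ι ι ℝ) (c : ι → ℝ), Eig C U c := by
  have hH : C.IsHermitian := by
    rw [Matrix.IsHermitian, Matrix.conjTranspose_eq_transpose_of_trivial]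
    exact hC
  refine ⟨(hH.eigenvectorUnitary : Matrix ι ι ℝ), hH.eigenvalues, ?_, ?_, ?_⟩
  · have := Unitary.coe_star_mul_self hH.eigenvectorUnitary
    rw [Matrix.star_eq_conjTranspose, Matrix.conjTranspose_eq_transpose_of_trivial] at this
    exact this
  · have := Unitary.coe_mul_star_self hH.eigenvectorUnitary
    rw [Unitary.coe_star, Matrix.star_eq_conjTranspose, Matrix.conjTranspose_eq_transpose_of_trivial] at this
    exact this
  · have := hH.spectral_theorem
    rw [Unitary.conjStarAlgAut_apply] at this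
    rw [Matrix.star_eq_conjTranspose, Matrix.conjTranspose_eq_transpose_of_trivial] at this
    exact this

theorem ad_eq {C U : Matrix ι ι ℝ} {c : ι → ℝ} (h : Eig C U c) (Z : Matrix ι ι ℝ) :
    ad C Z = U * had (fun i j => c i - c j) (Uᵀ * Z * U) * Uᵀ := by
  have h1 : had (fun i j => c i - c j) (Uᵀ * Z * U) =
      Matrix.diagonal c * (Uᵀ * Z * U) - (Uᵀ * Z * U) * Matrix.diagonal c := by
    ext i j
    simp only [had, Matrix.of_apply, Matrix.sub_apply, Matrix.diagonal_mul, Matrix.mul_diagonal]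
    ring
  rw [h1, Matrix.mul_sub, Matrix.sub_mul]
  unfold ad
  have h2 : U * (Matrix.diagonal c * (Uᵀ * Z * U)) * Uᵀ = C * Z := by
    calc U * (Matrix.diagonal c * (Uᵀ * Z * U)) * Uᵀ
        = (U * Matrix.diagonal c * Uᵀ) * Z * (U * Uᵀ) := by simp only [Matrix.mul_assoc]
      _ = C * Z := by rw [h.r, Matrix.mul_one, ← h.e]
  have h3 : U * (Uᵀ * Z * U * Matrix.diagonal c) * Uᵀ = Z * C := by
    calc U * (Uᵀ * Z * U * Matrix.diagonal c) * Uᵀ
        = (U * Uᵀ) * Z * (U * Matrix.diagonal c * Uᵀ) := by simp only [Matrix.mul_assoc]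
      _ = Z * C := by rw [h.r, Matrix.one_mul, ← h.e]
  rw [h2, h3]

theorem conj_absad {C U : Matrix ι ι ℝ} {c : ι → ℝ} (h : Eig C U c) (w : ι → ι → ℝ)
    (Z : Matrix ι ι ℝ) : Uᵀ * (U * had w Z * Uᵀ) * U = had w Z := by
  calc Uᵀ * (U * had w Z * Uᵀ) * U = (Uᵀ * U) * had w Z * (Uᵀ * U) := by
        simp only [Matrix.mul_assoc]
    _ = had w Z := by rw [h.l, Matrix.one_mul, Matrix.mul_one]

theorem ip_absad_self {C U : Matrix ι ι ℝ} {c : ι → ℝ} (h : Eig C U c) (Z : Matrix ι ι ℝ) :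
    ip (absad U c Z) (absad U c Z) = ip (ad C Z) (ad C Z) := by
  rw [ad_eq h]
  unfold absad
  rw [← ip_conj_conj U h.r, ← ip_conj_conj U h.r (U * had (fun i j => c i - c j) _ * Uᵀ),
    conj_absad h, conj_absad h]
  unfold ip had
  refine sum_congr rfl fun i _ => sum_congr rfl fun j _ => ?_
  simp only [Matrix.of_apply]
  have := abs_mul_abs_self (c i - c j)
  calc |c i - c j| * (Uᵀ * Z * U) i j * (|c i - c j| * (Uᵀ * Z * U) i j)
      = (|c i - c j| * |c i - c j|) * ((Uᵀ * Z * U) i j * (Uᵀ * Z * U) i j) := by ring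
    _ = _ := by rw [this]; ring

omit [DecidableEq ι] in
theorem ip_absad_symm (U : Matrix ι ι ℝ) (c : ι → ℝ) (A B : Matrix ι ι ℝ) :
    ip (absad U c A) B = ip A (absad U c B) := by
  unfold absad
  rw [ip_conj', ip_had, ip_conj]

theorem ip_absad_ge {C U : Matrix ι ι ℝ} {c : ι → ℝ} (h : Eig C U c) (Z : Matrix ι ι ℝ) :
    |ip (ad C Z) Z| ≤ ip (absad U c Z) Z := by
  rw [ad_eq h]
  unfold absad
  rw [ip_conj', ip_conj']
  unfold ip had
  simp only [Matrix.of_apply]
  refine (abs_sum_le_sum_abs _ _).trans (sum_le_sum fun i _ => ?_)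
  refine (abs_sum_le_sum_abs _ _).trans (sum_le_sum fun j _ => ?_)
  rw [abs_mul, abs_mul]
  refine le_of_eq ?_
  calc |c i - c j| * |(Uᵀ * Z * U) i j| * |(Uᵀ * Z * U) i j|
      = |c i - c j| * (|(Uᵀ * Z * U) i j| * |(Uᵀ * Z * U) i j|) := by ring
    _ = _ := by rw [abs_mul_abs_self]; ring

theorem had_comm_left {c : ι → ℝ} {P : Matrix ι ι ℝ}
    (hP : Matrix.diagonal c * P = P * Matrix.diagonal c) (Z : Matrix ι ι ℝ) :
    P * had (fun i j => |c i - c j|) Z = had (fun i j => |c i - c j|) (P * Z) := by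
  ext i k
  simp only [had, Matrix.of_apply, Matrix.mul_apply, mul_sum]
  refine sum_congr rfl fun j _ => ?_
  have h1 := congrFun (congrFun hP i) j
  rw [Matrix.diagonal_mul, Matrix.mul_diagonal] at h1
  by_cases h0 : P i j = 0
  · rw [h0]; ring
  · have h2 : c i = c j := by
      have : P i j * (c i - c j) = 0 := by linarith
      rcases mul_eq_zero.1 this with h3 | h3
      · exact absurd h3 h0
      · linarith
    rw [h2]; ring

theorem had_comm_right {c : ι → ℝ} {P : Matrix ι ι ℝ}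
    (hP : Matrix.diagonal c * P = P * Matrix.diagonal c) (Z : Matrix ι ι ℝ) :
    had (fun i j => |c i - c j|) Z * P = had (fun i j => |c i - c j|) (Z * P) := by
  ext i k
  simp only [had, Matrix.of_apply, Matrix.mul_apply, mul_sum]
  refine sum_congr rfl fun j _ => ?_
  have h1 := congrFun (congrFun hP j) k
  rw [Matrix.diagonal_mul, Matrix.mul_diagonal] at h1
  by_cases h0 : P j k = 0
  · rw [h0]; ring
  · have h2 : c j = c k := by
      have : P j k * (c j - c k) = 0 := by linarith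
      rcases mul_eq_zero.1 this with h3 | h3
      · exact absurd h3 h0
      · linarith
    rw [h2]; ring

theorem comm_hat {C U : Matrix ι ι ℝ} {c : ι → ℝ} (h : Eig C U c) {P : Matrix ι ι ℝ}
    (hP : C * P = P * C) :
    Matrix.diagonal c * (Uᵀ * P * U) = (Uᵀ * P * U) * Matrix.diagonal c := by
  have h1 : Uᵀ * C = Matrix.diagonal c * Uᵀ := by
    rw [h.e]
    calc Uᵀ * (U * Matrix.diagonal c * Uᵀ) = (Uᵀ * U) * Matrix.diagonal c * Uᵀ := by
          simp only [Matrix.mul_assoc]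
      _ = _ := by rw [h.l, Matrix.one_mul]
  have h2 : C * U = U * Matrix.diagonal c := by
    rw [h.e]
    calc U * Matrix.diagonal c * Uᵀ * U = U * Matrix.diagonal c * (Uᵀ * U) := by
          simp only [Matrix.mul_assoc]
      _ = _ := by rw [h.l, Matrix.mul_one]
  calc Matrix.diagonal c * (Uᵀ * P * U) = (Matrix.diagonal c * Uᵀ) * P * U := by
        simp only [Matrix.mul_assoc]
    _ = Uᵀ * (C * P) * U := by rw [← h1]; simp only [Matrix.mul_assoc]
    _ = Uᵀ * P * (C * U) := by rw [hP]; simp only [Matrix.mul_assoc]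
    _ = _ := by rw [h2]; simp only [Matrix.mul_assoc]

theorem absad_mul_left {C U : Matrix ι ι ℝ} {c : ι → ℝ} (h : Eig C U c) {P : Matrix ι ι ℝ}
    (hP : C * P = P * C) (Z : Matrix ι ι ℝ) : P * absad U c Z = absad U c (P * Z) := by
  unfold absad
  have h1 : Uᵀ * (P * Z) * U = (Uᵀ * P * U) * (Uᵀ * Z * U) := by
    calc Uᵀ * (P * Z) * U = Uᵀ * P * 1 * Z * U := by simp only [Matrix.mul_assoc, Matrix.one_mul]
      _ = _ := by rw [← h.r]; simp only [Matrix.mul_assoc]
  rw [h1, ← had_comm_left (comm_hat h hP)]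
  calc P * (U * had (fun i j => |c i - c j|) (Uᵀ * Z * U) * Uᵀ)
      = 1 * P * (U * had (fun i j => |c i - c j|) (Uᵀ * Z * U) * Uᵀ) := by rw [Matrix.one_mul]
    _ = _ := by rw [← h.r]; simp only [Matrix.mul_assoc]

theorem absad_mul_right {C U : Matrix ι ι ℝ} {c : ι → ℝ} (h : Eig C U c) {P : Matrix ι ι ℝ}
    (hP : C * P = P * C) (Z : Matrix ι ι ℝ) : absad U c Z * P = absad U c (Z * P) := by
  unfold absad
  have h1 : Uᵀ * (Z * P) * U = (Uᵀ * Z * U) * (Uᵀ * P * U) := by
    calc Uᵀ * (Z * P) * U = Uᵀ * Z * 1 * P * U := by simp only [Matrix.mul_assoc, Matrix.one_mul]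
      _ = _ := by rw [← h.r]; simp only [Matrix.mul_assoc]
  rw [h1, ← had_comm_right (comm_hat h hP)]
  calc U * had (fun i j => |c i - c j|) (Uᵀ * Z * U) * Uᵀ * P
      = U * had (fun i j => |c i - c j|) (Uᵀ * Z * U) * Uᵀ * P * 1 := by rw [Matrix.mul_one]
    _ = _ := by rw [← h.r]; simp only [Matrix.mul_assoc]

theorem absad_comm {C U : Matrix ι ι ℝ} {c : ι → ℝ} (h : Eig C U c) {P : Matrix ι ι ℝ}
    (hP : C * P = P * C) : absad U c P = 0 := by
  have h1 : had (fun i j => |c i - c j|) (Uᵀ * P * U) = 0 := by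
    ext i j
    have h1 := congrFun (congrFun (comm_hat h hP) i) j
    rw [Matrix.diagonal_mul, Matrix.mul_diagonal] at h1
    simp only [had, Matrix.of_apply, Matrix.zero_apply]
    by_cases h0 : (Uᵀ * P * U) i j = 0
    · rw [h0, mul_zero]
    · have : (Uᵀ * P * U) i j * (c i - c j) = 0 := by linarith
      rcases mul_eq_zero.1 this with h3 | h3
      · exact absurd h3 h0
      · rw [h3, abs_zero, zero_mul]
  unfold absad
  rw [h1, Matrix.mul_zero, Matrix.zero_mul]

/-- if the quadratic form vanishes then the commutator vanishes -/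
theorem ad_eq_zero {C U : Matrix ι ι ℝ} {c : ι → ℝ} (h : Eig C U c) {Z : Matrix ι ι ℝ}
    (h0 : ip (absad U c Z) Z = 0) : ad C Z = 0 := by
  rw [ad_eq h]
  have h1 : had (fun i j => c i - c j) (Uᵀ * Z * U) = 0 := by
    unfold absad at h0
    rw [ip_conj'] at h0
    unfold ip had at h0
    simp only [Matrix.of_apply] at h0
    have hnn : ∀ i j, 0 ≤ |c i - c j| * (Uᵀ * Z * U) i j * (Uᵀ * Z * U) i j := fun i j => by
      rw [mul_assoc]
      exact mul_nonneg (abs_nonneg _) (mul_self_nonneg _)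
    ext i j
    have h2 := (sum_eq_zero_iff_of_nonneg (fun i _ => sum_nonneg fun j _ => hnn i j)).1 h0 i
      (mem_univ i)
    have h3 := (sum_eq_zero_iff_of_nonneg (fun j _ => hnn i j)).1 h2 j (mem_univ j)
    simp only [had, Matrix.of_apply, Matrix.zero_apply]
    rcases mul_eq_zero.1 h3 with h4 | h4
    · rcases mul_eq_zero.1 h4 with h5 | h5
      · rw [abs_eq_zero.1 h5, zero_mul]
      · rw [h5, mul_zero]
    · rw [h4, mul_zero]
  rw [h1, Matrix.mul_zero, Matrix.zero_mul]

end P328A
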