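import Vale.Agent.P328.Ana.AbsA

/-!
# P328: hop counting and block Cauchy-Schwarz

The main inequality (5) of helper71's proof.
-/

open Finset Matrix

namespace P328A

variable {ι I : Type*} [Fintype ι] [DecidableEq ι] [Fintype I] [DecidableEq I]
  {K : I → Type*} [∀ e, DecidableEq (K e)]

/-- the data of the abstract theorem -/
structure Hyp (C : Matrix ι ι ℝ) (key : ∀ e : I, ι → K e) (ht : I → ι → ℕ)
    (O : I → Matrix ι ι ℝ) (lam : I → ℕ → ℝ) (gam : ∀ e : I, K e → ℝ) : Prop where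
  symm : C.IsSymm
  inj : ∀ e x y, key e x = key e y → ht e x = ht e y → x = y
  orth : ∀ e, (O e)ᵀ * O e = 1
  supp : ∀ e x y, O e x y ≠ 0 → key e x = key e y
  blk : ∀ e y z, ((O e)ᵀ * C * O e) y z ≠ 0 → ht e y = ht e z
  dia : ∀ e y, ((O e)ᵀ * C * O e) y y = lam e (ht e y) + gam e (key e y)
  one : ∀ x y, x ≠ y → ∀ e e', key e x = key e y → key e' x = key e' y → e = e'
  hop : ∀ x y, x ≠ y → C x y ≠ 0 → ∃ e, key e x = key e y

/-- off-diagonal pairs with the same key -/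
def offk {κ : Type*} [DecidableEq κ] (g : ι → κ) : Finset (ι × ι) :=
  univ.filter (fun q => g q.1 = g q.2 ∧ q.1 ≠ q.2)

theorem block_norm {κ : Type*} [DecidableEq κ] (g : ι → κ) {O : Matrix ι ι ℝ}
    (hO : O * Oᵀ = 1) (hs : ∀ x y, O x y ≠ 0 → g x = g y) (Z : Matrix ι ι ℝ) :
    ∑ z, (Oᵀ * Z * O) z z ^ 2 + ∑ q ∈ offk g, (Oᵀ * Z * O) q.1 q.2 ^ 2 =
      ∑ x, Z x x ^ 2 + ∑ q ∈ offk g, Z q.1 q.2 ^ 2 := by
  set w : ι → ι → ℝ := fun i j => if g i = g j then 1 else 0 with hw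
  have hsum : ∀ W : Matrix ι ι ℝ, ip (had w W) (had w W) =
      ∑ x, W x x ^ 2 + ∑ q ∈ offk g, W q.1 q.2 ^ 2 := by
    intro W
    have h1 : ip (had w W) (had w W) = ∑ q : ι × ι, (if g q.1 = g q.2 then W q.1 q.2 ^ 2 else 0) := by
      rw [Fintype.sum_prod_type]
      unfold ip had
      simp only [Matrix.of_apply, hw]
      refine sum_congr rfl fun i _ => sum_congr rfl fun j _ => ?_
      split_ifs <;> ring
    have h2 : ∑ x, W x x ^ 2 = ∑ q : ι × ι, (if q.1 = q.2 then W q.1 q.2 ^ 2 else 0) := by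
      rw [Fintype.sum_prod_type]
      refine sum_congr rfl fun i _ => ?_
      simp only [sum_ite_eq, mem_univ, if_true]
    rw [h1, h2, offk, sum_filter, ← sum_add_distrib]
    refine sum_congr rfl fun q _ => ?_
    by_cases h3 : q.1 = q.2
    · rw [if_pos (by rw [h3]), if_pos h3, if_neg (by tauto), add_zero]
    · rw [if_neg h3, zero_add]
      by_cases h4 : g q.1 = g q.2
      · rw [if_pos h4, if_pos ⟨h4, h3⟩]
      · rw [if_neg h4, if_neg (by tauto)]
  have hc : Oᵀ * had w Z * O = had w (Oᵀ * Z * O) := by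
    ext y z
    simp only [had, Matrix.of_apply, Matrix.mul_apply, Matrix.transpose_apply, mul_sum, sum_mul]
    refine sum_congr rfl fun x' _ => sum_congr rfl fun x _ => ?_
    by_cases h1 : O x y = 0
    · rw [h1]; ring
    by_cases h2 : O x' z = 0
    · rw [h2]; ring
    have h3 := hs x y h1
    have h4 := hs x' z h2
    simp only [hw, h3, h4]
    ring
  rw [← hsum, ← hsum, ← hc, ip_conj_conj O hO]

theorem antisymm_diag {A O : Matrix ι ι ℝ} (hA : Aᵀ = -A) (z : ι) : (Oᵀ * A * O) z z = 0 := by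
  have h1 : (Oᵀ * A * O)ᵀ = -(Oᵀ * A * O) := by
    rw [Matrix.transpose_mul, Matrix.transpose_mul, Matrix.transpose_transpose, hA]
    simp only [Matrix.neg_mul, Matrix.mul_neg, Matrix.mul_assoc]
  have h2 := congrFun (congrFun h1 z) z
  rw [Matrix.transpose_apply, Matrix.neg_apply] at h2
  linarith

section

variable {C : Matrix ι ι ℝ} {key : ∀ e : I, ι → K e} {ht : I → ι → ℕ}
    {O : I → Matrix ι ι ℝ} {lam : I → ℕ → ℝ} {gam : ∀ e : I, K e → ℝ}

theorem orth' (H : Hyp C key ht O lam gam) (e : I) : O e * (O e)ᵀ = 1 :=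
  mul_eq_one_comm.1 (H.orth e)

/-- the height projections commute with C -/
theorem proj_comm (H : Hyp C key ht O lam gam) (e : I) (k : ℕ) :
    C * (O e * Matrix.diagonal (fun i => if ht e i = k then (1 : ℝ) else 0) * (O e)ᵀ) =
      (O e * Matrix.diagonal (fun i => if ht e i = k then (1 : ℝ) else 0) * (O e)ᵀ) * C := by
  set D : Matrix ι ι ℝ := Matrix.diagonal (fun i => if ht e i = k then (1 : ℝ) else 0) with hD
  set M : Matrix ι ι ℝ := (O e)ᵀ * C * O e with hM
  have h1 : M * D = D * M := by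
    ext y z
    rw [hD, Matrix.diagonal_mul, Matrix.mul_diagonal]
    by_cases h0 : M y z = 0
    · rw [h0]; ring
    · rw [H.blk e y z h0]; ring
  have h2 : C * O e = O e * M := by
    calc C * O e = 1 * C * O e := by rw [Matrix.one_mul]
      _ = O e * M := by rw [← orth' H e, hM]; simp only [Matrix.mul_assoc]
  have h3 : (O e)ᵀ * C = M * (O e)ᵀ := by
    calc (O e)ᵀ * C = (O e)ᵀ * C * 1 := by rw [Matrix.mul_one]
      _ = M * (O e)ᵀ := by rw [← orth' H e, hM]; simp only [Matrix.mul_assoc]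
  calc C * (O e * D * (O e)ᵀ) = (C * O e) * D * (O e)ᵀ := by simp only [Matrix.mul_assoc]
    _ = O e * (M * D) * (O e)ᵀ := by rw [h2]; simp only [Matrix.mul_assoc]
    _ = O e * D * ((O e)ᵀ * C) := by rw [h1, h3]; simp only [Matrix.mul_assoc]
    _ = _ := by simp only [Matrix.mul_assoc]

theorem conj_proj (H : Hyp C key ht O lam gam) (e : I) (D D' Z : Matrix ι ι ℝ) :
    (O e)ᵀ * ((O e * D * (O e)ᵀ) * Z * (O e * D' * (O e)ᵀ)) * O e =
      D * ((O e)ᵀ * Z * O e) * D' := by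
  calc (O e)ᵀ * ((O e * D * (O e)ᵀ) * Z * (O e * D' * (O e)ᵀ)) * O e
      = ((O e)ᵀ * O e) * D * ((O e)ᵀ * Z * O e) * D' * ((O e)ᵀ * O e) := by
        simp only [Matrix.mul_assoc]
    _ = _ := by rw [H.orth e, Matrix.one_mul, Matrix.mul_one]

/-- the matrix of the commutator of a diagonal matrix in the pair basis -/
theorem comm_entry (H : Hyp C key ht O lam gam) (e : I) (f : ι → ℝ) (y z : ι)
    (hk : key e y = key e z) :
    ((O e)ᵀ * ad C (Matrix.diagonal f) * O e) y z =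
      (lam e (ht e y) - lam e (ht e z)) * ((O e)ᵀ * Matrix.diagonal f * O e) y z := by
  set Φ : Matrix ι ι ℝ := Matrix.diagonal f with hΦ
  set M : Matrix ι ι ℝ := (O e)ᵀ * C * O e with hM
  set P : Matrix ι ι ℝ := (O e)ᵀ * Φ * O e with hP
  have hPs : ∀ a b, P a b ≠ 0 → key e a = key e b := by
    intro a b hab
    by_contra hne
    apply hab
    rw [hP, hΦ, Matrix.mul_apply]
    refine sum_eq_zero fun x _ => ?_
    rw [Matrix.mul_diagonal, Matrix.transpose_apply]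
    by_cases h1 : O e x a = 0
    · rw [h1]; ring
    by_cases h2 : O e x b = 0
    · rw [h2]; ring
    exact absurd ((H.supp e x a h1).symm.trans (H.supp e x b h2)) hne
  have h1 : (O e)ᵀ * ad C Φ * O e = M * P - P * M := by
    have h2 : M * P = (O e)ᵀ * (C * Φ) * O e := by
      calc M * P = (O e)ᵀ * C * (O e * (O e)ᵀ) * Φ * O e := by
            rw [hM, hP]; simp only [Matrix.mul_assoc]
        _ = _ := by rw [orth' H e, Matrix.mul_one]; simp only [Matrix.mul_assoc]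
    have h3 : P * M = (O e)ᵀ * (Φ * C) * O e := by
      calc P * M = (O e)ᵀ * Φ * (O e * (O e)ᵀ) * C * O e := by
            rw [hM, hP]; simp only [Matrix.mul_assoc]
        _ = _ := by rw [orth' H e, Matrix.mul_one]; simp only [Matrix.mul_assoc]
    rw [h2, h3, ad, Matrix.mul_sub, Matrix.sub_mul]
  rw [h1, Matrix.sub_apply, Matrix.mul_apply, Matrix.mul_apply]
  rw [sum_eq_single y, sum_eq_single z]
  · have h4 := H.dia e y
    have h5 := H.dia e z
    rw [← hM] at h4 h5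
    rw [h4, h5, hk]
    ring
  · intro w _ hw
    by_cases h2 : P y w = 0
    · rw [h2, zero_mul]
    by_cases h3 : M w z = 0
    · rw [h3, mul_zero]
    exact absurd (H.inj e w z ((hPs y w h2).symm.trans hk) (H.blk e w z h3)) hw
  · intro h; exact absurd (mem_univ _) h
  · intro w _ hw
    by_cases h2 : P w z = 0
    · rw [h2, mul_zero]
    by_cases h3 : M y w = 0
    · rw [h3, zero_mul]
    exact absurd (H.inj e w y ((hPs w z h2).trans hk.symm) (H.blk e y w h3).symm) hw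
  · intro h; exact absurd (mem_univ _) h

/-- block Cauchy-Schwarz -/
theorem block_cs (H : Hyp C key ht O lam gam) {U : Matrix ι ι ℝ} {c : ι → ℝ} (hU : Eig C U c)
    (e : I) (f : ι → ℝ) (k k' : ℕ) :
    ∑ q ∈ univ.filter (fun q : ι × ι => key e q.1 = key e q.2 ∧ ht e q.1 = k ∧ ht e q.2 = k'),
        ((O e)ᵀ * ad C (Matrix.diagonal f) * O e) q.1 q.2 ^ 2 ≤
      ∑ q ∈ univ.filter (fun q : ι × ι => key e q.1 = key e q.2 ∧ ht e q.1 = k ∧ ht e q.2 = k'),
        ((O e)ᵀ * absad U c (Matrix.diagonal f) * O e) q.1 q.2 ^ 2 := by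
  set S := univ.filter (fun q : ι × ι => key e q.1 = key e q.2 ∧ ht e q.1 = k ∧ ht e q.2 = k')
    with hS
  set Φ : Matrix ι ι ℝ := Matrix.diagonal f with hΦ
  set X := (O e)ᵀ * absad U c Φ * O e with hX
  set Y := (O e)ᵀ * ad C Φ * O e with hY
  set P := (O e)ᵀ * Φ * O e with hP
  set D : Matrix ι ι ℝ := Matrix.diagonal (fun i => if ht e i = k then (1 : ℝ) else 0) with hD
  set D' : Matrix ι ι ℝ := Matrix.diagonal (fun i => if ht e i = k' then (1 : ℝ) else 0) with hD'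
  have hPs : ∀ a b, P a b ≠ 0 → key e a = key e b := by
    intro a b hab
    by_contra hne
    apply hab
    rw [hP, hΦ, Matrix.mul_apply]
    refine sum_eq_zero fun x _ => ?_
    rw [Matrix.mul_diagonal, Matrix.transpose_apply]
    by_cases h1 : O e x a = 0
    · rw [h1]; ring
    by_cases h2 : O e x b = 0
    · rw [h2]; ring
    exact absurd ((H.supp e x a h1).symm.trans (H.supp e x b h2)) hne
  set δ := lam e k - lam e k' with hδ
  have hYP : ∀ q ∈ S, Y q.1 q.2 = δ * P q.1 q.2 := by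
    intro q hq
    rw [hS, mem_filter] at hq
    rw [hY, comm_entry H e f q.1 q.2 hq.2.1, hq.2.2.1, hq.2.2.2]
  -- inner products
  set R := O e * D * (O e)ᵀ with hR
  set R' := O e * D' * (O e)ᵀ with hR'
  have hRC : C * R = R * C := proj_comm H e k
  have hRC' : C * R' = R' * C := proj_comm H e k'
  have key1 : ∀ Z : Matrix ι ι ℝ, ip (R * Z * R') (R * Φ * R') =
      ∑ q ∈ S, ((O e)ᵀ * Z * O e) q.1 q.2 * P q.1 q.2 := by
    intro Z
    rw [← ip_conj_conj (O e) (orth' H e), hR, hR', conj_proj H, conj_proj H]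
    rw [hS, sum_filter, Fintype.sum_prod_type]
    unfold ip
    refine sum_congr rfl fun i _ => sum_congr rfl fun j _ => ?_
    rw [hD, hD', Matrix.mul_diagonal, Matrix.diagonal_mul, Matrix.mul_diagonal,
      Matrix.diagonal_mul]
    simp only
    by_cases h1 : key e i = key e j
    · by_cases h2 : ht e i = k
      · by_cases h3 : ht e j = k'
        · rw [if_pos h2, if_pos h3, if_pos ⟨h1, h2, h3⟩]; ring
        · rw [if_neg h3, if_neg (fun h : key e i = key e j ∧ ht e i = k ∧ ht e j = k' => h3 h.2.2)]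
          ring
      · rw [if_neg h2, if_neg (fun h : key e i = key e j ∧ ht e i = k ∧ ht e j = k' => h2 h.2.1)]
        ring
    · have : P i j = 0 := by
        by_contra h; exact h1 (hPs i j h)
      rw [← hP, this, if_neg (fun h : key e i = key e j ∧ ht e i = k ∧ ht e j = k' => h1 h.1)]
      ring
  have hX1 : ip (absad U c (R * Φ * R')) (R * Φ * R') = ∑ q ∈ S, X q.1 q.2 * P q.1 q.2 := by
    rw [← absad_mul_right hU hRC', ← absad_mul_left hU hRC]
    exact key1 _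
  have hY1 : ip (ad C (R * Φ * R')) (R * Φ * R') = δ * ∑ q ∈ S, P q.1 q.2 ^ 2 := by
    have h2 : ad C (R * Φ * R') = R * ad C Φ * R' := by
      unfold ad
      rw [Matrix.mul_sub, Matrix.sub_mul]
      congr 1
      · calc C * (R * Φ * R') = (C * R) * Φ * R' := by simp only [Matrix.mul_assoc]
          _ = _ := by rw [hRC]; simp only [Matrix.mul_assoc]
      · calc R * Φ * R' * C = R * Φ * (R' * C) := by simp only [Matrix.mul_assoc]
          _ = _ := by rw [← hRC']; simp only [Matrix.mul_assoc]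
    rw [h2, key1, mul_sum]
    refine sum_congr rfl fun q hq => ?_
    rw [← hY, hYP q hq]; ring
  have h1 := ip_absad_ge hU (R * Φ * R')
  rw [hX1, hY1] at h1
  have hcs := sum_mul_sq_le_sq_mul_sq S (fun q => X q.1 q.2) (fun q => P q.1 q.2)
  have hPn : 0 ≤ ∑ q ∈ S, P q.1 q.2 ^ 2 := sum_nonneg fun q _ => sq_nonneg _
  have hXn : 0 ≤ ∑ q ∈ S, X q.1 q.2 ^ 2 := sum_nonneg fun q _ => sq_nonneg _
  have hYs : ∑ q ∈ S, Y q.1 q.2 ^ 2 = δ ^ 2 * ∑ q ∈ S, P q.1 q.2 ^ 2 := by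
    rw [mul_sum]
    refine sum_congr rfl fun q hq => ?_
    rw [hYP q hq]; ring
  rw [hYs]
  rcases hPn.eq_or_lt with h0 | h0
  · rw [← h0, mul_zero]; exact hXn
  · have h2 : (δ * ∑ q ∈ S, P q.1 q.2 ^ 2) ^ 2 ≤ (∑ q ∈ S, X q.1 q.2 * P q.1 q.2) ^ 2 :=
      sq_le_sq.2 (h1.trans (le_abs_self _))
    have h3 : δ ^ 2 * (∑ q ∈ S, P q.1 q.2 ^ 2) * (∑ q ∈ S, P q.1 q.2 ^ 2) ≤
        (∑ q ∈ S, X q.1 q.2 ^ 2) * (∑ q ∈ S, P q.1 q.2 ^ 2) := by
      calc δ ^ 2 * (∑ q ∈ S, P q.1 q.2 ^ 2) * (∑ q ∈ S, P q.1 q.2 ^ 2)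
          = (δ * ∑ q ∈ S, P q.1 q.2 ^ 2) ^ 2 := by ring
        _ ≤ _ := h2
        _ ≤ _ := hcs
    exact le_of_mul_le_mul_right h3 h0

/-- off-diagonal part inside the fibres -/
theorem off_le (H : Hyp C key ht O lam gam) {U : Matrix ι ι ℝ} {c : ι → ℝ} (hU : Eig C U c)
    (e : I) (f : ι → ℝ) :
    ∑ q ∈ offk (key e), ((O e)ᵀ * ad C (Matrix.diagonal f) * O e) q.1 q.2 ^ 2 ≤
      ∑ q ∈ offk (key e), ((O e)ᵀ * absad U c (Matrix.diagonal f) * O e) q.1 q.2 ^ 2 := by
  set g : ι × ι → ℕ × ℕ := fun q => (ht e q.1, ht e q.2) with hg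
  rw [← sum_fiberwise_of_maps_to (s := offk (key e)) (t := (offk (key e)).image g) (g := g)
    (fun x hx => mem_image_of_mem g hx),
    ← sum_fiberwise_of_maps_to (s := offk (key e)) (t := (offk (key e)).image g) (g := g)
    (fun x hx => mem_image_of_mem g hx)]
  refine sum_le_sum fun p _ => ?_
  obtain ⟨k, k'⟩ := p
  by_cases hkk : k = k'
  · have h1 : (offk (key e)).filter (fun q => g q = (k, k')) = ∅ := by
      rw [filter_eq_empty_iff]
      intro q hq hgq
      rw [offk, mem_filter] at hq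
      rw [hg, Prod.mk.injEq] at hgq
      exact hq.2.2 (H.inj e _ _ hq.2.1 (by rw [hgq.1, hgq.2, hkk]))
    rw [h1, sum_empty, sum_empty]
  · have h1 : (offk (key e)).filter (fun q => g q = (k, k')) =
        univ.filter (fun q : ι × ι => key e q.1 = key e q.2 ∧ ht e q.1 = k ∧ ht e q.2 = k') := by
      ext q
      simp only [offk, mem_filter, mem_univ, true_and, hg, Prod.mk.injEq]
      constructor
      · rintro ⟨⟨h2, -⟩, h3⟩
        exact ⟨h2, h3⟩
      · rintro ⟨h2, h3, h4⟩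
        refine ⟨⟨h2, fun h5 => hkk ?_⟩, h3, h4⟩
        rw [← h3, ← h4, h5]
    rw [h1]
    exact block_cs H hU e f k k'

/-- the main inequality -/
theorem main_ineq (H : Hyp C key ht O lam gam) {U : Matrix ι ι ℝ} {c : ι → ℝ} (hU : Eig C U c)
    (f : ι → ℝ) :
    ∑ e, ∑ z, ((O e)ᵀ * absad U c (Matrix.diagonal f) * O e) z z ^ 2 ≤
      ((Fintype.card I : ℝ) - 1) * ∑ x, absad U c (Matrix.diagonal f) x x ^ 2 := by
  set Φ : Matrix ι ι ℝ := Matrix.diagonal f with hΦ
  set X := absad U c Φ with hX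
  set Y := ad C Φ with hY
  have hYe : ∀ x y, Y x y = C x y * (f y - f x) := by
    intro x y
    rw [hY, ad, hΦ, Matrix.sub_apply, Matrix.mul_diagonal, Matrix.diagonal_mul]
    ring
  have hYt : Yᵀ = -Y := by
    ext x y
    rw [Matrix.transpose_apply, Matrix.neg_apply, hYe, hYe, H.symm.apply x y]
    ring
  set T : Finset (ι × ι) := univ.filter (fun q => (∃ e, key e q.1 = key e q.2) ∧ q.1 ≠ q.2) with hT
  have hsumT : ∀ Z : Matrix ι ι ℝ, ∑ e, ∑ q ∈ offk (key e), Z q.1 q.2 ^ 2 =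
      ∑ q ∈ T, Z q.1 q.2 ^ 2 := by
    intro Z
    have hTU : T = univ.biUnion (fun e => offk (key e)) := by
      ext q
      simp only [hT, offk, mem_filter, mem_univ, true_and, mem_biUnion]
      constructor
      · rintro ⟨⟨e, he⟩, hne⟩
        exact ⟨e, he, hne⟩
      · rintro ⟨e, he, hne⟩
        exact ⟨⟨e, he⟩, hne⟩
    rw [hTU, sum_biUnion]
    intro e _ e' _ hee
    refine disjoint_left.2 fun q hq hq' => ?_
    have hq1 := (mem_filter.1 hq).2
    have hq2 := (mem_filter.1 hq').2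
    exact hee (H.one q.1 q.2 hq1.2 e e' hq1.1 hq2.1)
  have hX1 : ∀ e, ∑ z, ((O e)ᵀ * X * O e) z z ^ 2 +
      ∑ q ∈ offk (key e), ((O e)ᵀ * X * O e) q.1 q.2 ^ 2 =
      ∑ x, X x x ^ 2 + ∑ q ∈ offk (key e), X q.1 q.2 ^ 2 := fun e =>
    block_norm (key e) (orth' H e) (H.supp e) X
  have hY1 : ∀ e, ∑ q ∈ offk (key e), ((O e)ᵀ * Y * O e) q.1 q.2 ^ 2 =
      ∑ q ∈ offk (key e), Y q.1 q.2 ^ 2 := by
    intro e
    have h1 := block_norm (key e) (orth' H e) (H.supp e) Y
    have h2 : ∑ z, ((O e)ᵀ * Y * O e) z z ^ 2 = 0 :=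
      sum_eq_zero fun z _ => by rw [antisymm_diag hYt]; ring
    have h3 : ∑ x, Y x x ^ 2 = 0 := sum_eq_zero fun z _ => by rw [hYe]; ring
    linarith
  have hoff : ∀ e, ∑ q ∈ offk (key e), ((O e)ᵀ * Y * O e) q.1 q.2 ^ 2 ≤
      ∑ q ∈ offk (key e), ((O e)ᵀ * X * O e) q.1 q.2 ^ 2 := fun e => off_le H hU e f
  have hYT : ∑ q ∈ T, Y q.1 q.2 ^ 2 = ip Y Y := by
    unfold ip
    rw [← Fintype.sum_prod_type' (f := fun i j => Y i j * Y i j)]
    rw [hT, sum_filter]
    refine sum_congr rfl fun q _ => ?_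
    by_cases h1 : q.1 = q.2
    · rw [if_neg (by tauto), hYe, h1]; ring
    · by_cases h2 : C q.1 q.2 = 0
      · rw [hYe, h2]; split_ifs <;> ring
      · rw [if_pos ⟨H.hop q.1 q.2 h1 h2, h1⟩]; ring
  have hXT : ∑ x, X x x ^ 2 + ∑ q ∈ T, X q.1 q.2 ^ 2 ≤ ip X X := by
    unfold ip
    rw [← Fintype.sum_prod_type' (f := fun i j => X i j * X i j)]
    have h2 : ∑ x, X x x ^ 2 = ∑ q : ι × ι, (if q.1 = q.2 then X q.1 q.2 ^ 2 else 0) := by
      rw [Fintype.sum_prod_type]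
      refine sum_congr rfl fun i _ => ?_
      simp only [sum_ite_eq, mem_univ, if_true]
    rw [h2, hT, sum_filter, ← sum_add_distrib]
    refine sum_le_sum fun q _ => ?_
    have h4 : X q.1 q.2 * X q.1 q.2 = X q.1 q.2 ^ 2 := by ring
    by_cases h1 : q.1 = q.2
    · rw [if_pos h1, if_neg (by tauto), add_zero, h4]
    · rw [if_neg h1, zero_add, h4]
      split_ifs
      · exact le_rfl
      · exact sq_nonneg _
  have hXY : ip X X = ip Y Y := ip_absad_self hU Φ
  have hfin : ∑ e, ∑ z, ((O e)ᵀ * X * O e) z z ^ 2 + ∑ q ∈ T, Y q.1 q.2 ^ 2 ≤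
      (Fintype.card I : ℝ) * ∑ x, X x x ^ 2 + ∑ q ∈ T, X q.1 q.2 ^ 2 := by
    rw [← hsumT Y, ← hsumT X, ← sum_add_distrib]
    have h5 : (Fintype.card I : ℝ) * ∑ x, X x x ^ 2 = ∑ _e : I, ∑ x, X x x ^ 2 := by
      rw [sum_const, card_univ, nsmul_eq_mul]
    rw [h5, ← sum_add_distrib]
    refine sum_le_sum fun e _ => ?_
    have h6 := hX1 e
    have h7 := hY1 e
    have h8 := hoff e
    linarith
  nlinarith [hfin, hXT, hXY, hYT]

end

end P328A
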