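import Vale.Agent.P328.Ana.Basic

namespace Vale.Agent.P328.Ana

open Finset

section av

variable {Ω β γ : Type*} [DecidableEq β] [DecidableEq γ]

theorem av_congr (S : Finset Ω) (k : Ω → β) (F : Ω → ℝ) {x y : Ω} (h : k x = k y) :
    av S k F x = av S k F y := by unfold av; rw [h]

/-- the sum over a fibre of the average is the sum of the function -/
theorem sum_fibre_av (S : Finset Ω) (k : Ω → β) (F : Ω → ℝ) (b : β) :
    ∑ x ∈ S with k x = b, av S k F x = ∑ x ∈ S with k x = b, F x := by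
  have h1 : ∑ x ∈ S with k x = b, av S k F x = ∑ x ∈ S with k x = b, fav S k F b := by
    apply sum_congr rfl
    intro x hx
    rw [mem_filter] at hx
    unfold av
    rw [hx.2]
  rw [h1, sum_const, nsmul_eq_mul]
  unfold fav
  by_cases hc : #{y ∈ S | k y = b} = 0
  · rw [Finset.card_eq_zero] at hc
    rw [hc]; simp
  · field_simp

/-- against a measurable function the average can be dropped -/
theorem sum_meas_mul_av (S : Finset Ω) (k : Ω → β) (F G : Ω → ℝ)
    (hG : ∀ x ∈ S, ∀ y ∈ S, k x = k y → G x = G y) :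
    ∑ x ∈ S, G x * av S k F x = ∑ x ∈ S, G x * F x := by
  rw [← sum_fiberwise_of_maps_to (s := S) (t := S.image k) (g := k)
      (fun x hx => mem_image_of_mem k hx) (fun x => G x * av S k F x),
    ← sum_fiberwise_of_maps_to (s := S) (t := S.image k) (g := k)
      (fun x hx => mem_image_of_mem k hx) (fun x => G x * F x)]
  apply sum_congr rfl
  intro b hb
  obtain ⟨x0, hx0, rfl⟩ := mem_image.1 hb
  have e1 : ∀ H : Ω → ℝ, ∑ x ∈ S with k x = k x0, G x * H x =
      G x0 * ∑ x ∈ S with k x = k x0, H x := by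
    intro H
    rw [mul_sum]
    apply sum_congr rfl
    intro x hx
    rw [mem_filter] at hx
    rw [hG x hx.1 x0 hx0 hx.2]
  rw [e1, e1, sum_fibre_av]

theorem av_meas (S : Finset Ω) (k : Ω → β) (F : Ω → ℝ) :
    ∀ x ∈ S, ∀ y ∈ S, k x = k y → av S k F x = av S k F y :=
  fun _ _ _ _ h => av_congr S k F h

/-- self-adjointness -/
theorem sum_mul_av (S : Finset Ω) (k : Ω → β) (F G : Ω → ℝ) :
    ∑ x ∈ S, G x * av S k F x = ∑ x ∈ S, av S k G x * F x := by
  have h1 := sum_meas_mul_av S k G (av S k F) (av_meas S k F)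
  have h2 := sum_meas_mul_av S k F (av S k G) (av_meas S k G)
  rw [← h2, ← sum_congr rfl (fun x _ => mul_comm (av S k F x) (G x)), ← h1]
  exact sum_congr rfl (fun x _ => mul_comm _ _)

/-- the average of a measurable function is the function -/
theorem av_of_meas (S : Finset Ω) (k : Ω → β) (G : Ω → ℝ)
    (hG : ∀ x ∈ S, ∀ y ∈ S, k x = k y → G x = G y) {x : Ω} (hx : x ∈ S) : av S k G x = G x := by
  unfold av fav
  have h1 : ∑ y ∈ S with k y = k x, G y = ∑ y ∈ S with k y = k x, G x := by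
    apply sum_congr rfl
    intro y hy
    rw [mem_filter] at hy
    exact hG y hy.1 x hx hy.2
  rw [h1, sum_const, nsmul_eq_mul]
  have hc : (#{y ∈ S | k y = k x} : ℝ) ≠ 0 := by
    have : x ∈ ({y ∈ S | k y = k x} : Finset Ω) := by simp [hx]
    exact_mod_cast (Finset.card_pos.2 ⟨x, this⟩).ne'
  field_simp

theorem av_sub (S : Finset Ω) (k : Ω → β) (F G : Ω → ℝ) (x : Ω) :
    av S k (fun y => F y - G y) x = av S k F x - av S k G x := by
  unfold av fav
  rw [sum_sub_distrib, sub_div]

theorem av_add (S : Finset Ω) (k : Ω → β) (F G : Ω → ℝ) (x : Ω) :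
    av S k (fun y => F y + G y) x = av S k F x + av S k G x := by
  unfold av fav
  rw [sum_add_distrib, add_div]

theorem av_smul (S : Finset Ω) (k : Ω → β) (F : Ω → ℝ) (a : ℝ) (x : Ω) :
    av S k (fun y => a * F y) x = a * av S k F x := by
  unfold av fav
  rw [← mul_sum, mul_div_assoc]

theorem av_congr_fun (S : Finset Ω) (k : Ω → β) {F G : Ω → ℝ} (h : ∀ x ∈ S, F x = G x) (x : Ω) :
    av S k F x = av S k G x := by
  unfold av fav
  congr 1
  apply sum_congr rfl
  intro y hy
  exact h y (mem_filter.1 hy).1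

theorem sum_av (S : Finset Ω) (k : Ω → β) (F : Ω → ℝ) : ∑ x ∈ S, av S k F x = ∑ x ∈ S, F x := by
  have := sum_meas_mul_av S k F (fun _ => 1) (fun _ _ _ _ _ => rfl)
  simpa using this

/-- tower property: `k` is finer than `l` -/
theorem av_av (S : Finset Ω) (k : Ω → β) (l : Ω → γ)
    (hkl : ∀ x ∈ S, ∀ y ∈ S, k x = k y → l x = l y) (F : Ω → ℝ) (x : Ω) :
    av S l (av S k F) x = av S l F x := by
  unfold av
  show fav S l (av S k F) (l x) = fav S l F (l x)
  unfold fav
  congr 1
  have h1 : ∀ H : Ω → ℝ, ∑ y ∈ S with l y = l x, H y =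
      ∑ y ∈ S, (if l y = l x then (1 : ℝ) else 0) * H y := by
    intro H
    rw [sum_filter]
    apply sum_congr rfl
    intro y _
    split_ifs <;> simp
  rw [h1, h1]
  apply sum_meas_mul_av
  intro y hy z hz hyz
  rw [hkl y hy z hz hyz]

/-- transport of averages along a bijection of fibres -/
theorem av_transport {Ω' β' : Type*} [DecidableEq β'] (S : Finset Ω) (S' : Finset Ω')
    (k : Ω → β) (k' : Ω' → β') (e : Ω' → Ω) (x' : Ω')
    (hmap : ∀ y' ∈ S', k' y' = k' x' → e y' ∈ S ∧ k (e y') = k (e x'))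
    (hinj : ∀ y' ∈ S', ∀ z' ∈ S', k' y' = k' x' → k' z' = k' x' → e y' = e z' → y' = z')
    (hsurj : ∀ y ∈ S, k y = k (e x') → ∃ y' ∈ S', k' y' = k' x' ∧ e y' = y) (F : Ω → ℝ) :
    av S' k' (fun y' => F (e y')) x' = av S k F (e x') := by
  unfold av fav
  have hb : ∀ H : Ω → ℝ, ∑ y' ∈ S' with k' y' = k' x', H (e y') =
      ∑ y ∈ S with k y = k (e x'), H y := by
    intro H
    apply sum_bij (fun y' _ => e y')
    · intro y' hy'
      rw [mem_filter] at hy' ⊢
      exact hmap y' hy'.1 hy'.2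
    · intro y' hy' z' hz' h
      rw [mem_filter] at hy' hz'
      exact hinj y' hy'.1 z' hz'.1 hy'.2 hz'.2 h
    · intro y hy
      rw [mem_filter] at hy
      obtain ⟨y', h1, h2, h3⟩ := hsurj y hy.1 hy.2
      exact ⟨y', by rw [mem_filter]; exact ⟨h1, h2⟩, h3⟩
    · intro y' _
      rfl
  have hc := hb (fun _ => 1)
  rw [sum_const, sum_const] at hc
  simp only [nsmul_eq_mul, mul_one] at hc
  rw [hb F, hc]

/-- Pythagoras in the form: the defect is orthogonal to measurable functions. -/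
theorem sum_meas_mul_sub (S : Finset Ω) (k : Ω → β) (F G : Ω → ℝ)
    (hG : ∀ x ∈ S, ∀ y ∈ S, k x = k y → G x = G y) :
    ∑ x ∈ S, G x * (F x - av S k F x) = 0 := by
  have h := sum_meas_mul_av S k F G hG
  simp only [mul_sub, sum_sub_distrib]
  linarith

end av

end Vale.Agent.P328.Ana
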