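import Vale.Agent.P328.Defs

/-!
# P328, analysis side: averages over fibres, two-row classes, the slice inequality

Everything lives on finsets of an ambient type.  `av S k F x` is the average of `F` over the
points `y ∈ S` with the same key `k y = k x`.
-/

namespace Vale.Agent.P328.Ana

open Finset

section av

variable {Ω β γ : Type*} [DecidableEq β] [DecidableEq γ]

/-- The average of `F` over the points of `S` whose key is `b`. -/
noncomputable def fav (S : Finset Ω) (k : Ω → β) (F : Ω → ℝ) (b : β) : ℝ :=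
  (∑ y ∈ S with k y = b, F y) / (#{y ∈ S | k y = b} : ℝ)

/-- The average of `F` over the points of `S` with the same key as `x`. -/
noncomputable def av (S : Finset Ω) (k : Ω → β) (F : Ω → ℝ) (x : Ω) : ℝ := fav S k F (k x)

end av

section slice

variable {n : ℕ}

/-- The integer points of the box `∏ [0, t j]` with coordinate sum `s` (a two-row class). -/
def Om (t : Fin n → ℕ) (s : ℕ) : Finset (Fin n → ℕ) :=
  (Fintype.piFinset fun j => Finset.range (t j + 1)).filter fun x => ∑ j, x j = s

theorem mem_Om {t : Fin n → ℕ} {s : ℕ} {x : Fin n → ℕ} :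
    x ∈ Om t s ↔ (∀ j, x j ≤ t j) ∧ ∑ j, x j = s := by
  simp [Om, Fintype.mem_piFinset]

/-- The key of a pair class: forget the coordinates `a` and `b`. -/
def key (a b : Fin n) (x : Fin n → ℕ) : Fin n → ℕ := fun j => if j = a ∨ j = b then 0 else x j

/-- The height of a point in its pair class. -/
def ht (t : Fin n → ℕ) (a b : Fin n) (x : Fin n → ℕ) : ℕ := min (x a) (t b - x b)

/-- The set of pairs `a < b`. -/
def prs (n : ℕ) : Finset (Fin n × Fin n) := univ.filter fun p => p.1 < p.2

/-- The slice inequality with constant `κ` for the two-row class `Om t s`. -/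
def Slice (κ : ℝ) (t : Fin n → ℕ) (s : ℕ) : Prop :=
  ∀ F : (Fin n → ℕ) → ℝ, ∑ x ∈ Om t s, F x = 0 → ∀ h : Fin n → Fin n → ℕ → ℝ,
    κ * ∑ x ∈ Om t s, F x ^ 2 ≤ ∑ p ∈ prs n, ∑ x ∈ Om t s,
      ((F x - av (Om t s) (key p.1 p.2) F x) ^ 2
        - 2 * (F x * av (Om t s) (key p.1 p.2) (fun y => h p.1 p.2 (ht t p.1 p.2 y)) x)
        + (h p.1 p.2 (ht t p.1 p.2 x)
            - av (Om t s) (key p.1 p.2) (fun y => h p.1 p.2 (ht t p.1 p.2 y)) x) ^ 2)

/-- The number of pair classes with at least `k + 1` points: the number of points of height `k`. -/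
def Phi (t : Fin n → ℕ) (s : ℕ) (a b : Fin n) (k : ℕ) : ℕ := #{x ∈ Om t s | ht t a b x = k}

/-- The sum of `F` over the pair classes with at least `k + 1` points (for
`k ≤ min (t a) (t b)`). -/
noncomputable def Sk (t : Fin n → ℕ) (s : ℕ) (a b : Fin n) (F : (Fin n → ℕ) → ℝ) (k : ℕ) : ℝ :=
  ∑ x ∈ Om t s with k ≤ x a + x b ∧ x a + x b + k ≤ t a + t b, F x

/-- The explicit value of the supremum over `h` (for mean-zero `F`). -/
noncomputable def U (t : Fin n → ℕ) (s : ℕ) (a b : Fin n) (F : (Fin n → ℕ) → ℝ) : ℝ :=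
  ∑ k ∈ Icc 1 (min (t a) (t b)), Sk t s a b F k ^ 2 / ((k : ℝ) * (k + 1) * Phi t s a b k)

/-- The slice inequality in explicit form. -/
def SliceE (κ : ℝ) (t : Fin n → ℕ) (s : ℕ) : Prop :=
  ∀ F : (Fin n → ℕ) → ℝ, ∑ x ∈ Om t s, F x = 0 →
    κ * ∑ x ∈ Om t s, F x ^ 2 ≤
      ∑ p ∈ prs n, (∑ x ∈ Om t s, (F x - av (Om t s) (key p.1 p.2) F x) ^ 2 - U t s p.1 p.2 F)

end slice

section tables

variable {m n : ℕ}

/-- The finset of contingency tables. -/
noncomputable def Tb (r : Fin m → ℕ) (c : Fin n → ℕ) : Finset (Fin m → Fin n → ℕ) :=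
  haveI : DecidablePred (IsTable r c) := Classical.decPred _
  (Fintype.piFinset fun i => Fintype.piFinset fun _ => Finset.range (r i + 1)).filter
    fun X => IsTable r c X

theorem mem_Tb {r : Fin m → ℕ} {c : Fin n → ℕ} {X : Fin m → Fin n → ℕ} :
    X ∈ Tb r c ↔ IsTable r c X := by
  classical
  simp only [Tb, mem_filter, Fintype.mem_piFinset, mem_range, Nat.lt_succ_iff, and_iff_right_iff_imp]
  intro h i j
  rw [← h.1 i]
  exact Finset.single_le_sum (f := fun j => X i j) (fun _ _ => Nat.zero_le _) (mem_univ j)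

/-- Key of the rows `u, v` resampling: forget rows `u` and `v`. -/
def rk (u v : Fin m) (X : Fin m → Fin n → ℕ) : Fin m → Fin n → ℕ :=
  fun i j => if i = u ∨ i = v then 0 else X i j

/-- Key of the columns `a, b` resampling: forget columns `a` and `b`. -/
def ck (a b : Fin n) (X : Fin m → Fin n → ℕ) : Fin m → Fin n → ℕ :=
  fun i j => if j = a ∨ j = b then 0 else X i j

/-- Key of the block resampling. -/
def bk (u v : Fin m) (a b : Fin n) (X : Fin m → Fin n → ℕ) : Fin m → Fin n → ℕ :=
  fun i j => if (i = u ∨ i = v) ∧ (j = a ∨ j = b) then 0 else X i j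

/-- Key of the cross: forget rows `u, v` and columns `a, b`. -/
def wk (u v : Fin m) (a b : Fin n) (X : Fin m → Fin n → ℕ) : Fin m → Fin n → ℕ :=
  fun i j => if (i = u ∨ i = v) ∨ (j = a ∨ j = b) then 0 else X i j

/-- The height of a table in its block class. -/
def hK (u v : Fin m) (a b : Fin n) (X : Fin m → Fin n → ℕ) : ℕ := min (X u a) (X v b)

end tables

end Vale.Agent.P328.Ana
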