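import Vale.Agent.P328.Ana.Basic

/-!
# P328, [SWAP]: the product structure of the cross
-/

namespace Vale.Agent.P328.Ana

open Finset

namespace SwapAux

variable {m n : ℕ}

theorem sum_split {n : ℕ} {a b : Fin n} (hab : a ≠ b) (f : Fin n → ℕ) :
    ∑ j, f j = f a + f b + ∑ j, (if j = a ∨ j = b then 0 else f j) := by
  have h : ∀ j, f j = (if j = a then f j else 0) + (if j = b then f j else 0) +
      (if j = a ∨ j = b then 0 else f j) := by
    intro j
    by_cases h1 : j = a
    · have h2 : j ≠ b := fun h => hab (h1 ▸ h)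
      simp [h1, hab]
    · by_cases h2 : j = b
      · simp [h2, Ne.symm hab]
      · simp [h1, h2]
  calc ∑ j, f j = ∑ j, ((if j = a then f j else 0) + (if j = b then f j else 0) +
      (if j = a ∨ j = b then 0 else f j)) := Finset.sum_congr rfl fun j _ => h j
    _ = _ := by
      rw [Finset.sum_add_distrib, Finset.sum_add_distrib]
      simp

theorem wk_of_rk {u v : Fin m} {a b : Fin n} {X Z : Fin m → Fin n → ℕ}
    (h : rk u v Z = rk u v X) : wk u v a b Z = wk u v a b X := by
  funext i j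
  have h1 := congrFun (congrFun h i) j
  simp only [rk] at h1
  simp only [wk]
  by_cases hi : i = u ∨ i = v
  · simp [hi]
  · by_cases hj : j = a ∨ j = b
    · simp [hj]
    · simp only [hi, hj, if_false, or_self] at h1 ⊢
      exact h1

theorem out_of_rk {u v : Fin m} {X Z : Fin m → Fin n → ℕ} (h : rk u v Z = rk u v X)
    {i : Fin m} (h1 : i ≠ u) (h2 : i ≠ v) (j : Fin n) : Z i j = X i j := by
  have h3 := congrFun (congrFun h i) j
  simpa [rk, h1, h2] using h3

theorem out_of_ck {a b : Fin n} {X Z : Fin m → Fin n → ℕ} (h : ck a b Z = ck a b X)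
    {j : Fin n} (h1 : j ≠ a) (h2 : j ≠ b) (i : Fin m) : Z i j = X i j := by
  have h3 := congrFun (congrFun h i) j
  simpa [ck, h1, h2] using h3

theorem out_of_wk {u v : Fin m} {a b : Fin n} {X Z : Fin m → Fin n → ℕ}
    (h : wk u v a b Z = wk u v a b X)
    {i : Fin m} (h1 : i ≠ u) (h2 : i ≠ v) {j : Fin n} (h3 : j ≠ a) (h4 : j ≠ b) :
    Z i j = X i j := by
  have h5 := congrFun (congrFun h i) j
  simpa [wk, h1, h2, h3, h4] using h5

theorem row_split {r : Fin m → ℕ} {c : Fin n → ℕ} {a b : Fin n} (hab : a ≠ b)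
    {X : Fin m → Fin n → ℕ} (hX : X ∈ Tb r c) (i : Fin m) :
    r i = X i a + X i b + ∑ j, (if j = a ∨ j = b then 0 else X i j) := by
  rw [← sum_split hab, (mem_Tb.1 hX).1 i]

theorem col_split {r : Fin m → ℕ} {c : Fin n → ℕ} {u v : Fin m} (huv : u ≠ v)
    {X : Fin m → Fin n → ℕ} (hX : X ∈ Tb r c) (j : Fin n) :
    c j = X u j + X v j + ∑ i, (if i = u ∨ i = v then 0 else X i j) := by
  rw [← sum_split huv (fun i => X i j), (mem_Tb.1 hX).2 j]

/-- the block total -/
theorem block_total {r : Fin m → ℕ} {c : Fin n → ℕ} {u v : Fin m} {a b : Fin n} (huv : u ≠ v)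
    (hab : a ≠ b) {X : Fin m → Fin n → ℕ} (hX : X ∈ Tb r c) :
    X u a + X u b + X v a + X v b + ∑ i, (if i = u ∨ i = v then 0 else r i) =
      c a + c b + ∑ i, ∑ j, wk u v a b X i j := by
  have h1 : ∀ i, (if i = u ∨ i = v then 0 else r i) =
      (if i = u ∨ i = v then 0 else X i a) + (if i = u ∨ i = v then 0 else X i b) +
        ∑ j, wk u v a b X i j := by
    intro i
    by_cases hi : i = u ∨ i = v
    · simp [hi, wk]
    · rw [if_neg hi, if_neg hi, if_neg hi, row_split hab hX i]
      congr 1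
      refine Finset.sum_congr rfl fun j _ => ?_
      simp only [wk, hi, false_or]
  rw [Finset.sum_congr rfl fun i _ => h1 i, Finset.sum_add_distrib, Finset.sum_add_distrib,
    col_split huv hX a, col_split huv hX b]
  ring

/-- the formula for the corner -/
theorem corner {A C D γ ρ' k : ℕ} (h1 : A + C = γ) (h2 : C + D = ρ') (hk : min A D = k) :
    A = k + (γ - ρ') := by
  omega

end SwapAux

open SwapAux

section cross

variable {m n : ℕ}

/-- **[SWAP]** the product structure of the cross: two tables with the same outside and the same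
height can exchange their column arms. -/
theorem exists_swap (r : Fin m → ℕ) (c : Fin n → ℕ) {u v : Fin m} {a b : Fin n} (huv : u ≠ v)
    (hab : a ≠ b) {X Y : Fin m → Fin n → ℕ} (hX : X ∈ Tb r c) (hY : Y ∈ Tb r c)
    (hw : wk u v a b X = wk u v a b Y) (hh : hK u v a b X = hK u v a b Y) :
    ∃ Z ∈ Tb r c, rk u v Z = rk u v X ∧ ck a b Z = ck a b Y ∧ hK u v a b Z = hK u v a b X := by
  have hbX := block_total huv hab hX
  have hbY := block_total huv hab hY
  rw [hw] at hbX
  have htot : X u a + X u b + X v a + X v b = Y u a + Y u b + Y v a + Y v b := by omega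
  have hh' : min (X u a) (X v b) = min (Y u a) (Y v b) := hh
  obtain ⟨k, hk⟩ : ∃ k, k = min (X u a) (X v b) := ⟨_, rfl⟩
  obtain ⟨zua, hzua⟩ : ∃ z, z = k + ((X u a + X v a) - (Y v a + Y v b)) := ⟨_, rfl⟩
  obtain ⟨zvb, hzvb⟩ : ∃ z, z = k + ((Y v a + Y v b) - (X u a + X v a)) := ⟨_, rfl⟩
  obtain ⟨zub, hzub⟩ : ∃ z, z = (Y u a + Y u b) - zua := ⟨_, rfl⟩
  obtain ⟨zva, hzva⟩ : ∃ z, z = (X u a + X v a) - zua := ⟨_, rfl⟩
  have e1 : zua + zub = Y u a + Y u b := by omega
  have e2 : zva + zvb = Y v a + Y v b := by omega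
  have e3 : zua + zva = X u a + X v a := by omega
  have e4 : zub + zvb = X u b + X v b := by omega
  have e5 : min zua zvb = k := by omega
  have hba : b ≠ a := Ne.symm hab
  have hvu : v ≠ u := Ne.symm huv
  let Z : Fin m → Fin n → ℕ := fun i j =>
    if i = u then (if j = a then zua else if j = b then zub else Y u j)
    else if i = v then (if j = a then zva else if j = b then zvb else Y v j) else X i j
  have Zua : Z u a = zua := by simp [Z]
  have Zub : Z u b = zub := by simp [Z, hba]
  have Zva : Z v a = zva := by simp [Z, hvu]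
  have Zvb : Z v b = zvb := by simp [Z, hvu, hba]
  have Zuj : ∀ j, j ≠ a → j ≠ b → Z u j = Y u j := by
    intro j h1 h2; simp [Z, h1, h2]
  have Zvj : ∀ j, j ≠ a → j ≠ b → Z v j = Y v j := by
    intro j h1 h2; simp [Z, h1, h2, hvu]
  have Zij : ∀ i, i ≠ u → i ≠ v → ∀ j, Z i j = X i j := by
    intro i h1 h2 j; simp [Z, h1, h2]
  have hmem : Z ∈ Tb r c := by
    rw [mem_Tb]
    constructor
    · intro i
      by_cases h1 : i = u
      · subst h1
        rw [sum_split hab, Zua, Zub, row_split hab hY i, ← e1]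
        congr 1
        refine Finset.sum_congr rfl fun j _ => ?_
        by_cases hj : j = a ∨ j = b
        · simp [hj]
        · rw [if_neg hj, if_neg hj]
          push Not at hj
          exact Zuj j hj.1 hj.2
      · by_cases h2 : i = v
        · subst h2
          rw [sum_split hab, Zva, Zvb, row_split hab hY i, ← e2]
          congr 1
          refine Finset.sum_congr rfl fun j _ => ?_
          by_cases hj : j = a ∨ j = b
          · simp [hj]
          · rw [if_neg hj, if_neg hj]
            push Not at hj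
            exact Zvj j hj.1 hj.2
        · rw [← (mem_Tb.1 hX).1 i]
          exact Finset.sum_congr rfl fun j _ => Zij i h1 h2 j
    · intro j
      have hs : ∑ i, (if i = u ∨ i = v then 0 else Z i j) =
          ∑ i, (if i = u ∨ i = v then 0 else X i j) := by
        refine Finset.sum_congr rfl fun i _ => ?_
        by_cases hi : i = u ∨ i = v
        · simp [hi]
        · rw [if_neg hi, if_neg hi]
          push Not at hi
          exact Zij i hi.1 hi.2 j
      rw [sum_split huv (fun i => Z i j), hs]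
      by_cases h1 : j = a
      · subst h1
        rw [Zua, Zva, col_split huv hX j, ← e3]
      · by_cases h2 : j = b
        · subst h2
          rw [Zub, Zvb, col_split huv hX j, ← e4]
        · rw [Zuj j h1 h2, Zvj j h1 h2, col_split huv hY j]
          congr 1
          refine Finset.sum_congr rfl fun i _ => ?_
          by_cases hi : i = u ∨ i = v
          · simp [hi]
          · rw [if_neg hi, if_neg hi]
            push Not at hi
            exact out_of_wk hw hi.1 hi.2 h1 h2
  refine ⟨Z, hmem, ?_, ?_, ?_⟩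
  · funext i j
    simp only [rk]
    by_cases hi : i = u ∨ i = v
    · simp [hi]
    · rw [if_neg hi, if_neg hi]
      push Not at hi
      exact Zij i hi.1 hi.2 j
  · funext i j
    simp only [ck]
    by_cases hj : j = a ∨ j = b
    · simp [hj]
    · rw [if_neg hj, if_neg hj]
      push Not at hj
      by_cases h1 : i = u
      · subst h1; exact Zuj j hj.1 hj.2
      · by_cases h2 : i = v
        · subst h2; exact Zvj j hj.1 hj.2
        · rw [Zij i h1 h2 j]
          exact out_of_wk hw h1 h2 hj.1 hj.2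
  · rw [hK, hK, Zua, Zvb, e5, hk]

/-- **[INJ]** a table is determined by its row key, its column key and its height. -/
theorem eq_of_keys (r : Fin m → ℕ) (c : Fin n → ℕ) {u v : Fin m} {a b : Fin n} (huv : u ≠ v)
    (hab : a ≠ b) {X Y : Fin m → Fin n → ℕ} (hX : X ∈ Tb r c) (hY : Y ∈ Tb r c)
    (h1 : rk u v X = rk u v Y) (h2 : ck a b X = ck a b Y) (hh : hK u v a b X = hK u v a b Y) :
    X = Y := by
  have hh' : min (X u a) (X v b) = min (Y u a) (Y v b) := hh
  have ru := row_split hab hX u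
  have ru' := row_split hab hY u
  have rv := row_split hab hX v
  have rv' := row_split hab hY v
  have ca := col_split huv hX a
  have ca' := col_split huv hY a
  have cb := col_split huv hX b
  have cb' := col_split huv hY b
  have su : ∑ j, (if j = a ∨ j = b then 0 else X u j) =
      ∑ j, (if j = a ∨ j = b then 0 else Y u j) := by
    refine Finset.sum_congr rfl fun j _ => ?_
    exact congrFun (congrFun h2 u) j
  have sv : ∑ j, (if j = a ∨ j = b then 0 else X v j) =
      ∑ j, (if j = a ∨ j = b then 0 else Y v j) := by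
    refine Finset.sum_congr rfl fun j _ => ?_
    exact congrFun (congrFun h2 v) j
  have sa : ∑ i, (if i = u ∨ i = v then 0 else X i a) =
      ∑ i, (if i = u ∨ i = v then 0 else Y i a) := by
    refine Finset.sum_congr rfl fun i _ => ?_
    exact congrFun (congrFun h1 i) a
  have sb : ∑ i, (if i = u ∨ i = v then 0 else X i b) =
      ∑ i, (if i = u ∨ i = v then 0 else Y i b) := by
    refine Finset.sum_congr rfl fun i _ => ?_
    exact congrFun (congrFun h1 i) b
  have e1 : X u a = Y u a := by omega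
  have e2 : X u b = Y u b := by omega
  have e3 : X v a = Y v a := by omega
  have e4 : X v b = Y v b := by omega
  funext i j
  by_cases hi : i = u ∨ i = v
  · by_cases hj : j = a ∨ j = b
    · rcases hi with rfl | rfl <;> rcases hj with rfl | rfl <;> assumption
    · push Not at hj
      exact out_of_ck h2 hj.1 hj.2 i
  · push Not at hi
    exact out_of_rk h1 hi.1 hi.2 j

/-- **[CI]** conditional independence of the row key and the column key given the outside of the
cross and the height. -/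
theorem cond_indep (r : Fin m → ℕ) (c : Fin n → ℕ) {u v : Fin m} {a b : Fin n} (huv : u ≠ v)
    (hab : a ≠ b) (f g : (Fin m → Fin n → ℕ) → ℝ)
    (hf : ∀ X ∈ Tb r c, ∀ Y ∈ Tb r c, ck a b X = ck a b Y → f X = f Y)
    (hg : ∀ X ∈ Tb r c, ∀ Y ∈ Tb r c, rk u v X = rk u v Y → g X = g Y) :
    ∑ X ∈ Tb r c, f X * g X =
      ∑ X ∈ Tb r c, av (Tb r c) (fun X => (wk u v a b X, hK u v a b X)) f X *
        av (Tb r c) (fun X => (wk u v a b X, hK u v a b X)) g X := by
  classical
  set κ : (Fin m → Fin n → ℕ) → (Fin m → Fin n → ℕ) × ℕ :=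
    fun X => (wk u v a b X, hK u v a b X) with hκ
  rw [← Finset.sum_fiberwise_of_maps_to (s := Tb r c) (t := (Tb r c).image κ) (g := κ)
      (fun x hx => Finset.mem_image_of_mem κ hx),
    ← Finset.sum_fiberwise_of_maps_to (s := Tb r c) (t := (Tb r c).image κ) (g := κ)
      (fun x hx => Finset.mem_image_of_mem κ hx)]
  refine Finset.sum_congr rfl fun ω hω => ?_
  obtain ⟨X0, hX0, hX0ω⟩ := Finset.mem_image.1 hω
  set S : Finset (Fin m → Fin n → ℕ) := (Tb r c).filter fun x => κ x = ω with hS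
  have hSne : (0 : ℝ) < (#S : ℝ) := by
    have : 0 < #S := Finset.card_pos.2 ⟨X0, Finset.mem_filter.2 ⟨hX0, hX0ω⟩⟩
    exact_mod_cast this
  have hr : ∑ X ∈ S, av (Tb r c) κ f X * av (Tb r c) κ g X =
      (∑ X ∈ S, f X) * (∑ X ∈ S, g X) / (#S : ℝ) := by
    have h1 : ∀ X ∈ S, av (Tb r c) κ f X * av (Tb r c) κ g X =
        ((∑ X ∈ S, f X) / #S) * ((∑ X ∈ S, g X) / #S) := by
      intro X hX
      have hX' : κ X = ω := (Finset.mem_filter.1 hX).2
      simp only [av, fav, hX']
      rfl
    rw [Finset.sum_congr rfl h1, Finset.sum_const, nsmul_eq_mul]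
    field_simp
  rw [hr, eq_div_iff hSne.ne']
  -- the involution
  have hex : ∀ p : (Fin m → Fin n → ℕ) × (Fin m → Fin n → ℕ), ∃ Z, p ∈ S ×ˢ S →
      Z ∈ S ∧ rk u v Z = rk u v p.1 ∧ ck a b Z = ck a b p.2 := by
    intro p
    by_cases hp : p ∈ S ×ˢ S
    · obtain ⟨h1, h2⟩ := Finset.mem_product.1 hp
      obtain ⟨h1a, h1b⟩ := Finset.mem_filter.1 h1
      obtain ⟨h2a, h2b⟩ := Finset.mem_filter.1 h2
      have hk : κ p.1 = κ p.2 := by rw [h1b, h2b]
      have hw : wk u v a b p.1 = wk u v a b p.2 := congrArg Prod.fst hk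
      have hh : hK u v a b p.1 = hK u v a b p.2 := congrArg Prod.snd hk
      obtain ⟨Z, hZ, hZ1, hZ2, hZ3⟩ := exists_swap r c huv hab h1a h2a hw hh
      refine ⟨Z, fun _ => ⟨Finset.mem_filter.2 ⟨hZ, ?_⟩, hZ1, hZ2⟩⟩
      rw [← h1b, hκ]
      exact Prod.ext (wk_of_rk hZ1) hZ3
    · exact ⟨p.1, fun h => absurd h hp⟩
  choose Z hZ using hex
  have hkey : ∀ {A B : Fin m → Fin n → ℕ}, A ∈ S → B ∈ S → rk u v A = rk u v B →
      ck a b A = ck a b B → A = B := by
    intro A B hA hB h1 h2
    obtain ⟨hA1, hA2⟩ := Finset.mem_filter.1 hA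
    obtain ⟨hB1, hB2⟩ := Finset.mem_filter.1 hB
    have hk : κ A = κ B := by rw [hA2, hB2]
    exact eq_of_keys r c huv hab hA1 hB1 h1 h2 (congrArg Prod.snd hk)
  have hswap : ∀ p ∈ S ×ˢ S, (Z p, Z p.swap) ∈ S ×ˢ S := by
    intro p hp
    obtain ⟨h1, h2⟩ := Finset.mem_product.1 hp
    have hp' : p.swap ∈ S ×ˢ S := Finset.mem_product.2 ⟨h2, h1⟩
    exact Finset.mem_product.2 ⟨(hZ p hp).1, (hZ p.swap hp').1⟩
  have hinv : ∀ p ∈ S ×ˢ S, (Z (Z p, Z p.swap), Z (Z p, Z p.swap).swap) = p := by
    intro p hp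
    obtain ⟨h1, h2⟩ := Finset.mem_product.1 hp
    have hp' : p.swap ∈ S ×ˢ S := Finset.mem_product.2 ⟨h2, h1⟩
    have hq := hswap p hp
    obtain ⟨q1, q2⟩ := Finset.mem_product.1 hq
    have hq' : (Z p, Z p.swap).swap ∈ S ×ˢ S := Finset.mem_product.2 ⟨q2, q1⟩
    refine Prod.ext ?_ ?_
    · refine hkey (hZ _ hq).1 h1 ?_ ?_
      · rw [(hZ _ hq).2.1]; exact (hZ p hp).2.1
      · rw [(hZ _ hq).2.2]; exact (hZ p.swap hp').2.2
    · refine hkey (hZ _ hq').1 h2 ?_ ?_
      · rw [(hZ _ hq').2.1]; exact (hZ p.swap hp').2.1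
      · rw [(hZ _ hq').2.2]; exact (hZ p hp).2.2
  have h1 : (∑ X ∈ S, f X * g X) * (#S : ℝ) = ∑ p ∈ S ×ˢ S, f p.1 * g p.1 := by
    rw [Finset.sum_product, Finset.sum_mul]
    refine Finset.sum_congr rfl fun X _ => ?_
    have h3 : ∑ y ∈ S, f (X, y).1 * g (X, y).1 = ∑ _y ∈ S, f X * g X := rfl
    rw [h3, Finset.sum_const, nsmul_eq_mul]
    ring
  have h2 : (∑ X ∈ S, f X) * (∑ X ∈ S, g X) = ∑ p ∈ S ×ˢ S, f p.2 * g p.1 := by
    rw [Finset.sum_product_right, Finset.sum_mul_sum]
  rw [h1, h2]
  symm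
  refine Finset.sum_bij' (fun p _ => (Z p, Z p.swap)) (fun p _ => (Z p, Z p.swap)) hswap hswap
    hinv hinv ?_
  intro p hp
  obtain ⟨q1, q2⟩ := Finset.mem_product.1 hp
  have t1 := (Finset.mem_filter.1 q1).1
  have t2 := (Finset.mem_filter.1 q2).1
  have t3 := (Finset.mem_filter.1 (hZ p hp).1).1
  rw [hf _ t2 _ t3 (hZ p hp).2.2.symm, hg _ t1 _ t3 (hZ p hp).2.1.symm]

end cross

end Vale.Agent.P328.Ana
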