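import Vale.Agent.P328.Ana.Av
import Vale.Agent.P328.Ana.Swap
import Vale.Agent.P328.Mix

/-!
# P328, [BRIDGE]: the block averages of the two sides agree, and the gap in the form `Gap e`
-/

namespace Vale.Agent.P328.Ana

open Finset

open SwapAux

variable {m n : ℕ}

theorem Tb_eq_tables (r : Fin m → ℕ) (c : Fin n → ℕ) : Tb r c = tables r c := by
  ext X
  rw [mem_Tb, mem_tables]

theorem bk_blockUpd (X : Fin m → Fin n → ℕ) (u v : Fin m) (a b : Fin n) (k : ℕ) :
    bk u v a b (blockUpd X u v a b k) = bk u v a b X := by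
  funext i j
  simp only [bk]
  by_cases h : (i = u ∨ i = v) ∧ (j = a ∨ j = b)
  · rw [if_pos h, if_pos h]
  · rw [if_neg h, if_neg h, blockUpd, if_neg (by tauto), if_neg (by tauto), if_neg (by tauto),
      if_neg (by tauto)]

theorem out_of_bk {u v : Fin m} {a b : Fin n} {X Z : Fin m → Fin n → ℕ}
    (h : bk u v a b Z = bk u v a b X) {i : Fin m} {j : Fin n}
    (h1 : ¬ ((i = u ∨ i = v) ∧ (j = a ∨ j = b))) : Z i j = X i j := by
  have h3 := congrFun (congrFun h i) j
  simp only [bk] at h3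
  rwa [if_neg h1, if_neg h1] at h3

/-- the tables in a block class are the block updates -/
theorem eq_blockUpd {r : Fin m → ℕ} {c : Fin n → ℕ} {u v : Fin m} {a b : Fin n} (huv : u ≠ v)
    (hab : a ≠ b) {X Y : Fin m → Fin n → ℕ} (hX : X ∈ Tb r c) (hY : Y ∈ Tb r c)
    (h : bk u v a b Y = bk u v a b X) :
    min (Y u a) (Y v b) < min (X u a) (X v b) + min (X u b) (X v a) + 1 ∧
      blockUpd X u v a b (min (Y u a) (Y v b)) = Y := by
  have hru : Y u a + Y u b = X u a + X u b := by
    have e1 := row_split hab hX u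
    have e2 := row_split hab hY u
    have e : ∑ j, (if j = a ∨ j = b then 0 else Y u j) =
        ∑ j, (if j = a ∨ j = b then 0 else X u j) := by
      refine Finset.sum_congr rfl fun j _ => ?_
      by_cases hj : j = a ∨ j = b
      · simp [hj]
      · rw [if_neg hj, if_neg hj, out_of_bk h (by tauto)]
    omega
  have hrv : Y v a + Y v b = X v a + X v b := by
    have e1 := row_split hab hX v
    have e2 := row_split hab hY v
    have e : ∑ j, (if j = a ∨ j = b then 0 else Y v j) =
        ∑ j, (if j = a ∨ j = b then 0 else X v j) := by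
      refine Finset.sum_congr rfl fun j _ => ?_
      by_cases hj : j = a ∨ j = b
      · simp [hj]
      · rw [if_neg hj, if_neg hj, out_of_bk h (by tauto)]
    omega
  have hca : Y u a + Y v a = X u a + X v a := by
    have e1 := col_split huv hX a
    have e2 := col_split huv hY a
    have e : ∑ i, (if i = u ∨ i = v then 0 else Y i a) =
        ∑ i, (if i = u ∨ i = v then 0 else X i a) := by
      refine Finset.sum_congr rfl fun i _ => ?_
      by_cases hi : i = u ∨ i = v
      · simp [hi]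
      · rw [if_neg hi, if_neg hi, out_of_bk h (by tauto)]
    omega
  have hlt : min (Y u a) (Y v b) < min (X u a) (X v b) + min (X u b) (X v a) + 1 := by omega
  refine ⟨hlt, ?_⟩
  funext i j
  rw [blockUpd, Nat.mod_eq_of_lt hlt]
  split_ifs with h1 h2 h3 h4
  · rw [h1.1, h1.2]; omega
  · rw [h2.1, h2.2]; omega
  · rw [h3.1, h3.2]; omega
  · rw [h4.1, h4.2]; omega
  · exact (out_of_bk h (by tauto)).symm

/-- The two block averages agree. -/
theorem av_bk_eq_blockAvg {r : Fin m → ℕ} {c : Fin n → ℕ} {u v : Fin m} {a b : Fin n}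
    (huv : u ≠ v) (hab : a ≠ b) (F : (Fin m → Fin n → ℕ) → ℝ) {X : Fin m → Fin n → ℕ}
    (hX : X ∈ Tb r c) : av (Tb r c) (bk u v a b) F X = blockAvg F u v a b X := by
  have hsum : ∀ H : (Fin m → Fin n → ℕ) → ℝ,
      ∑ Y ∈ Tb r c with bk u v a b Y = bk u v a b X, H Y =
      ∑ k ∈ range (min (X u a) (X v b) + min (X u b) (X v a) + 1), H (blockUpd X u v a b k) := by
    intro H
    symm
    apply sum_bij (fun k _ => blockUpd X u v a b k)
    · intro k _
      rw [mem_filter, mem_Tb]
      exact ⟨blockUpd_isTable (mem_Tb.1 hX) huv hab k, bk_blockUpd X u v a b k⟩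
    · intro k hk l hl hkl
      have e1 := upd_min1 X huv hab (mem_range.1 hk)
      have e2 := upd_min1 X huv hab (mem_range.1 hl)
      rw [hkl] at e1
      omega
    · intro Y hY
      rw [mem_filter] at hY
      obtain ⟨h1, h2⟩ := eq_blockUpd huv hab hX hY.1 hY.2
      exact ⟨_, mem_range.2 h1, h2⟩
    · intro k _
      rfl
  unfold av fav blockAvg mavg
  rw [hsum F]
  have hc := hsum (fun _ => 1)
  rw [sum_const, sum_const, card_range] at hc
  simp only [nsmul_eq_mul, mul_one] at hc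
  rw [hc]

/-- ordered sums are at least twice the sums over pairs -/
theorem two_mul_prs_le (n : ℕ) (f : Fin n → Fin n → ℝ)
    (hs : ∀ a b, f a b = f b a) :
    2 * ∑ p ∈ prs n, f p.1 p.2 ≤ ∑ a, ∑ b, if a ≠ b then f a b else 0 := by
  have h1 : ∑ a, ∑ b, (if a ≠ b then f a b else 0) =
      ∑ a, ∑ b, (if a < b then f a b else 0) + ∑ a, ∑ b, (if b < a then f a b else 0) := by
    rw [← Finset.sum_add_distrib]
    refine Finset.sum_congr rfl fun a _ => ?_
    rw [← Finset.sum_add_distrib]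
    refine Finset.sum_congr rfl fun b _ => ?_
    rcases lt_trichotomy a b with h | h | h
    · simp [h, h.ne, h.not_gt]
    · simp [h]
    · simp [h, h.ne', h.not_gt]
  have h2 : ∑ a, ∑ b, (if b < a then f a b else 0) = ∑ a, ∑ b, (if a < b then f a b else 0) := by
    rw [Finset.sum_comm]
    refine Finset.sum_congr rfl fun a _ => Finset.sum_congr rfl fun b _ => ?_
    split_ifs with h
    · exact hs _ _
    · rfl
  have h3 : ∑ p ∈ prs n, f p.1 p.2 = ∑ a, ∑ b, (if a < b then f a b else 0) := by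
    unfold prs
    rw [Finset.sum_filter, Fintype.sum_prod_type]
  rw [h1, h2, h3]
  linarith

theorem bk_swap_rows (u v : Fin m) (a b : Fin n) :
    bk (m := m) (n := n) u v a b = bk v u a b := by
  funext X i j
  simp only [bk, or_comm]

theorem bk_swap_cols (u v : Fin m) (a b : Fin n) :
    bk (m := m) (n := n) u v a b = bk u v b a := by
  funext X i j
  simp only [bk, or_comm]

/-- **[BRIDGE]** the gap of the block chain in the form needed by the sampler. -/
theorem gap_of_block (k : ℕ)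
    (H : ∀ (m n : ℕ) (r : Fin m → ℕ) (c : Fin n → ℕ), 1 ≤ m → 1 ≤ n →
      ∀ F : (Fin m → Fin n → ℕ) → ℝ, ∑ X ∈ Tb r c, F X = 0 →
      (1 / ((m : ℝ) * n) ^ k) ^ 2 / 2 * ∑ X ∈ Tb r c, F X ^ 2 ≤
        ∑ p ∈ prs m, ∑ q ∈ prs n, ∑ X ∈ Tb r c,
          (F X - av (Tb r c) (bk p.1 p.2 q.1 q.2) F X) ^ 2) : Gap (2 * k) := by
  intro m n r c hrc f hf
  have hnn : 0 ≤ ∑ u : Fin m, ∑ v : Fin m, ∑ a : Fin n, ∑ b : Fin n,
        (if u ≠ v ∧ a ≠ b then ∑ X ∈ tables r c, (f X - blockAvg f u v a b X) ^ 2 else 0) := by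
    refine Finset.sum_nonneg fun u _ => Finset.sum_nonneg fun v _ => Finset.sum_nonneg fun a _ =>
      Finset.sum_nonneg fun b _ => ?_
    split_ifs
    · exact Finset.sum_nonneg fun _ _ => sq_nonneg _
    · exact le_rfl
  -- degenerate cases
  have hdeg : (∀ X ∈ tables r c, ∀ Y ∈ tables r c, X = Y) → ∑ X ∈ tables r c, f X ^ 2 = 0 := by
    intro hu
    apply Finset.sum_eq_zero
    intro X hX
    have : tables r c = {X} := by
      ext Y
      rw [mem_singleton]
      exact ⟨fun hY => hu Y hY X hX, fun h => h ▸ hX⟩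
    rw [this, sum_singleton] at hf
    rw [hf]; norm_num
  rcases Nat.eq_zero_or_pos m with hm | hm
  · subst hm
    rw [hdeg (fun X _ Y _ => by funext i; exact i.elim0)]
    positivity
  rcases Nat.eq_zero_or_pos n with hn | hn
  · subst hn
    rw [hdeg (fun X _ Y _ => by funext i j; exact j.elim0)]
    positivity
  have hmn : (0:ℝ) < (m : ℝ) * n := by
    have h1 : (0:ℝ) < m := by exact_mod_cast hm
    have h2 : (0:ℝ) < n := by exact_mod_cast hn
    positivity
  have hf' : ∑ X ∈ Tb r c, f X = 0 := by rw [Tb_eq_tables]; exact hf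
  have h1 := H m n r c hm hn f hf'
  set D : Fin m → Fin m → Fin n → Fin n → ℝ := fun u v a b =>
    ∑ X ∈ Tb r c, (f X - av (Tb r c) (bk u v a b) f X) ^ 2 with hD
  have h2 : 4 * ∑ p ∈ prs m, ∑ q ∈ prs n, D p.1 p.2 q.1 q.2 ≤
      ∑ u, ∑ v, if u ≠ v then ∑ a, ∑ b, (if a ≠ b then D u v a b else 0) else 0 := by
    have e1 : ∀ u v, 2 * ∑ q ∈ prs n, D u v q.1 q.2 ≤
        ∑ a, ∑ b, (if a ≠ b then D u v a b else 0) := fun u v =>
      two_mul_prs_le n (fun a b => D u v a b)
        (fun a b => by simp only [hD, bk_swap_cols u v a b])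
    have e2 := two_mul_prs_le m (fun u v => ∑ a, ∑ b, (if a ≠ b then D u v a b else 0))
      (fun u v => by
        refine Finset.sum_congr rfl fun a _ => Finset.sum_congr rfl fun b _ => ?_
        simp only [hD, bk_swap_rows u v a b])
    refine le_trans ?_ e2
    have e3 : ∑ p ∈ prs m, 2 * ∑ q ∈ prs n, D p.1 p.2 q.1 q.2 ≤
        ∑ p ∈ prs m, ∑ a, ∑ b, (if a ≠ b then D p.1 p.2 a b else 0) :=
      Finset.sum_le_sum fun p _ => e1 p.1 p.2
    rw [← Finset.mul_sum] at e3
    linarith
  have h3 : (∑ u, ∑ v, if u ≠ v then ∑ a, ∑ b, (if a ≠ b then D u v a b else 0) else 0) =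
      ∑ u : Fin m, ∑ v : Fin m, ∑ a : Fin n, ∑ b : Fin n,
        if u ≠ v ∧ a ≠ b then ∑ X ∈ tables r c, (f X - blockAvg f u v a b X) ^ 2 else 0 := by
    refine Finset.sum_congr rfl fun u _ => Finset.sum_congr rfl fun v _ => ?_
    by_cases huv : u ≠ v
    · rw [if_pos huv]
      refine Finset.sum_congr rfl fun a _ => Finset.sum_congr rfl fun b _ => ?_
      by_cases hab : a ≠ b
      · rw [if_pos hab, if_pos ⟨huv, hab⟩]
        simp only [hD]
        rw [← Tb_eq_tables]
        refine Finset.sum_congr rfl fun X hX => ?_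
        rw [av_bk_eq_blockAvg huv hab f hX]
      · rw [if_neg hab, if_neg (by tauto)]
    · rw [if_neg huv]
      symm
      refine Finset.sum_eq_zero fun a _ => Finset.sum_eq_zero fun b _ => ?_
      rw [if_neg (by tauto)]
  rw [h3] at h2
  set E := ∑ u : Fin m, ∑ v : Fin m, ∑ a : Fin n, ∑ b : Fin n,
        (if u ≠ v ∧ a ≠ b then ∑ X ∈ tables r c, (f X - blockAvg f u v a b X) ^ 2 else 0) with hE
  have h4 : (1 / ((m : ℝ) * n) ^ k) ^ 2 / 2 * ∑ X ∈ tables r c, f X ^ 2 ≤ E / 4 := by
    rw [← Tb_eq_tables r c]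
    refine h1.trans ?_
    rw [le_div_iff₀ (by norm_num)]
    linarith
  have hpos : 0 < ((m : ℝ) * n) ^ (2 * k) := by positivity
  have e : (1 / ((m : ℝ) * n) ^ k) ^ 2 = 1 / ((m : ℝ) * n) ^ (2 * k) := by
    rw [div_pow, one_pow, ← pow_mul, mul_comm k 2]
  rw [e] at h4
  have h5 : ∑ X ∈ tables r c, f X ^ 2 ≤ ((m : ℝ) * n) ^ (2 * k) * (E / 2) := by
    have := mul_le_mul_of_nonneg_left h4 hpos.le
    have e2 : ((m : ℝ) * n) ^ (2 * k) * (1 / ((m : ℝ) * n) ^ (2 * k) / 2 *
        ∑ X ∈ tables r c, f X ^ 2) = (∑ X ∈ tables r c, f X ^ 2) / 2 := by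
      field_simp
    rw [e2] at this
    linarith
  refine h5.trans ?_
  apply mul_le_mul_of_nonneg_left _ hpos.le
  linarith

end Vale.Agent.P328.Ana
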