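import Mathlib

/-!
# P328: the abstract Casimir inequality

`C` is a symmetric matrix with orthonormal eigenbasis `V` and eigenvalues `c`.  `absAd V c Z` is
`|ad C| Z`.  The main theorem is `casimir_y`.
-/

namespace Vale.Agent.P328.Ana.Cas

open Finset Matrix

section basic

variable {Ω : Type*} [Fintype Ω] [DecidableEq Ω]

/-- The Hilbert-Schmidt inner product. -/
def ip (A B : Matrix Ω Ω ℝ) : ℝ := ∑ i, ∑ j, A i j * B i j

omit [DecidableEq Ω] in
theorem ip_eq_trace (A B : Matrix Ω Ω ℝ) : ip A B = (Aᵀ * B).trace := by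
  unfold ip
  rw [Matrix.trace, sum_comm]
  refine sum_congr rfl fun i _ => ?_
  rw [Matrix.diag_apply, Matrix.mul_apply]
  exact sum_congr rfl fun j _ => by rw [transpose_apply]

omit [DecidableEq Ω] in
theorem ip_comm (A B : Matrix Ω Ω ℝ) : ip A B = ip B A := by
  unfold ip
  exact sum_congr rfl fun i _ => sum_congr rfl fun j _ => mul_comm _ _

/-- Conjugation by an orthogonal matrix preserves the inner product. -/
theorem ip_conj (V A B : Matrix Ω Ω ℝ) (hV : V * Vᵀ = 1) :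
    ip (Vᵀ * A * V) (Vᵀ * B * V) = ip A B := by
  rw [ip_eq_trace, ip_eq_trace]
  have : (Vᵀ * A * V)ᵀ * (Vᵀ * B * V) = Vᵀ * (Aᵀ * B) * V := by
    rw [transpose_mul, transpose_mul, transpose_transpose]
    calc Vᵀ * (Aᵀ * V) * (Vᵀ * B * V) = Vᵀ * (Aᵀ * (V * Vᵀ) * B) * V := by
          simp only [Matrix.mul_assoc]
      _ = _ := by rw [hV, Matrix.mul_one]
  rw [this, Matrix.trace_mul_cycle, ← Matrix.mul_assoc, hV, Matrix.one_mul]

/-- `|ad C|` in the eigenbasis `V` with eigenvalues `c`. -/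
noncomputable def absAd (V : Matrix Ω Ω ℝ) (c : Ω → ℝ) (Z : Matrix Ω Ω ℝ) : Matrix Ω Ω ℝ :=
  V * (Matrix.of fun i j => |c i - c j| * (Vᵀ * Z * V) i j) * Vᵀ

variable {V : Matrix Ω Ω ℝ} {c : Ω → ℝ}

theorem conj_absAd (hV : Vᵀ * V = 1) (Z : Matrix Ω Ω ℝ) :
    Vᵀ * absAd V c Z * V = Matrix.of fun i j => |c i - c j| * (Vᵀ * Z * V) i j := by
  unfold absAd
  calc Vᵀ * (V * (Matrix.of fun i j => |c i - c j| * (Vᵀ * Z * V) i j) * Vᵀ) * V
      = (Vᵀ * V) * (Matrix.of fun i j => |c i - c j| * (Vᵀ * Z * V) i j) * (Vᵀ * V) := by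
        simp only [Matrix.mul_assoc]
    _ = _ := by rw [hV, Matrix.one_mul, Matrix.mul_one]

/-- `ad C` in the eigenbasis. -/
theorem conj_ad (hV : Vᵀ * V = 1) (Z : Matrix Ω Ω ℝ) :
    Vᵀ * ((V * diagonal c * Vᵀ) * Z - Z * (V * diagonal c * Vᵀ)) * V =
      Matrix.of fun i j => (c i - c j) * (Vᵀ * Z * V) i j := by
  have h : Vᵀ * ((V * diagonal c * Vᵀ) * Z - Z * (V * diagonal c * Vᵀ)) * V
      = diagonal c * (Vᵀ * Z * V) - (Vᵀ * Z * V) * diagonal c := by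
    rw [Matrix.mul_sub, Matrix.sub_mul]
    congr 1
    · calc Vᵀ * ((V * diagonal c * Vᵀ) * Z) * V = (Vᵀ * V) * diagonal c * (Vᵀ * Z * V) := by
            simp only [Matrix.mul_assoc]
        _ = _ := by rw [hV, Matrix.one_mul]
    · calc Vᵀ * (Z * (V * diagonal c * Vᵀ)) * V = (Vᵀ * Z * V) * diagonal c * (Vᵀ * V) := by
            simp only [Matrix.mul_assoc]
        _ = _ := by rw [hV, Matrix.mul_one]
  rw [h]
  ext i j
  rw [Matrix.sub_apply, Matrix.diagonal_mul, Matrix.mul_diagonal, of_apply]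
  ring

omit [DecidableEq Ω] in
theorem absAd_add (Z W : Matrix Ω Ω ℝ) : absAd V c (Z + W) = absAd V c Z + absAd V c W := by
  unfold absAd
  rw [← Matrix.add_mul, ← Matrix.mul_add]
  congr 2
  ext i j
  rw [Matrix.add_apply, of_apply, of_apply, of_apply, Matrix.mul_add, Matrix.add_mul,
    Matrix.add_apply]
  ring

omit [DecidableEq Ω] in
theorem absAd_smul (a : ℝ) (Z : Matrix Ω Ω ℝ) : absAd V c (a • Z) = a • absAd V c Z := by
  unfold absAd
  rw [← Matrix.smul_mul, ← Matrix.mul_smul]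
  congr 2
  ext i j
  rw [Matrix.smul_apply, of_apply, of_apply, Matrix.mul_smul, Matrix.smul_mul,
    Matrix.smul_apply, smul_eq_mul, smul_eq_mul]
  ring

theorem ip_absAd (hV : V * Vᵀ = 1) (hV' : Vᵀ * V = 1) (Z : Matrix Ω Ω ℝ) :
    ip Z (absAd V c Z) = ∑ i, ∑ j, |c i - c j| * (Vᵀ * Z * V) i j ^ 2 := by
  rw [← ip_conj V Z (absAd V c Z) hV, conj_absAd hV']
  unfold ip
  refine sum_congr rfl fun i _ => sum_congr rfl fun j _ => ?_
  rw [of_apply]; ring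

theorem ip_ad (hV : V * Vᵀ = 1) (hV' : Vᵀ * V = 1) (Z : Matrix Ω Ω ℝ) :
    ip Z ((V * diagonal c * Vᵀ) * Z - Z * (V * diagonal c * Vᵀ)) =
      ∑ i, ∑ j, (c i - c j) * (Vᵀ * Z * V) i j ^ 2 := by
  rw [← ip_conj V Z _ hV, conj_ad hV']
  unfold ip
  refine sum_congr rfl fun i _ => sum_congr rfl fun j _ => ?_
  rw [of_apply]; ring

/-- `|⟨Z, ad C Z⟩| ≤ ⟨Z, |ad C| Z⟩`. -/
theorem abs_ip_ad_le (hV : V * Vᵀ = 1) (hV' : Vᵀ * V = 1) (Z : Matrix Ω Ω ℝ) :
    |ip Z ((V * diagonal c * Vᵀ) * Z - Z * (V * diagonal c * Vᵀ))| ≤ ip Z (absAd V c Z) := by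
  rw [ip_ad hV hV', ip_absAd hV hV']
  refine (abs_sum_le_sum_abs _ _).trans (sum_le_sum fun i _ => ?_)
  refine (abs_sum_le_sum_abs _ _).trans (sum_le_sum fun j _ => ?_)
  rw [abs_mul, abs_of_nonneg (sq_nonneg ((Vᵀ * Z * V) i j))]

/-- `‖|ad C| Z‖ = ‖ad C Z‖`. -/
theorem norm_absAd (hV : V * Vᵀ = 1) (hV' : Vᵀ * V = 1) (Z : Matrix Ω Ω ℝ) :
    ip (absAd V c Z) (absAd V c Z) =
      ip ((V * diagonal c * Vᵀ) * Z - Z * (V * diagonal c * Vᵀ))
        ((V * diagonal c * Vᵀ) * Z - Z * (V * diagonal c * Vᵀ)) := by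
  rw [← ip_conj V (absAd V c Z) (absAd V c Z) hV, conj_absAd hV',
    ← ip_conj V (_ - _) (_ - _) hV, conj_ad hV']
  unfold ip
  refine sum_congr rfl fun i _ => sum_congr rfl fun j _ => ?_
  simp only [of_apply]
  have := abs_mul_abs_self (c i - c j)
  linear_combination ((Vᵀ * Z * V) i j) ^ 2 * this

/-- A matrix commuting with `C` is block diagonal in the eigenbasis. -/
theorem conj_comm (hV' : Vᵀ * V = 1) {P : Matrix Ω Ω ℝ}
    (hP : P * (V * diagonal c * Vᵀ) = (V * diagonal c * Vᵀ) * P) (i j : Ω) :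
    (c i - c j) * (Vᵀ * P * V) i j = 0 := by
  have h := conj_ad (c := c) hV' P
  rw [← hP, sub_self, Matrix.mul_zero, Matrix.zero_mul] at h
  have := congrFun (congrFun h i) j
  rw [of_apply] at this
  exact this.symm

theorem trace_comm_absAd (hV : V * Vᵀ = 1) (hV' : Vᵀ * V = 1) {P : Matrix Ω Ω ℝ}
    (hP : P * (V * diagonal c * Vᵀ) = (V * diagonal c * Vᵀ) * P) (Z : Matrix Ω Ω ℝ) :
    ip P (absAd V c Z) = 0 := by
  rw [← ip_conj V P _ hV, conj_absAd hV']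
  unfold ip
  refine sum_eq_zero fun i _ => sum_eq_zero fun j _ => ?_
  rw [of_apply]
  have h := conj_comm (c := c) hV' hP i j
  rcases mul_eq_zero.1 h with h | h
  · rw [h, abs_zero]; ring
  · rw [h]; ring

omit [DecidableEq Ω] in
theorem blk_mul_aux {A D : Matrix Ω Ω ℝ} (B : Matrix Ω Ω ℝ)
    (hA : ∀ i j, (c i - c j) * A i j = 0) (hD : ∀ i j, (c i - c j) * D i j = 0) :
    A * (Matrix.of fun i j => |c i - c j| * B i j) * D
      = Matrix.of fun i j => |c i - c j| * (A * B * D) i j := by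
  ext i j
  rw [of_apply, Matrix.mul_apply, Matrix.mul_apply, mul_sum]
  refine sum_congr rfl fun l _ => ?_
  rw [Matrix.mul_apply, Matrix.mul_apply, sum_mul, sum_mul, mul_sum]
  refine sum_congr rfl fun m _ => ?_
  rw [of_apply]
  rcases mul_eq_zero.1 (hA i m) with h | h
  · rcases mul_eq_zero.1 (hD l j) with h' | h'
    · have e1 : c i = c m := by linarith
      have e2 : c l = c j := by linarith
      rw [e1, e2]; ring
    · rw [h']; ring
  · rw [h]; ring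

theorem conj_conj (hV : V * Vᵀ = 1) (M : Matrix Ω Ω ℝ) : V * (Vᵀ * M * V) * Vᵀ = M := by
  calc V * (Vᵀ * M * V) * Vᵀ = (V * Vᵀ) * M * (V * Vᵀ) := by simp only [Matrix.mul_assoc]
    _ = M := by rw [hV, Matrix.one_mul, Matrix.mul_one]

theorem conj_mul3 (hV : V * Vᵀ = 1) (P Z Q : Matrix Ω Ω ℝ) :
    Vᵀ * (P * Z * Q) * V = (Vᵀ * P * V) * (Vᵀ * Z * V) * (Vᵀ * Q * V) := by
  calc Vᵀ * (P * Z * Q) * V
      = Vᵀ * P * 1 * Z * 1 * Q * V := by simp only [Matrix.mul_assoc, Matrix.mul_one]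
    _ = _ := by rw [← hV]; simp only [Matrix.mul_assoc]

/-- Multiplication by matrices commuting with `C` commutes with `|ad C|`. -/
theorem mul_absAd_mul (hV : V * Vᵀ = 1) (hV' : Vᵀ * V = 1) {P Q : Matrix Ω Ω ℝ}
    (hP : P * (V * diagonal c * Vᵀ) = (V * diagonal c * Vᵀ) * P)
    (hQ : Q * (V * diagonal c * Vᵀ) = (V * diagonal c * Vᵀ) * Q) (Z : Matrix Ω Ω ℝ) :
    P * absAd V c Z * Q = absAd V c (P * Z * Q) := by
  rw [← conj_conj hV (P * absAd V c Z * Q), ← conj_conj hV (absAd V c (P * Z * Q)),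
    conj_mul3 hV, conj_absAd hV', conj_absAd hV', conj_mul3 hV,
    blk_mul_aux _ (conj_comm hV' hP) (conj_comm hV' hQ)]

/-- Change of basis. -/
theorem absAd_conj (O : Matrix Ω Ω ℝ) (hO : O * Oᵀ = 1) (Z : Matrix Ω Ω ℝ) :
    Oᵀ * absAd V c Z * O = absAd (Oᵀ * V) c (Oᵀ * Z * O) := by
  unfold absAd
  have e : (Oᵀ * V)ᵀ * (Oᵀ * Z * O) * (Oᵀ * V) = Vᵀ * Z * V := by
    rw [transpose_mul, transpose_transpose]
    calc Vᵀ * O * (Oᵀ * Z * O) * (Oᵀ * V) = Vᵀ * (O * Oᵀ) * Z * (O * Oᵀ) * V := by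
          simp only [Matrix.mul_assoc]
      _ = _ := by rw [hO, Matrix.mul_one, Matrix.mul_one]
  rw [e, transpose_mul, transpose_transpose]
  simp only [Matrix.mul_assoc]

end basic

section core

variable {Ω : Type*} [Fintype Ω] [DecidableEq Ω] {κ : Type*} [DecidableEq κ]

omit [DecidableEq Ω] [DecidableEq κ] in
theorem comm_apply {C : Matrix Ω Ω ℝ} {key : Ω → κ} {ht : Ω → ℕ}
    (hinj : ∀ x y, key x = key y → ht x = ht y → x = y)
    (hblk : ∀ y z, ht y ≠ ht z → C y z = 0)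
    {Ψ : Matrix Ω Ω ℝ} (hΨ : ∀ y z, key y ≠ key z → Ψ y z = 0) {y z : Ω}
    (hyz : key y = key z) : (C * Ψ - Ψ * C) y z = (C y y - C z z) * Ψ y z := by
  rw [Matrix.sub_apply, Matrix.mul_apply, Matrix.mul_apply]
  have h1 : ∑ u, C y u * Ψ u z = C y y * Ψ y z := by
    refine Finset.sum_eq_single y (fun u _ hu => ?_) (fun h => absurd (mem_univ _) h)
    by_cases h : ht y = ht u
    · have : key u ≠ key z := fun h' => hu (hinj u y (h'.trans hyz.symm) h.symm)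
      rw [hΨ u z this, mul_zero]
    · rw [hblk y u h, zero_mul]
  have h2 : ∑ u, Ψ y u * C u z = Ψ y z * C z z := by
    refine Finset.sum_eq_single z (fun u _ hu => ?_) (fun h => absurd (mem_univ _) h)
    by_cases h : ht u = ht z
    · have : key y ≠ key u := fun h' => hu (hinj u z (h'.symm.trans hyz) h)
      rw [hΨ y u this, zero_mul]
    · rw [hblk u z h, mul_zero]
  rw [h1, h2]; ring

/-- The ordered pairs of distinct points with the same key. -/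
def prk (key : Ω → κ) : Finset (Ω × Ω) :=
  univ.filter fun p => key p.1 = key p.2 ∧ p.1 ≠ p.2

theorem mem_prk {key : Ω → κ} {p : Ω × Ω} : p ∈ prk key ↔ key p.1 = key p.2 ∧ p.1 ≠ p.2 := by
  simp [prk]

theorem core {V : Matrix Ω Ω ℝ} {c : Ω → ℝ} (hV : V * Vᵀ = 1) (hV' : Vᵀ * V = 1)
    {C : Matrix Ω Ω ℝ} (hC : C = V * diagonal c * Vᵀ) {key : Ω → κ} {ht : Ω → ℕ}
    (hinj : ∀ x y, key x = key y → ht x = ht y → x = y)
    (hblk : ∀ y z, ht y ≠ ht z → C y z = 0) {lam : ℕ → ℝ} {gam : κ → ℝ}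
    (hdiag : ∀ y, C y y = lam (ht y) + gam (key y))
    {Φ : Matrix Ω Ω ℝ} (hΦ : ∀ y z, key y ≠ key z → Φ y z = 0) :
    ∑ p ∈ prk key, (C * Φ - Φ * C) p.1 p.2 ^ 2 ≤ ∑ p ∈ prk key, absAd V c Φ p.1 p.2 ^ 2 := by
  classical
  set g : Ω × Ω → ℕ × ℕ := fun p => (ht p.1, ht p.2) with hg
  rw [← sum_fiberwise_of_maps_to (t := (prk key).image g)
      (fun p hp => mem_image_of_mem g hp),
    ← sum_fiberwise_of_maps_to (t := (prk key).image g)
      (fun p hp => mem_image_of_mem g hp) (fun p => absAd V c Φ p.1 p.2 ^ 2)]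
  refine sum_le_sum fun q hq => ?_
  obtain ⟨p0, hp0, rfl⟩ := mem_image.1 hq
  obtain ⟨hk0, hne0⟩ := mem_prk.1 hp0
  have hkk : ht p0.1 ≠ ht p0.2 := fun h => hne0 (hinj _ _ hk0 h)
  set k := ht p0.1 with hk
  set k' := ht p0.2 with hk'
  set S := (prk key).filter fun p => g p = g p0 with hS
  have memS : ∀ p, p ∈ S ↔ key p.1 = key p.2 ∧ ht p.1 = k ∧ ht p.2 = k' := by
    intro p
    rw [hS, mem_filter, mem_prk]
    simp only [hg, Prod.mk.injEq]
    constructor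
    · rintro ⟨⟨h1, -⟩, h2, h3⟩; exact ⟨h1, h2, h3⟩
    · rintro ⟨h1, h2, h3⟩
      refine ⟨⟨h1, fun h => hkk ?_⟩, h2, h3⟩
      rw [← h2, ← h3, h]
  set P : Matrix Ω Ω ℝ := diagonal fun z => if ht z = k then 1 else 0 with hP
  set Q : Matrix Ω Ω ℝ := diagonal fun z => if ht z = k' then 1 else 0 with hQ
  have comm : ∀ m : ℕ, (diagonal fun z => if ht z = m then (1 : ℝ) else 0) * C
      = C * (diagonal fun z => if ht z = m then (1 : ℝ) else 0) := by
    intro m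
    ext y z
    rw [Matrix.diagonal_mul, Matrix.mul_diagonal]
    by_cases h : ht y = ht z
    · rw [h, mul_comm]
    · rw [hblk y z h]; ring
  have hPC : P * (V * diagonal c * Vᵀ) = (V * diagonal c * Vᵀ) * P := by
    rw [← hC]; exact comm k
  have hQC : Q * (V * diagonal c * Vᵀ) = (V * diagonal c * Vᵀ) * Q := by
    rw [← hC]; exact comm k'
  set φ : Matrix Ω Ω ℝ := P * Φ * Q with hφ
  have hφa : ∀ y z, φ y z = (if ht y = k then 1 else 0) * Φ y z * (if ht z = k' then 1 else 0) := by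
    intro y z
    rw [hφ, hP, hQ, Matrix.mul_diagonal, Matrix.diagonal_mul]
  have hXa : ∀ y z, absAd V c φ y z
      = (if ht y = k then 1 else 0) * absAd V c Φ y z * (if ht z = k' then 1 else 0) := by
    intro y z
    rw [hφ, ← mul_absAd_mul hV hV' hPC hQC, hP, hQ, Matrix.mul_diagonal, Matrix.diagonal_mul]
  have hφS : ∀ p ∈ S, φ p.1 p.2 = Φ p.1 p.2 := by
    intro p hp
    obtain ⟨-, h2, h3⟩ := (memS p).1 hp
    rw [hφa, if_pos h2, if_pos h3]; ring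
  have hXS : ∀ p ∈ S, absAd V c φ p.1 p.2 = absAd V c Φ p.1 p.2 := by
    intro p hp
    obtain ⟨-, h2, h3⟩ := (memS p).1 hp
    rw [hXa, if_pos h2, if_pos h3]; ring
  have hφ0 : ∀ p, p ∉ S → φ p.1 p.2 = 0 := by
    intro p hp
    rw [hφa]
    by_contra hne
    apply hp
    rw [memS]
    refine ⟨?_, ?_, ?_⟩
    · by_contra h; exact hne (by rw [hΦ _ _ h]; ring)
    · by_contra h; exact hne (by rw [if_neg h]; ring)
    · by_contra h; exact hne (by rw [if_neg h]; ring)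
  have hφk : ∀ y z, key y ≠ key z → φ y z = 0 := by
    intro y z h; rw [hφa, hΦ y z h]; ring
  set δ := lam k - lam k' with hδ
  have hcomm : ∀ p ∈ S, ∀ Ψ : Matrix Ω Ω ℝ, (∀ y z, key y ≠ key z → Ψ y z = 0) →
      (C * Ψ - Ψ * C) p.1 p.2 = δ * Ψ p.1 p.2 := by
    intro p hp Ψ hΨ
    obtain ⟨h1, h2, h3⟩ := (memS p).1 hp
    rw [comm_apply hinj hblk hΨ h1, hdiag, hdiag, h1, h2, h3, hδ]
    ring
  have ipS : ∀ W : Matrix Ω Ω ℝ, ip φ W = ∑ p ∈ S, φ p.1 p.2 * W p.1 p.2 := by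
    intro W
    unfold ip
    rw [← Finset.sum_product', ← Finset.univ_product_univ.symm]
    refine (Finset.sum_subset (subset_univ S) fun p _ hp => ?_).symm
    rw [hφ0 p hp, zero_mul]
  have h1 := abs_ip_ad_le (c := c) hV hV' φ
  rw [← hC, ipS, ipS] at h1
  have e1 : ∑ p ∈ S, φ p.1 p.2 * (C * φ - φ * C) p.1 p.2 = δ * ∑ p ∈ S, Φ p.1 p.2 ^ 2 := by
    rw [mul_sum]
    refine sum_congr rfl fun p hp => ?_
    rw [hcomm p hp φ hφk, hφS p hp]; ring
  have e2 : ∑ p ∈ S, φ p.1 p.2 * absAd V c φ p.1 p.2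
      = ∑ p ∈ S, Φ p.1 p.2 * absAd V c Φ p.1 p.2 := by
    refine sum_congr rfl fun p hp => ?_
    rw [hφS p hp, hXS p hp]
  rw [e1, e2] at h1
  have e3 : ∑ p ∈ S, (C * Φ - Φ * C) p.1 p.2 ^ 2 = δ ^ 2 * ∑ p ∈ S, Φ p.1 p.2 ^ 2 := by
    rw [mul_sum]
    refine sum_congr rfl fun p hp => ?_
    rw [hcomm p hp Φ hΦ]; ring
  rw [e3]
  have h2 := Finset.sum_mul_sq_le_sq_mul_sq S (fun p => Φ p.1 p.2) (fun p => absAd V c Φ p.1 p.2)
  set B := ∑ p ∈ S, Φ p.1 p.2 ^ 2 with hB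
  set A := ∑ p ∈ S, absAd V c Φ p.1 p.2 ^ 2 with hA
  set I := ∑ p ∈ S, Φ p.1 p.2 * absAd V c Φ p.1 p.2 with hI
  have hB0 : 0 ≤ B := sum_nonneg fun p _ => sq_nonneg _
  have hA0 : 0 ≤ A := sum_nonneg fun p _ => sq_nonneg _
  rcases hB0.eq_or_lt with h | h
  · rw [← h, mul_zero]; exact hA0
  · have h3 : (δ * B) ^ 2 ≤ I ^ 2 := by
      rw [← sq_abs (δ * B)]
      exact pow_le_pow_left₀ (abs_nonneg _) h1 2
    have h4 : δ ^ 2 * B * B ≤ A * B := by nlinarith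
    exact le_of_mul_le_mul_right h4 h

end core

end Vale.Agent.P328.Ana.Cas
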