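import Vale.Agent.P328.Ana.Av

/-!
# P328: Lemma 1 (mixed inequality for a cross), abstract form
-/

namespace Vale.Agent.P328.Ana

open Finset

section cross

variable {Ω βr βc βb βk : Type*} [DecidableEq βr] [DecidableEq βc] [DecidableEq βb]
  [DecidableEq βk]

/-- Lemma 1 in variational form, abstract version.  `kr` = row key, `kc` = column key, `kb` =
block key (finer than both), `kk` = key of the outside and the height; `hci` is the conditional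
independence. -/
theorem cross_abs (S : Finset Ω) (kr : Ω → βr) (kc : Ω → βc) (kb : Ω → βb) (kk : Ω → βk)
    (hbr : ∀ x ∈ S, ∀ y ∈ S, kb x = kb y → kr x = kr y)
    (hbc : ∀ x ∈ S, ∀ y ∈ S, kb x = kb y → kc x = kc y)
    (hci : ∀ f g : Ω → ℝ, (∀ x ∈ S, ∀ y ∈ S, kc x = kc y → f x = f y) →
      (∀ x ∈ S, ∀ y ∈ S, kr x = kr y → g x = g y) →
      ∑ x ∈ S, f x * g x = ∑ x ∈ S, av S kk f x * av S kk g x)
    (F : Ω → ℝ) :
    (∑ x ∈ S, ((F x - av S kb F x) ^ 2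
        - 2 * ((F x - av S kr F x) * av S kb (av S kk (av S kc F)) x)
        + (av S kk (av S kc F) x - av S kb (av S kk (av S kc F)) x) ^ 2)) +
    (∑ x ∈ S, ((F x - av S kb F x) ^ 2
        - 2 * ((F x - av S kc F x) * av S kb (av S kk (av S kr F)) x)
        + (av S kk (av S kr F) x - av S kb (av S kk (av S kr F)) x) ^ 2)) ≤
    2 * ∑ x ∈ S, (F x - av S kr F x) * (F x - av S kc F x) := by
  set φ := av S kc F with hφ
  set ψ := av S kr F with hψ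
  set H1 := av S kk φ with hH1
  set H2 := av S kk ψ with hH2
  set G := av S kb F with hG
  set B1 := av S kb H1 with hB1
  set B2 := av S kb H2 with hB2
  -- measurability
  have mφ : ∀ x ∈ S, ∀ y ∈ S, kc x = kc y → φ x = φ y := av_meas S kc F
  have mψ : ∀ x ∈ S, ∀ y ∈ S, kr x = kr y → ψ x = ψ y := av_meas S kr F
  have bφ : ∀ x ∈ S, ∀ y ∈ S, kb x = kb y → φ x = φ y := fun x hx y hy h =>
    mφ x hx y hy (hbc x hx y hy h)
  have bψ : ∀ x ∈ S, ∀ y ∈ S, kb x = kb y → ψ x = ψ y := fun x hx y hy h =>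
    mψ x hx y hy (hbr x hx y hy h)
  have bG : ∀ x ∈ S, ∀ y ∈ S, kb x = kb y → G x = G y := av_meas S kb F
  have bB1 : ∀ x ∈ S, ∀ y ∈ S, kb x = kb y → B1 x = B1 y := av_meas S kb H1
  have bB2 : ∀ x ∈ S, ∀ y ∈ S, kb x = kb y → B2 x = B2 y := av_meas S kb H2
  -- orthogonality relations
  have z1 : ∑ x ∈ S, (G x - ψ x) * (F x - G x) = 0 :=
    sum_meas_mul_sub S kb F (fun x => G x - ψ x) (fun x hx y hy h => by
      rw [bG x hx y hy h, bψ x hx y hy h])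
  have z2 : ∑ x ∈ S, (G x - φ x) * (F x - G x) = 0 :=
    sum_meas_mul_sub S kb F (fun x => G x - φ x) (fun x hx y hy h => by
      rw [bG x hx y hy h, bφ x hx y hy h])
  have z3 : ∑ x ∈ S, B1 x * (F x - G x) = 0 := sum_meas_mul_sub S kb F B1 bB1
  have z4 : ∑ x ∈ S, B2 x * (F x - G x) = 0 := sum_meas_mul_sub S kb F B2 bB2
  have z5 : ∑ x ∈ S, (φ x - B1 x) * (H1 x - B1 x) = 0 :=
    sum_meas_mul_sub S kb H1 (fun x => φ x - B1 x) (fun x hx y hy h => by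
      rw [bφ x hx y hy h, bB1 x hx y hy h])
  have z6 : ∑ x ∈ S, (ψ x - B2 x) * (H2 x - B2 x) = 0 :=
    sum_meas_mul_sub S kb H2 (fun x => ψ x - B2 x) (fun x hx y hy h => by
      rw [bψ x hx y hy h, bB2 x hx y hy h])
  -- `⟨G, φ⟩ = |φ|²`
  have z7 : ∑ x ∈ S, φ x * (G x - φ x) = 0 := by
    have e1 : ∑ x ∈ S, φ x * (F x - φ x) = 0 := sum_meas_mul_sub S kc F φ mφ
    have e2 : ∑ x ∈ S, φ x * (F x - G x) = 0 := sum_meas_mul_sub S kb F φ bφ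
    have e3 : ∑ x ∈ S, φ x * (F x - φ x) = ∑ x ∈ S, φ x * (F x - G x) +
        ∑ x ∈ S, φ x * (G x - φ x) := by
      rw [← sum_add_distrib]
      exact sum_congr rfl (fun x _ => by ring)
    linarith
  have z8 : ∑ x ∈ S, ψ x * (G x - ψ x) = 0 := by
    have e1 : ∑ x ∈ S, ψ x * (F x - ψ x) = 0 := sum_meas_mul_sub S kr F ψ mψ
    have e2 : ∑ x ∈ S, ψ x * (F x - G x) = 0 := sum_meas_mul_sub S kb F ψ bψ
    have e3 : ∑ x ∈ S, ψ x * (F x - ψ x) = ∑ x ∈ S, ψ x * (F x - G x) +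
        ∑ x ∈ S, ψ x * (G x - ψ x) := by
      rw [← sum_add_distrib]
      exact sum_congr rfl (fun x _ => by ring)
    linarith
  -- conditional independence
  have z9 : ∑ x ∈ S, φ x * ψ x = ∑ x ∈ S, H1 x * H2 x := hci φ ψ mφ mψ
  have mH1 : ∀ x ∈ S, ∀ y ∈ S, kk x = kk y → H1 x = H1 y := av_meas S kk φ
  have mH2 : ∀ x ∈ S, ∀ y ∈ S, kk x = kk y → H2 x = H2 y := av_meas S kk ψ
  have z10 : ∑ x ∈ S, (H1 x - H2 x) * (φ x - H1 x) = 0 :=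
    sum_meas_mul_sub S kk φ (fun x => H1 x - H2 x) (fun x hx y hy h => by
      rw [mH1 x hx y hy h, mH2 x hx y hy h])
  have z11 : ∑ x ∈ S, (H1 x - H2 x) * (ψ x - H2 x) = 0 :=
    sum_meas_mul_sub S kk ψ (fun x => H1 x - H2 x) (fun x hx y hy h => by
      rw [mH1 x hx y hy h, mH2 x hx y hy h])
  have z12 : ∑ x ∈ S, H2 x * (φ x - H1 x) = 0 := sum_meas_mul_sub S kk φ H2 mH2
  have z13 : ∑ x ∈ S, H1 x * (ψ x - H2 x) = 0 := sum_meas_mul_sub S kk ψ H1 mH1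
  -- the squares
  have s1 : 0 ≤ ∑ x ∈ S, (G x - ψ x - φ x + B1 x) ^ 2 := sum_nonneg fun x _ => sq_nonneg _
  have s2 : 0 ≤ ∑ x ∈ S, (G x - φ x - ψ x + B2 x) ^ 2 := sum_nonneg fun x _ => sq_nonneg _
  have s3 : 0 ≤ ∑ x ∈ S, (H1 x - H2 x) ^ 2 := sum_nonneg fun x _ => sq_nonneg _
  have z9' : ∑ x ∈ S, (φ x * ψ x - H1 x * H2 x) = 0 := by
    rw [sum_sub_distrib, z9, sub_self]
  rw [← sub_nonneg]
  have key : 2 * ∑ x ∈ S, (F x - ψ x) * (F x - φ x) -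
      ((∑ x ∈ S, ((F x - G x) ^ 2 - 2 * ((F x - ψ x) * B1 x) + (H1 x - B1 x) ^ 2)) +
       (∑ x ∈ S, ((F x - G x) ^ 2 - 2 * ((F x - φ x) * B2 x) + (H2 x - B2 x) ^ 2))) =
      ∑ x ∈ S, (G x - ψ x - φ x + B1 x) ^ 2 + ∑ x ∈ S, (G x - φ x - ψ x + B2 x) ^ 2 +
      ∑ x ∈ S, (H1 x - H2 x) ^ 2 +
      (2 * ∑ x ∈ S, (G x - ψ x) * (F x - G x) + 2 * ∑ x ∈ S, (G x - φ x) * (F x - G x) +
       2 * ∑ x ∈ S, B1 x * (F x - G x) + 2 * ∑ x ∈ S, B2 x * (F x - G x) +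
       2 * ∑ x ∈ S, φ x * (G x - φ x) + 2 * ∑ x ∈ S, ψ x * (G x - ψ x) -
       2 * ∑ x ∈ S, (φ x - B1 x) * (H1 x - B1 x) - 2 * ∑ x ∈ S, (ψ x - B2 x) * (H2 x - B2 x) -
       2 * ∑ x ∈ S, (φ x * ψ x - H1 x * H2 x) + 2 * ∑ x ∈ S, H2 x * (φ x - H1 x) +
       2 * ∑ x ∈ S, H1 x * (ψ x - H2 x) + 2 * ∑ x ∈ S, (H1 x - H2 x) * (φ x - H1 x) -
       2 * ∑ x ∈ S, (H1 x - H2 x) * (ψ x - H2 x)) := by
    simp only [mul_sum, ← sum_add_distrib, ← sum_sub_distrib]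
    exact sum_congr rfl (fun x _ => by ring)
  rw [z1, z2, z3, z4, z5, z6, z7, z8, z9', z10, z11, z12, z13] at key
  rw [key]
  positivity

end cross

end Vale.Agent.P328.Ana
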