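import Vale.Agent.P328.Ana.Av

/-!
# P328, [EXPL]: the explicit form of the slice inequality implies the variational form
-/

namespace Vale.Agent.P328.Ana

open Finset

namespace ExplAux

variable {n : ℕ}

/-- running averages -/
noncomputable def H (h : ℕ → ℝ) (m : ℕ) : ℝ := (∑ k ∈ range (m + 1), h k) / ((m : ℝ) + 1)

/-- Welford increments -/
noncomputable def dd (h : ℕ → ℝ) (k : ℕ) : ℝ := h k - H h (k - 1)

theorem H_succ (h : ℕ → ℝ) (m : ℕ) : H h (m + 1) = H h m + dd h (m + 1) / ((m : ℝ) + 2) := by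
  have h1 : (m : ℝ) + 1 ≠ 0 := by positivity
  have h2 : (m : ℝ) + 2 ≠ 0 := by positivity
  have h3 : (m : ℝ) + 1 + 1 ≠ 0 := by positivity
  simp only [dd, Nat.add_sub_cancel, H]
  rw [Finset.sum_range_succ _ (m + 1)]
  push_cast
  field_simp
  ring

theorem H_eq (h : ℕ → ℝ) (m : ℕ) :
    H h m = H h 0 + ∑ k ∈ Icc 1 m, dd h k / ((k : ℝ) + 1) := by
  induction m with
  | zero => simp
  | succ m ih =>
    rw [H_succ, ih, Finset.sum_Icc_succ_top (by omega)]
    push_cast
    ring

theorem var_eq (h : ℕ → ℝ) (m : ℕ) :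
    ∑ k ∈ range (m + 1), (h k - H h m) ^ 2 =
      ∑ k ∈ Icc 1 m, (k : ℝ) / ((k : ℝ) + 1) * dd h k ^ 2 := by
  induction m with
  | zero => simp [H]
  | succ m ih =>
    rw [Finset.sum_Icc_succ_top (by omega), ← ih, Finset.sum_range_succ _ (m + 1)]
    have h1 : (m : ℝ) + 1 ≠ 0 := by positivity
    have h2 : (m : ℝ) + 2 ≠ 0 := by positivity
    have e1 : ∑ k ∈ range (m + 1), (h k - H h (m + 1)) ^ 2 =
        ∑ k ∈ range (m + 1), (h k - H h m) ^ 2 +
          ((m : ℝ) + 1) * (dd h (m + 1) / ((m : ℝ) + 2)) ^ 2 := by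
      have e2 : ∀ k, (h k - H h (m + 1)) ^ 2 = (h k - H h m) ^ 2
          - 2 * (dd h (m + 1) / ((m : ℝ) + 2)) * h k
          + (2 * (dd h (m + 1) / ((m : ℝ) + 2)) * H h m + (dd h (m + 1) / ((m : ℝ) + 2)) ^ 2) := by
        intro k
        rw [H_succ]
        ring
      rw [Finset.sum_congr rfl fun k _ => e2 k, Finset.sum_add_distrib, Finset.sum_sub_distrib,
        ← Finset.mul_sum, Finset.sum_const, Finset.card_range, nsmul_eq_mul]
      have e3 : ∑ k ∈ range (m + 1), h k = ((m : ℝ) + 1) * H h m := by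
        unfold H
        field_simp
      rw [e3]
      push_cast
      ring
    have e4 : h (m + 1) - H h (m + 1) = dd h (m + 1) * (((m : ℝ) + 1) / ((m : ℝ) + 2)) := by
      rw [H_succ]
      simp only [dd, Nat.add_sub_cancel]
      field_simp
      ring
    rw [e1, e4]
    push_cast
    have h3 : (m : ℝ) + 1 + 1 ≠ 0 := by positivity
    field_simp
    ring

/-- the size of a pair class minus one -/
def mm (t : Fin n → ℕ) (a b : Fin n) (x : Fin n → ℕ) : ℕ :=
  min (min (x a + x b) (t a + t b - (x a + x b))) (min (t a) (t b))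

theorem sum_key {a b : Fin n} (hab : a ≠ b) (x : Fin n → ℕ) :
    ∑ j, x j = x a + x b + ∑ j, key a b x j := by
  have h : ∀ j, x j = (if j = a then x j else 0) + (if j = b then x j else 0) +
      key a b x j := by
    intro j
    by_cases h1 : j = a
    · simp [key, h1, hab]
    · by_cases h2 : j = b
      · simp [key, h2, Ne.symm hab]
      · simp [key, h1, h2]
  calc ∑ j, x j = ∑ j, ((if j = a then x j else 0) + (if j = b then x j else 0) +
      key a b x j) := Finset.sum_congr rfl fun j _ => h j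
    _ = _ := by
      rw [Finset.sum_add_distrib, Finset.sum_add_distrib]
      simp

theorem rho_eq {t : Fin n → ℕ} {s : ℕ} {a b : Fin n} (hab : a ≠ b) {x y : Fin n → ℕ}
    (hx : x ∈ Om t s) (hy : y ∈ Om t s) (h : key a b y = key a b x) :
    y a + y b = x a + x b := by
  have h1 := sum_key hab x
  have h2 := sum_key hab y
  rw [h] at h2
  have h3 := (mem_Om.1 hx).2
  have h4 := (mem_Om.1 hy).2
  omega

theorem mm_congr {t : Fin n → ℕ} {s : ℕ} {a b : Fin n} (hab : a ≠ b) {x y : Fin n → ℕ}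
    (hx : x ∈ Om t s) (hy : y ∈ Om t s) (h : key a b y = key a b x) :
    mm t a b y = mm t a b x := by
  unfold mm
  rw [rho_eq hab hx hy h]

/-- heights parametrise the pair class -/
theorem fibre_sum {t : Fin n → ℕ} {s : ℕ} {a b : Fin n} (hab : a ≠ b) {x : Fin n → ℕ}
    (hx : x ∈ Om t s) (φ : ℕ → ℝ) :
    ∑ y ∈ Om t s with key a b y = key a b x, φ (ht t a b y) =
      ∑ k ∈ range (mm t a b x + 1), φ k := by
  have hba : b ≠ a := Ne.symm hab
  have hxa := (mem_Om.1 hx).1 a
  have hxb := (mem_Om.1 hx).1 b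
  refine Finset.sum_nbij' (fun y => ht t a b y)
    (fun k => fun j => if j = a then k + (x a + x b - t b)
      else if j = b then x a + x b - (k + (x a + x b - t b)) else x j) ?_ ?_ ?_ ?_ ?_
  · intro y hy
    obtain ⟨hy1, hy2⟩ := Finset.mem_filter.1 hy
    have h1 := rho_eq hab hx hy1 hy2
    have h2 := (mem_Om.1 hy1).1 a
    have h3 := (mem_Om.1 hy1).1 b
    simp only [Finset.mem_range, ht, mm]
    omega
  · intro k hk
    simp only [Finset.mem_range, mm] at hk
    refine Finset.mem_filter.2 ⟨mem_Om.2 ⟨?_, ?_⟩, ?_⟩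
    · intro j
      by_cases h1 : j = a
      · subst h1
        simp only [if_true]
        omega
      · by_cases h2 : j = b
        · subst h2
          simp only [if_neg h1, if_true]
          omega
        · simp only [if_neg h1, if_neg h2]
          exact (mem_Om.1 hx).1 j
    · rw [sum_key hab]
      simp only [if_true, if_neg hba]
      have h3 : ∀ j, key a b (fun j => if j = a then k + (x a + x b - t b)
          else if j = b then x a + x b - (k + (x a + x b - t b)) else x j) j = key a b x j := by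
        intro j
        simp only [key]
        by_cases h1 : j = a
        · simp [h1]
        · by_cases h2 : j = b
          · simp [h2]
          · simp [h1, h2]
      rw [Finset.sum_congr rfl fun j _ => h3 j]
      have h4 := sum_key hab x
      rw [(mem_Om.1 hx).2] at h4
      have h6 : k + (x a + x b - t b) ≤ x a + x b := by omega
      rw [Nat.add_sub_cancel' h6]
      exact h4.symm
    · funext j
      simp only [key]
      by_cases h1 : j = a
      · simp [h1]
      · by_cases h2 : j = b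
        · simp [h2]
        · simp [h1, h2]
  · intro y hy
    obtain ⟨hy1, hy2⟩ := Finset.mem_filter.1 hy
    have h1 := rho_eq hab hx hy1 hy2
    have h2 := (mem_Om.1 hy1).1 a
    have h3 := (mem_Om.1 hy1).1 b
    funext j
    by_cases j1 : j = a
    · subst j1
      simp only [if_true, ht]
      omega
    · by_cases j2 : j = b
      · subst j2
        simp only [if_neg j1, if_true, ht]
        omega
      · simp only [if_neg j1, if_neg j2]
        have h4 := congrFun hy2 j
        simp only [key, j1, j2, or_self, if_false] at h4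
        exact h4.symm
  · intro k hk
    simp only [Finset.mem_range, mm] at hk
    simp only [ht, if_true, if_neg hba]
    omega
  · intro y _
    rfl

theorem fibre_card {t : Fin n → ℕ} {s : ℕ} {a b : Fin n} (hab : a ≠ b) {x : Fin n → ℕ}
    (hx : x ∈ Om t s) :
    ((#{y ∈ Om t s | key a b y = key a b x} : ℕ) : ℝ) = (mm t a b x : ℝ) + 1 := by
  have h := fibre_sum hab hx (fun _ => (1 : ℝ))
  simpa using h

theorem av_ht {t : Fin n → ℕ} {s : ℕ} {a b : Fin n} (hab : a ≠ b) {x : Fin n → ℕ}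
    (hx : x ∈ Om t s) (φ : ℕ → ℝ) :
    av (Om t s) (key a b) (fun y => φ (ht t a b y)) x =
      (∑ k ∈ range (mm t a b x + 1), φ k) / ((mm t a b x : ℝ) + 1) := by
  unfold av fav
  rw [fibre_sum hab hx, fibre_card hab hx]

/-- the variance term -/
theorem sum_var {t : Fin n → ℕ} {s : ℕ} {a b : Fin n} (hab : a ≠ b) (h : ℕ → ℝ) :
    ∑ x ∈ Om t s, (h (ht t a b x) - H h (mm t a b x)) ^ 2 =
      ∑ x ∈ Om t s, ∑ k ∈ Icc 1 (min (t a) (t b)),
        if k ≤ mm t a b x then (k : ℝ) / ((k : ℝ) + 1) * dd h k ^ 2 / ((mm t a b x : ℝ) + 1)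
        else 0 := by
  rw [← sum_av (Om t s) (key a b)]
  refine Finset.sum_congr rfl fun x hx => ?_
  have h1 : av (Om t s) (key a b) (fun y => (h (ht t a b y) - H h (mm t a b y)) ^ 2) x =
      av (Om t s) (key a b) (fun y => (fun k => (h k - H h (mm t a b x)) ^ 2) (ht t a b y)) x := by
    unfold av fav
    congr 1
    refine Finset.sum_congr rfl fun y hy => ?_
    obtain ⟨hy1, hy2⟩ := Finset.mem_filter.1 hy
    simp only
    rw [mm_congr hab hx hy1 hy2]
  rw [h1, av_ht hab hx (fun k => (h k - H h (mm t a b x)) ^ 2), var_eq, Finset.sum_div]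
  rw [← Finset.sum_filter]
  refine Finset.sum_congr ?_ fun _ _ => rfl
  ext k
  simp only [Finset.mem_Icc, Finset.mem_filter]
  have : mm t a b x ≤ min (t a) (t b) := min_le_right _ _
  omega

/-- the number of classes -/
theorem phi_eq {t : Fin n → ℕ} {s : ℕ} {a b : Fin n} (hab : a ≠ b) (k : ℕ) :
    (Phi t s a b k : ℝ) =
      ∑ x ∈ Om t s, if k ≤ mm t a b x then 1 / ((mm t a b x : ℝ) + 1) else 0 := by
  have h1 : (Phi t s a b k : ℝ) = ∑ x ∈ Om t s, (if ht t a b x = k then (1 : ℝ) else 0) := by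
    unfold Phi
    rw [Finset.sum_boole]
  rw [h1, ← sum_av (Om t s) (key a b)]
  refine Finset.sum_congr rfl fun x hx => ?_
  rw [av_ht hab hx (fun j => if j = k then (1 : ℝ) else 0)]
  rw [Finset.sum_ite_eq' (range (mm t a b x + 1)) k (fun _ => (1 : ℝ))]
  by_cases hk : k ≤ mm t a b x
  · rw [if_pos hk, if_pos (Finset.mem_range.2 (by omega))]
  · rw [if_neg hk, if_neg (by rw [Finset.mem_range]; omega)]
    simp

/-- `k ≤ mm` -/
theorem le_mm {t : Fin n → ℕ} {s : ℕ} {a b : Fin n} {x : Fin n → ℕ}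
    (hx : x ∈ Om t s) {k : ℕ} (hk : k ≤ min (t a) (t b)) :
    k ≤ mm t a b x ↔ (k ≤ x a + x b ∧ x a + x b + k ≤ t a + t b) := by
  have hxa := (mem_Om.1 hx).1 a
  have hxb := (mem_Om.1 hx).1 b
  simp only [mm]
  omega

theorem sk_zero {t : Fin n → ℕ} {s : ℕ} {a b : Fin n} (hab : a ≠ b) (F : (Fin n → ℕ) → ℝ)
    {k : ℕ} (hk : k ≤ min (t a) (t b)) (h0 : Phi t s a b k = 0) : Sk t s a b F k = 0 := by
  unfold Sk
  have h1 : ∀ x ∈ Om t s, ¬ (k ≤ mm t a b x) := by
    intro x hx hkx
    have h2 := phi_eq (t := t) (s := s) hab k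
    rw [h0] at h2
    have h3 : (1 : ℝ) / ((mm t a b x : ℝ) + 1) ≤
        ∑ x ∈ Om t s, if k ≤ mm t a b x then 1 / ((mm t a b x : ℝ) + 1) else 0 := by
      have := Finset.single_le_sum (f := fun x => if k ≤ mm t a b x then
        1 / ((mm t a b x : ℝ) + 1) else 0) (fun y _ => by
          by_cases hy : k ≤ mm t a b y
          · simp only [if_pos hy]; positivity
          · simp only [if_neg hy]; exact le_refl _) hx
      simpa only [if_pos hkx] using this
    have h4 : (0 : ℝ) < 1 / ((mm t a b x : ℝ) + 1) := by positivity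
    rw [← h2] at h3
    simp at h3
    linarith [h4, inv_pos.2 (show (0 : ℝ) < (mm t a b x : ℝ) + 1 by positivity)]
  apply Finset.sum_eq_zero
  intro x hx
  obtain ⟨hx1, hx2⟩ := Finset.mem_filter.1 hx
  exact absurd ((le_mm hx1 hk).2 hx2) (h1 x hx1)

theorem scalar (k : ℕ) (hk : 1 ≤ k) (d S Φ : ℝ) (hΦ : 0 ≤ Φ) (h0 : Φ = 0 → S = 0) :
    2 * (d / ((k : ℝ) + 1) * S) - (k : ℝ) / ((k : ℝ) + 1) * d ^ 2 * Φ ≤
      S ^ 2 / ((k : ℝ) * (k + 1) * Φ) := by
  have hk' : (0 : ℝ) < k := by exact_mod_cast hk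
  rcases hΦ.eq_or_lt with h | h
  · rw [h0 h.symm, ← h]
    simp
  · rw [le_div_iff₀ (by positivity)]
    have h1 : (2 * (d / ((k : ℝ) + 1) * S) - (k : ℝ) / ((k : ℝ) + 1) * d ^ 2 * Φ) *
        ((k : ℝ) * (k + 1) * Φ) = 2 * ((k : ℝ) * d * Φ) * S - ((k : ℝ) * d * Φ) ^ 2 := by
      field_simp
    rw [h1]
    nlinarith [sq_nonneg (S - (k : ℝ) * d * Φ)]

/-- the pair inequality -/
theorem pair {t : Fin n → ℕ} {s : ℕ} {a b : Fin n} (hab : a ≠ b) (F : (Fin n → ℕ) → ℝ)
    (hF : ∑ x ∈ Om t s, F x = 0) (h : ℕ → ℝ) :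
    ∑ x ∈ Om t s, (2 * (F x * av (Om t s) (key a b) (fun y => h (ht t a b y)) x)
        - (h (ht t a b x) - av (Om t s) (key a b) (fun y => h (ht t a b y)) x) ^ 2) ≤
      U t s a b F := by
  have h1 : ∀ x ∈ Om t s, av (Om t s) (key a b) (fun y => h (ht t a b y)) x =
      H h (mm t a b x) := fun x hx => av_ht hab hx h
  have h2 : ∑ x ∈ Om t s, (2 * (F x * av (Om t s) (key a b) (fun y => h (ht t a b y)) x)
        - (h (ht t a b x) - av (Om t s) (key a b) (fun y => h (ht t a b y)) x) ^ 2) =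
      2 * ∑ x ∈ Om t s, F x * H h (mm t a b x) -
        ∑ x ∈ Om t s, (h (ht t a b x) - H h (mm t a b x)) ^ 2 := by
    rw [Finset.mul_sum, ← Finset.sum_sub_distrib]
    refine Finset.sum_congr rfl fun x hx => ?_
    rw [h1 x hx]
  have h3 : ∑ x ∈ Om t s, F x * H h (mm t a b x) =
      ∑ k ∈ Icc 1 (min (t a) (t b)), dd h k / ((k : ℝ) + 1) * Sk t s a b F k := by
    have e1 : ∀ x ∈ Om t s, F x * H h (mm t a b x) = H h 0 * F x +
        ∑ k ∈ Icc 1 (min (t a) (t b)),
          if k ≤ mm t a b x then dd h k / ((k : ℝ) + 1) * F x else 0 := by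
      intro x _
      rw [H_eq, ← Finset.sum_filter]
      have e2 : (Icc 1 (min (t a) (t b))).filter (fun k => k ≤ mm t a b x) =
          Icc 1 (mm t a b x) := by
        ext k
        simp only [Finset.mem_Icc, Finset.mem_filter]
        have : mm t a b x ≤ min (t a) (t b) := min_le_right _ _
        omega
      rw [e2, ← Finset.sum_mul]
      ring
    rw [Finset.sum_congr rfl e1, Finset.sum_add_distrib, ← Finset.mul_sum, hF, mul_zero, zero_add,
      Finset.sum_comm]
    refine Finset.sum_congr rfl fun k hk => ?_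
    have hk' := (Finset.mem_Icc.1 hk).2
    unfold Sk
    rw [Finset.mul_sum, Finset.sum_filter]
    refine Finset.sum_congr rfl fun x hx => ?_
    by_cases hkx : k ≤ mm t a b x
    · rw [if_pos hkx, if_pos ((le_mm hx hk').1 hkx)]
    · rw [if_neg hkx, if_neg (fun hh => hkx ((le_mm hx hk').2 hh))]
  have h4 : ∑ x ∈ Om t s, (h (ht t a b x) - H h (mm t a b x)) ^ 2 =
      ∑ k ∈ Icc 1 (min (t a) (t b)), (k : ℝ) / ((k : ℝ) + 1) * dd h k ^ 2 * Phi t s a b k := by
    rw [sum_var hab, Finset.sum_comm]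
    refine Finset.sum_congr rfl fun k _ => ?_
    rw [phi_eq hab k, Finset.mul_sum]
    refine Finset.sum_congr rfl fun x _ => ?_
    by_cases hkx : k ≤ mm t a b x
    · rw [if_pos hkx, if_pos hkx]
      ring
    · rw [if_neg hkx, if_neg hkx, mul_zero]
  rw [h2, h3, h4, Finset.mul_sum, ← Finset.sum_sub_distrib]
  unfold U
  refine Finset.sum_le_sum fun k hk => ?_
  obtain ⟨hk1, hk2⟩ := Finset.mem_Icc.1 hk
  refine scalar k hk1 _ _ _ (Nat.cast_nonneg _) fun h0 => ?_
  exact sk_zero hab F hk2 (by exact_mod_cast h0)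

end ExplAux

open ExplAux

section expl

variable {n : ℕ}

/-- **[EXPL]** the explicit form of the slice inequality implies the variational form. -/
theorem slice_of_explicit (κ : ℝ) (t : Fin n → ℕ) (s : ℕ) (H : SliceE κ t s) : Slice κ t s := by
  intro F hF h
  refine (H F hF).trans (Finset.sum_le_sum fun p hp => ?_)
  have hab : p.1 ≠ p.2 := by
    have : p.1 < p.2 := by simpa [prs] using hp
    exact this.ne
  have h1 := ExplAux.pair (t := t) (s := s) hab F hF (h p.1 p.2)
  rw [Finset.sum_sub_distrib] at h1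
  rw [Finset.sum_add_distrib, Finset.sum_sub_distrib]
  linarith

end expl

end Vale.Agent.P328.Ana
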