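import Vale.Agent.P328.Ana.Glue

/-!
# P328: the gaps, from conditional independence and the slice inequalities
-/

namespace Vale.Agent.P328.Ana

open Finset

variable {m n : ℕ}

theorem tables_eq_Tb (r : Fin m → ℕ) (c : Fin n → ℕ) : tables r c = Tb r c := by
  ext X
  rw [mem_tables, mem_Tb]

theorem rk_comm (u v : Fin m) (X : Fin m → Fin n → ℕ) : rk u v X = rk v u X := by
  funext i j
  simp only [rk]
  simp only [or_comm]

theorem rk_blockUpd (u v : Fin m) (a b : Fin n) (X : Fin m → Fin n → ℕ) (k : ℕ) :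
    rk u v (blockUpd X u v a b k) = rk u v X := by
  funext i j
  unfold rk blockUpd
  by_cases hu : i = u
  · simp [hu]
  · by_cases hv : i = v
    · simp [hv]
    · simp [hu, hv]

/-- a function invariant under all two-row resamplings is constant -/
theorem const_of_rk (r : Fin m → ℕ) (c : Fin n → ℕ) (F : (Fin m → Fin n → ℕ) → ℝ)
    (hF : ∀ p ∈ prs m, ∀ X ∈ Tb r c, av (Tb r c) (rk p.1 p.2) F X = F X) :
    ∀ X ∈ Tb r c, ∀ Y ∈ Tb r c, F X = F Y := by
  have hF' : ∀ u v : Fin m, u ≠ v → ∀ X ∈ Tb r c, av (Tb r c) (rk u v) F X = F X := by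
    intro u v huv X hX
    rcases lt_or_gt_of_ne huv with h | h
    · exact hF (u, v) (mem_prs.2 h) X hX
    · have e : (rk u v : (Fin m → Fin n → ℕ) → Fin m → Fin n → ℕ) = rk v u := by
        funext X
        exact rk_comm u v X
      rw [e]
      exact hF (v, u) (mem_prs.2 h) X hX
  have h := const_of_blockAvg (r := r) (c := c) F (by
    intro u v a b huv hab X hX
    have hX' := mem_tables.1 hX
    have h1 : ∀ k, F (blockUpd X u v a b k) = F X := by
      intro k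
      have hm : blockUpd X u v a b k ∈ Tb r c := mem_Tb.2 (blockUpd_isTable hX' huv hab k)
      rw [← hF' u v huv _ hm, ← hF' u v huv X (mem_Tb.2 hX')]
      exact av_congr _ _ _ (rk_blockUpd u v a b X k)
    unfold blockAvg mavg
    simp only [h1, sum_const, card_range, nsmul_eq_mul]
    field_simp)
  rw [tables_eq_Tb] at h
  exact h

/-- **[ROWGAP]** the gap of the two-row chain. -/
theorem row_gap (κ : ℝ) (hκ : 0 < κ) (r : Fin m → ℕ) (c : Fin n → ℕ)
    (hci : ∀ p ∈ prs m, ∀ q ∈ prs n, CondIndep r c p.1 p.2 q.1 q.2)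
    (hrow : ∀ p ∈ prs m, RowSlice κ r c p.1 p.2) (hcol : ∀ q ∈ prs n, ColSlice κ r c q.1 q.2)
    (F : (Fin m → Fin n → ℕ) → ℝ) (hF : ∑ X ∈ Tb r c, F X = 0) :
    κ / 2 * ∑ X ∈ Tb r c, F X ^ 2 ≤
      ∑ p ∈ prs m, ∑ X ∈ Tb r c, (F X - av (Tb r c) (rk p.1 p.2) F X) ^ 2 := by
  apply gap_of_mixed (Tb r c) (prs m) (prs n) (fun p => rk p.1 p.2) (fun q => ck q.1 q.2)
    (by positivity) ?_ ?_ F hF
  · intro G
    have := mixed κ r c hci hrow hcol G
    linarith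
  · intro G hG
    exact const_of_rk r c G hG

/-- **[GAP]** the gap of the block chain. -/
theorem block_gap (κ : ℝ) (hκ : 0 < κ) (r : Fin m → ℕ) (c : Fin n → ℕ)
    (hci : ∀ p ∈ prs m, ∀ q ∈ prs n, CondIndep r c p.1 p.2 q.1 q.2)
    (hrow : ∀ p ∈ prs m, RowSlice κ r c p.1 p.2) (hcol : ∀ q ∈ prs n, ColSlice κ r c q.1 q.2)
    (F : (Fin m → Fin n → ℕ) → ℝ) (hF : ∑ X ∈ Tb r c, F X = 0) :
    κ ^ 2 / 2 * ∑ X ∈ Tb r c, F X ^ 2 ≤
      ∑ p ∈ prs m, ∑ q ∈ prs n, ∑ X ∈ Tb r c,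
        (F X - av (Tb r c) (bk p.1 p.2 q.1 q.2) F X) ^ 2 := by
  have h1 := row_gap κ hκ r c hci hrow hcol F hF
  have h2 : κ * ∑ p ∈ prs m, ∑ X ∈ Tb r c, (F X - av (Tb r c) (rk p.1 p.2) F X) ^ 2 ≤
      ∑ p ∈ prs m, ∑ q ∈ prs n, ∑ X ∈ Tb r c,
        (F X - av (Tb r c) (bk p.1 p.2 q.1 q.2) F X) ^ 2 := by
    rw [mul_sum]
    apply sum_le_sum
    intro p hp
    have h := hrow p hp F (fun _ _ _ _ => 0)
    refine h.trans (le_of_eq ?_)
    apply sum_congr rfl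
    intro q _
    apply sum_congr rfl
    intro X _
    have e : av (Tb r c) (bk p.1 p.2 q.1 q.2) (fun _ => (0 : ℝ)) X = 0 := by
      unfold av fav
      simp
    rw [e]
    ring
  have h3 : κ ^ 2 / 2 * ∑ X ∈ Tb r c, F X ^ 2 = κ * (κ / 2 * ∑ X ∈ Tb r c, F X ^ 2) := by ring
  rw [h3]
  exact (mul_le_mul_of_nonneg_left h1 hκ.le).trans h2

end Vale.Agent.P328.Ana
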