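import Vale.Agent.P328.Ana.Av
import Vale.Agent.P328.Ana.Swap

/-!
# P328, [ROW] and [COL]: the slice inequality inside the classes of two rows / two columns
-/

namespace Vale.Agent.P328.Ana

open Finset

open SwapAux

namespace RowAux

variable {m n : ℕ}

/-- Put `x` into row `u`, and the rest of the two rows into row `v`. -/
def emb (X0 : Fin m → Fin n → ℕ) (u v : Fin m) (x : Fin n → ℕ) : Fin m → Fin n → ℕ :=
  fun i j => if i = u then x j else if i = v then (X0 u j + X0 v j) - x j else X0 i j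

theorem emb_u (X0 : Fin m → Fin n → ℕ) (u v : Fin m) (x : Fin n → ℕ) (j : Fin n) :
    emb X0 u v x u j = x j := by simp [emb]

theorem emb_v (X0 : Fin m → Fin n → ℕ) {u v : Fin m} (huv : u ≠ v) (x : Fin n → ℕ) (j : Fin n) :
    emb X0 u v x v j = (X0 u j + X0 v j) - x j := by simp [emb, huv.symm]

theorem emb_out (X0 : Fin m → Fin n → ℕ) {u v i : Fin m} (h1 : i ≠ u) (h2 : i ≠ v)
    (x : Fin n → ℕ) (j : Fin n) : emb X0 u v x i j = X0 i j := by simp [emb, h1, h2]

theorem rk_emb (X0 : Fin m → Fin n → ℕ) (u v : Fin m) (x : Fin n → ℕ) :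
    rk u v (emb X0 u v x) = rk u v X0 := by
  funext i j
  simp only [rk]
  by_cases h : i = u ∨ i = v
  · simp [h]
  · push Not at h
    rw [if_neg (by tauto), if_neg (by tauto), emb_out X0 h.1 h.2]

/-- the capacities -/
def tt (X0 : Fin m → Fin n → ℕ) (u v : Fin m) : Fin n → ℕ := fun j => X0 u j + X0 v j

theorem emb_mem {r : Fin m → ℕ} {c : Fin n → ℕ} {X0 : Fin m → Fin n → ℕ} (hX0 : X0 ∈ Tb r c)
    {u v : Fin m} (huv : u ≠ v) {x : Fin n → ℕ} (hx : x ∈ Om (tt X0 u v) (r u)) :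
    emb X0 u v x ∈ Tb r c := by
  rw [mem_Om] at hx
  obtain ⟨hx1, hx2⟩ := hx
  have h0 := mem_Tb.1 hX0
  rw [mem_Tb]
  constructor
  · intro i
    by_cases h1 : i = u
    · subst h1
      rw [Finset.sum_congr rfl fun j _ => emb_u X0 i v x j, hx2]
    · by_cases h2 : i = v
      · subst h2
        rw [Finset.sum_congr rfl fun j _ => emb_v X0 huv x j]
        have e : ∑ j, ((X0 u j + X0 i j) - x j) + ∑ j, x j = ∑ j, X0 u j + ∑ j, X0 i j := by
          rw [← Finset.sum_add_distrib, ← Finset.sum_add_distrib]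
          refine Finset.sum_congr rfl fun j _ => ?_
          have := hx1 j
          simp only [tt] at this
          omega
        rw [hx2, h0.1 u, h0.1 i] at e
        omega
      · rw [Finset.sum_congr rfl fun j _ => emb_out X0 h1 h2 x j, h0.1 i]
  · intro j
    rw [sum_split huv, emb_u, emb_v X0 huv, col_split huv hX0 j]
    have h1 := hx1 j
    simp only [tt] at h1
    have e : ∑ i, (if i = u ∨ i = v then 0 else emb X0 u v x i j) =
        ∑ i, (if i = u ∨ i = v then 0 else X0 i j) := by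
      refine Finset.sum_congr rfl fun i _ => ?_
      by_cases h : i = u ∨ i = v
      · simp [h]
      · push Not at h
        rw [if_neg (by tauto), if_neg (by tauto), emb_out X0 h.1 h.2]
    rw [e]
    omega

theorem fibre_row {r : Fin m → ℕ} {c : Fin n → ℕ} {X0 X : Fin m → Fin n → ℕ} (hX0 : X0 ∈ Tb r c)
    (hX : X ∈ Tb r c) {u v : Fin m} (huv : u ≠ v) (h : rk u v X = rk u v X0) :
    X u ∈ Om (tt X0 u v) (r u) ∧ emb X0 u v (X u) = X := by
  have hcol : ∀ j, X u j + X v j = X0 u j + X0 v j := by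
    intro j
    have e1 := col_split huv hX j
    have e2 := col_split huv hX0 j
    have e : ∑ i, (if i = u ∨ i = v then 0 else X i j) =
        ∑ i, (if i = u ∨ i = v then 0 else X0 i j) := by
      refine Finset.sum_congr rfl fun i _ => ?_
      by_cases hi : i = u ∨ i = v
      · simp [hi]
      · push Not at hi
        rw [if_neg (by tauto), if_neg (by tauto), out_of_rk h hi.1 hi.2]
    omega
  refine ⟨?_, ?_⟩
  · rw [mem_Om]
    refine ⟨fun j => ?_, (mem_Tb.1 hX).1 u⟩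
    have := hcol j
    simp only [tt]
    omega
  · funext i j
    by_cases h1 : i = u
    · subst h1
      rw [emb_u]
    · by_cases h2 : i = v
      · subst h2
        rw [emb_v X0 huv]
        have := hcol j
        omega
      · rw [emb_out X0 h1 h2, out_of_rk h h1 h2]

theorem emb_inj {X0 : Fin m → Fin n → ℕ} {u v : Fin m} {x y : Fin n → ℕ}
    (h : emb X0 u v x = emb X0 u v y) : x = y := by
  funext j
  have := congrFun (congrFun h u) j
  rwa [emb_u, emb_u] at this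

/-- sums over a fibre of `rk u v` are sums over the two-row class -/
theorem sum_fibre {r : Fin m → ℕ} {c : Fin n → ℕ} {X0 : Fin m → Fin n → ℕ} (hX0 : X0 ∈ Tb r c)
    {u v : Fin m} (huv : u ≠ v) (G : (Fin m → Fin n → ℕ) → ℝ) :
    ∑ x ∈ Om (tt X0 u v) (r u), G (emb X0 u v x) =
      ∑ X ∈ Tb r c with rk u v X = rk u v X0, G X := by
  apply sum_bij (fun x _ => emb X0 u v x)
  · intro x hx
    rw [mem_filter]
    exact ⟨emb_mem hX0 huv hx, rk_emb X0 u v x⟩
  · intro x _ y _ h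
    exact emb_inj h
  · intro X hX
    rw [mem_filter] at hX
    obtain ⟨h1, h2⟩ := fibre_row hX0 hX.1 huv hX.2
    exact ⟨X u, h1, h2⟩
  · intro x _
    rfl

theorem rk_of_bk {u v : Fin m} {a b : Fin n} {X Z : Fin m → Fin n → ℕ}
    (h : bk u v a b Z = bk u v a b X) : rk u v Z = rk u v X := by
  funext i j
  have h1 := congrFun (congrFun h i) j
  simp only [bk] at h1
  simp only [rk]
  by_cases hi : i = u ∨ i = v
  · simp [hi]
  · rw [if_neg hi, if_neg hi]
    rwa [if_neg (by tauto), if_neg (by tauto)] at h1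

/-- block averages are pair averages of the two-row class -/
theorem av_emb {r : Fin m → ℕ} {c : Fin n → ℕ} {X0 : Fin m → Fin n → ℕ} (hX0 : X0 ∈ Tb r c)
    {u v : Fin m} (huv : u ≠ v) (a b : Fin n) (F : (Fin m → Fin n → ℕ) → ℝ) {x : Fin n → ℕ}
    (hx : x ∈ Om (tt X0 u v) (r u)) :
    av (Om (tt X0 u v) (r u)) (key a b) (fun y => F (emb X0 u v y)) x =
      av (Tb r c) (bk u v a b) F (emb X0 u v x) := by
  apply av_transport
  · intro y hy hk
    refine ⟨emb_mem hX0 huv hy, ?_⟩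
    funext i j
    have hkj := congrFun hk j
    simp only [key] at hkj
    simp only [bk]
    by_cases hj : j = a ∨ j = b
    · by_cases hi : i = u ∨ i = v
      · simp [hi, hj]
      · push Not at hi
        rw [if_neg (by tauto), if_neg (by tauto), emb_out X0 hi.1 hi.2, emb_out X0 hi.1 hi.2]
    · rw [if_neg hj, if_neg hj] at hkj
      rw [if_neg (by tauto), if_neg (by tauto)]
      by_cases h1 : i = u
      · subst h1
        rw [emb_u, emb_u, hkj]
      · by_cases h2 : i = v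
        · subst h2
          rw [emb_v X0 huv, emb_v X0 huv, hkj]
        · rw [emb_out X0 h1 h2, emb_out X0 h1 h2]
  · intro y _ z _ _ _ h
    exact emb_inj h
  · intro Y hY hk
    have hrk : rk u v Y = rk u v X0 := (rk_of_bk hk).trans (rk_emb X0 u v x)
    obtain ⟨h1, h2⟩ := fibre_row hX0 hY huv hrk
    refine ⟨Y u, h1, ?_, h2⟩
    funext j
    simp only [key]
    by_cases hj : j = a ∨ j = b
    · simp [hj]
    · rw [if_neg hj, if_neg hj]
      have := congrFun (congrFun hk u) j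
      simp only [bk] at this
      rwa [if_neg (by tauto), if_neg (by tauto), emb_u] at this

end RowAux

open RowAux

section slices

variable {m n : ℕ}

/-- **[ROW]** the slice inequality in all the classes of the rows `u, v`. -/
theorem row_slice (κ : ℝ) (N : ℕ) (r : Fin m → ℕ) (c : Fin n → ℕ) (hN : ∑ i, r i ≤ N)
    (hS : ∀ (t : Fin n → ℕ) (s : ℕ), ∑ j, t j ≤ N → Slice κ t s)
    {u v : Fin m} (huv : u ≠ v) (F : (Fin m → Fin n → ℕ) → ℝ)
    (h : Fin n → Fin n → (Fin m → Fin n → ℕ) → ℕ → ℝ) :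
    κ * ∑ X ∈ Tb r c, (F X - av (Tb r c) (rk u v) F X) ^ 2 ≤
      ∑ p ∈ prs n, ∑ X ∈ Tb r c, ((F X - av (Tb r c) (bk u v p.1 p.2) F X) ^ 2
        - 2 * ((F X - av (Tb r c) (rk u v) F X) * av (Tb r c) (bk u v p.1 p.2)
            (fun Y => h p.1 p.2 (wk u v p.1 p.2 Y) (hK u v p.1 p.2 Y)) X)
        + (h p.1 p.2 (wk u v p.1 p.2 X) (hK u v p.1 p.2 X) - av (Tb r c) (bk u v p.1 p.2)
            (fun Y => h p.1 p.2 (wk u v p.1 p.2 Y) (hK u v p.1 p.2 Y)) X) ^ 2) := by
  -- one fibre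
  have key1 : ∀ X0 ∈ Tb r c,
      κ * ∑ X ∈ Tb r c with rk u v X = rk u v X0, (F X - av (Tb r c) (rk u v) F X) ^ 2 ≤
      ∑ p ∈ prs n, ∑ X ∈ Tb r c with rk u v X = rk u v X0,
        ((F X - av (Tb r c) (bk u v p.1 p.2) F X) ^ 2
        - 2 * ((F X - av (Tb r c) (rk u v) F X) * av (Tb r c) (bk u v p.1 p.2)
            (fun Y => h p.1 p.2 (wk u v p.1 p.2 Y) (hK u v p.1 p.2 Y)) X)
        + (h p.1 p.2 (wk u v p.1 p.2 X) (hK u v p.1 p.2 X) - av (Tb r c) (bk u v p.1 p.2)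
            (fun Y => h p.1 p.2 (wk u v p.1 p.2 Y) (hK u v p.1 p.2 Y)) X) ^ 2) := by
    intro X0 hX0
    set t := tt X0 u v with ht'
    set s := r u with hs
    set μ := av (Tb r c) (rk u v) F X0 with hμ
    have hμX : ∀ x, av (Tb r c) (rk u v) F (emb X0 u v x) = μ := fun x =>
      av_congr _ _ _ (rk_emb X0 u v x)
    have htN : ∑ j, t j ≤ N := by
      have h0 := (mem_Tb.1 hX0).1
      have e : ∑ j, t j = r u + r v := by
        rw [ht']
        simp only [tt]
        rw [Finset.sum_add_distrib, h0 u, h0 v]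
      have e2 := sum_split huv r
      omega
    have hF0 : ∑ x ∈ Om t s, (F (emb X0 u v x) - μ) = 0 := by
      have e1 : ∑ x ∈ Om t s, (F (emb X0 u v x) - μ) =
          ∑ x ∈ Om t s, (F (emb X0 u v x) - av (Tb r c) (rk u v) F (emb X0 u v x)) :=
        Finset.sum_congr rfl fun x _ => by rw [hμX]
      rw [e1, sum_fibre hX0 huv (fun X => F X - av (Tb r c) (rk u v) F X),
        Finset.sum_sub_distrib, sum_fibre_av, sub_self]
    have hsl := hS t s htN (fun x => F (emb X0 u v x) - μ) hF0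
      (fun a b k => h a b (wk u v a b X0) k)
    have hwk : ∀ a b x, wk u v a b (emb X0 u v x) = wk u v a b X0 := fun a b x =>
      wk_of_rk (rk_emb X0 u v x)
    have hhk : ∀ a b, ∀ x, hK u v a b (emb X0 u v x) = ht t a b x := by
      intro a b x
      simp only [hK, ht, emb_u, emb_v X0 huv]
      rfl
    -- left side
    have e1 : ∑ x ∈ Om t s, (F (emb X0 u v x) - μ) ^ 2 =
        ∑ X ∈ Tb r c with rk u v X = rk u v X0, (F X - av (Tb r c) (rk u v) F X) ^ 2 := by
      rw [← sum_fibre hX0 huv (fun X => (F X - av (Tb r c) (rk u v) F X) ^ 2)]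
      exact Finset.sum_congr rfl fun x _ => by rw [hμX]
    rw [← e1]
    refine hsl.trans (le_of_eq ?_)
    refine Finset.sum_congr rfl fun p _ => ?_
    rw [← sum_fibre hX0 huv (fun X => (F X - av (Tb r c) (bk u v p.1 p.2) F X) ^ 2
        - 2 * ((F X - av (Tb r c) (rk u v) F X) * av (Tb r c) (bk u v p.1 p.2)
            (fun Y => h p.1 p.2 (wk u v p.1 p.2 Y) (hK u v p.1 p.2 Y)) X)
        + (h p.1 p.2 (wk u v p.1 p.2 X) (hK u v p.1 p.2 X) - av (Tb r c) (bk u v p.1 p.2)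
            (fun Y => h p.1 p.2 (wk u v p.1 p.2 Y) (hK u v p.1 p.2 Y)) X) ^ 2)]
    refine Finset.sum_congr rfl fun x hx => ?_
    have a1 : av (Om t s) (key p.1 p.2) (fun x => F (emb X0 u v x) - μ) x =
        av (Tb r c) (bk u v p.1 p.2) F (emb X0 u v x) - μ := by
      rw [av_sub, av_emb hX0 huv p.1 p.2 F hx]
      congr 1
      exact av_of_meas _ _ (fun _ => μ) (fun _ _ _ _ _ => rfl) hx
    have a2 : av (Om t s) (key p.1 p.2) (fun y => h p.1 p.2 (wk u v p.1 p.2 X0)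
        (ht t p.1 p.2 y)) x = av (Tb r c) (bk u v p.1 p.2)
            (fun Y => h p.1 p.2 (wk u v p.1 p.2 Y) (hK u v p.1 p.2 Y)) (emb X0 u v x) := by
      rw [← av_emb hX0 huv p.1 p.2 _ hx]
      apply av_congr_fun
      intro y _
      rw [hwk, hhk]
    simp only [a1, a2, hμX, hwk, hhk]
    ring
  -- sum over the fibres
  have hsum : ∀ G : (Fin m → Fin n → ℕ) → ℝ, ∑ X ∈ Tb r c, G X =
      ∑ b ∈ (Tb r c).image (rk u v), ∑ X ∈ Tb r c with rk u v X = b, G X := fun G =>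
    (sum_fiberwise_of_maps_to (fun X hX => mem_image_of_mem _ hX) G).symm
  rw [hsum, Finset.mul_sum, Finset.sum_congr rfl fun p _ => hsum _, Finset.sum_comm]
  refine Finset.sum_le_sum fun b hb => ?_
  obtain ⟨X0, hX0, rfl⟩ := mem_image.1 hb
  exact key1 X0 hX0

/-- transposition -/
def tr (X : Fin m → Fin n → ℕ) : Fin n → Fin m → ℕ := fun j i => X i j

theorem tr_mem {r : Fin m → ℕ} {c : Fin n → ℕ} {X : Fin m → Fin n → ℕ} (hX : X ∈ Tb r c) :
    tr X ∈ Tb c r := by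
  rw [mem_Tb] at hX ⊢
  exact ⟨hX.2, hX.1⟩

theorem sum_tr (r : Fin m → ℕ) (c : Fin n → ℕ) (G : (Fin m → Fin n → ℕ) → ℝ) :
    ∑ Y ∈ Tb c r, G (tr Y) = ∑ X ∈ Tb r c, G X :=
  sum_bij (fun Y _ => tr Y) (fun _ hY => tr_mem hY)
    (fun Y _ Z _ h => by
      funext j i
      exact congrFun (congrFun h i) j)
    (fun X hX => ⟨tr X, tr_mem hX, rfl⟩) (fun _ _ => rfl)

theorem av_tr {β β' : Type*} [DecidableEq β] [DecidableEq β'] (r : Fin m → ℕ) (c : Fin n → ℕ)
    (k : (Fin m → Fin n → ℕ) → β) (k' : (Fin n → Fin m → ℕ) → β')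
    (hk : ∀ Y Z, k' Y = k' Z ↔ k (tr Y) = k (tr Z))
    (F : (Fin m → Fin n → ℕ) → ℝ) (Y : Fin n → Fin m → ℕ) :
    av (Tb c r) k' (fun Y => F (tr Y)) Y = av (Tb r c) k F (tr Y) := by
  apply av_transport
  · intro Z hZ h
    exact ⟨tr_mem hZ, (hk _ _).1 h⟩
  · intro Z _ W _ _ _ h
    funext j i
    exact congrFun (congrFun h i) j
  · intro X hX h
    exact ⟨tr X, tr_mem hX, (hk _ _).2 h, rfl⟩

theorem rk_iff (a b : Fin n) (Y Z : Fin n → Fin m → ℕ) :
    rk a b Y = rk a b Z ↔ ck a b (tr Y) = ck a b (tr Z) := by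
  constructor
  · intro h
    funext i j
    exact congrFun (congrFun h j) i
  · intro h
    funext j i
    exact congrFun (congrFun h i) j

theorem bk_iff (u v : Fin m) (a b : Fin n) (Y Z : Fin n → Fin m → ℕ) :
    bk a b u v Y = bk a b u v Z ↔ bk u v a b (tr Y) = bk u v a b (tr Z) := by
  have e : ∀ (W : Fin n → Fin m → ℕ) i j, bk u v a b (tr W) i j = bk a b u v W j i := by
    intro W i j
    simp only [bk, tr]
    by_cases h1 : i = u ∨ i = v <;> by_cases h2 : j = a ∨ j = b <;> simp [h1, h2]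
  constructor
  · intro h
    funext i j
    rw [e, e, h]
  · intro h
    funext j i
    rw [← e, ← e, h]

/-- **[COL]** the slice inequality in all the classes of the columns `a, b`. -/
theorem col_slice (κ : ℝ) (N : ℕ) (r : Fin m → ℕ) (c : Fin n → ℕ) (hN : ∑ i, r i ≤ N)
    (hS : ∀ (t : Fin m → ℕ) (s : ℕ), ∑ j, t j ≤ N → Slice κ t s)
    {a b : Fin n} (hab : a ≠ b) (F : (Fin m → Fin n → ℕ) → ℝ)
    (h : Fin m → Fin m → (Fin m → Fin n → ℕ) → ℕ → ℝ) :
    κ * ∑ X ∈ Tb r c, (F X - av (Tb r c) (ck a b) F X) ^ 2 ≤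
      ∑ p ∈ prs m, ∑ X ∈ Tb r c, ((F X - av (Tb r c) (bk p.1 p.2 a b) F X) ^ 2
        - 2 * ((F X - av (Tb r c) (ck a b) F X) * av (Tb r c) (bk p.1 p.2 a b)
            (fun Y => h p.1 p.2 (wk p.1 p.2 a b Y) (hK p.1 p.2 a b Y)) X)
        + (h p.1 p.2 (wk p.1 p.2 a b X) (hK p.1 p.2 a b X) - av (Tb r c) (bk p.1 p.2 a b)
            (fun Y => h p.1 p.2 (wk p.1 p.2 a b Y) (hK p.1 p.2 a b Y)) X) ^ 2) := by
  rcases (Tb r c).eq_empty_or_nonempty with h0 | ⟨X1, hX1⟩
  · simp [h0]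
  have hcr : ∑ j, c j = ∑ i, r i := by
    have h1 := mem_Tb.1 hX1
    rw [← Finset.sum_congr rfl fun j _ => h1.2 j, ← Finset.sum_congr rfl fun i _ => h1.1 i,
      Finset.sum_comm]
  have hrow := row_slice κ N c r (by omega) hS hab (fun Y => F (tr Y))
    (fun p q W k => h p q (tr W) k)
  have a1 : ∀ Y, av (Tb c r) (rk a b) (fun Y => F (tr Y)) Y = av (Tb r c) (ck a b) F (tr Y) :=
    fun Y => av_tr r c (ck a b) (rk a b) (fun Y Z => rk_iff a b Y Z) F Y
  have a2 : ∀ (p : Fin m × Fin m) Y, av (Tb c r) (bk a b p.1 p.2) (fun Y => F (tr Y)) Y =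
      av (Tb r c) (bk p.1 p.2 a b) F (tr Y) :=
    fun p Y => av_tr r c (bk p.1 p.2 a b) (bk a b p.1 p.2)
      (fun Y Z => bk_iff p.1 p.2 a b Y Z) F Y
  have ew : ∀ (p : Fin m × Fin m) (Y : Fin n → Fin m → ℕ),
      tr (wk a b p.1 p.2 Y) = wk p.1 p.2 a b (tr Y) := by
    intro p Y
    funext i j
    simp only [wk, tr]
    by_cases h1 : i = p.1 ∨ i = p.2 <;> by_cases h2 : j = a ∨ j = b <;> simp [h1, h2]
  have eh : ∀ (p : Fin m × Fin m) (Y : Fin n → Fin m → ℕ),
      hK a b p.1 p.2 Y = hK p.1 p.2 a b (tr Y) := fun p Y => rfl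
  have a3 : ∀ (p : Fin m × Fin m) Y, av (Tb c r) (bk a b p.1 p.2)
      (fun Y => h p.1 p.2 (wk p.1 p.2 a b (tr Y)) (hK p.1 p.2 a b (tr Y))) Y =
      av (Tb r c) (bk p.1 p.2 a b)
        (fun Y => h p.1 p.2 (wk p.1 p.2 a b Y) (hK p.1 p.2 a b Y)) (tr Y) := by
    intro p Y
    exact av_tr r c (bk p.1 p.2 a b) (bk a b p.1 p.2)
      (fun Y Z => bk_iff p.1 p.2 a b Y Z)
      (fun Y => h p.1 p.2 (wk p.1 p.2 a b Y) (hK p.1 p.2 a b Y)) Y
  simp only [a1, a2, ew, eh, a3] at hrow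
  rw [sum_tr r c (fun X => (F X - av (Tb r c) (ck a b) F X) ^ 2)] at hrow
  refine hrow.trans (le_of_eq ?_)
  refine Finset.sum_congr rfl fun p _ => ?_
  exact sum_tr r c (fun X => (F X - av (Tb r c) (bk p.1 p.2 a b) F X) ^ 2
        - 2 * ((F X - av (Tb r c) (ck a b) F X) * av (Tb r c) (bk p.1 p.2 a b)
            (fun Y => h p.1 p.2 (wk p.1 p.2 a b Y) (hK p.1 p.2 a b Y)) X)
        + (h p.1 p.2 (wk p.1 p.2 a b X) (hK p.1 p.2 a b X) - av (Tb r c) (bk p.1 p.2 a b)
            (fun Y => h p.1 p.2 (wk p.1 p.2 a b Y) (hK p.1 p.2 a b Y)) X) ^ 2)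

end slices

end Vale.Agent.P328.Ana
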