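import Vale.Agent.P328.Ana.Bridge
import Vale.Agent.P328.Ana.Row
import Vale.Agent.P328.Ana.Gap
import Vale.Agent.P328.Ana.Expl
import Vale.Agent.P328.Final

/-!
# P328: from the slice inequality to the almost-uniform sampler
-/

namespace Vale.Agent.P328.Ana

open Finset

variable {m n : ℕ}

theorem Slice.mono {κ κ' : ℝ} {t : Fin n → ℕ} {s : ℕ} (h : Slice κ' t s) (hk : κ ≤ κ') :
    Slice κ t s := by
  intro F hF hh
  refine le_trans ?_ (h F hF hh)
  exact mul_le_mul_of_nonneg_right hk (Finset.sum_nonneg fun _ _ => sq_nonneg _)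

/-- with at most one column there is nothing to prove -/
theorem slice_of_le_one (hn : n ≤ 1) (κ : ℝ) (t : Fin n → ℕ) (s : ℕ) : Slice κ t s := by
  intro F hF hh
  have hsub : ∀ x ∈ Om t s, ∀ y ∈ Om t s, x = y := by
    intro x hx y hy
    have hx' := (mem_Om.1 hx).2
    have hy' := (mem_Om.1 hy).2
    interval_cases n
    · funext j; exact j.elim0
    · funext j
      rw [Fin.sum_univ_one] at hx' hy'
      rw [Subsingleton.elim j 0, hx', hy']
  have h1 : ∑ x ∈ Om t s, F x ^ 2 = 0 := by
    apply Finset.sum_eq_zero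
    intro x hx
    have : Om t s = {x} := by
      ext y
      rw [mem_singleton]
      exact ⟨fun hy => hsub y hy x hx, fun h => h ▸ hx⟩
    rw [this, sum_singleton] at hF
    rw [hF]; norm_num
  have h2 : prs n = ∅ := by
    ext ⟨a, b⟩
    rw [mem_prs]
    simp only [Finset.notMem_empty, iff_false, not_lt]
    have ha := a.2
    have hb := b.2
    rw [Fin.le_def]
    omega
  rw [h1, h2]
  simp

/-- The block chain on contingency tables has a polynomial gap if the slice inequality holds with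
a polynomially small constant. -/
theorem gap_of_slices (k : ℕ) (H : ∀ (n : ℕ) (t : Fin n → ℕ) (s : ℕ), 2 ≤ n →
    Slice (1 / (n : ℝ) ^ k) t s) : Gap (2 * k) := by
  apply gap_of_block
  intro m n r c hm hn F hF
  set κ : ℝ := 1 / ((m : ℝ) * n) ^ k with hκ
  have hm' : (1 : ℝ) ≤ m := by exact_mod_cast hm
  have hn' : (1 : ℝ) ≤ n := by exact_mod_cast hn
  have hκ0 : 0 < κ := by positivity
  have hmn : ∀ (l : ℕ) (t : Fin l → ℕ) (s : ℕ), 1 ≤ l → (l : ℝ) ≤ (m : ℝ) * n →
      Slice κ t s := by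
    intro l t s hl hl2
    rcases Nat.lt_or_ge l 2 with h | h
    · exact slice_of_le_one (by omega) κ t s
    · apply (H l t s h).mono
      rw [hκ]
      have hl' : (0 : ℝ) < l := by exact_mod_cast hl
      apply one_div_le_one_div_of_le (by positivity)
      exact pow_le_pow_left₀ hl'.le hl2 k
  have h1 : ∀ (t : Fin n → ℕ) (s : ℕ), Slice κ t s := fun t s => hmn n t s hn (by nlinarith)
  have h2 : ∀ (t : Fin m → ℕ) (s : ℕ), Slice κ t s := fun t s => hmn m t s hm (by nlinarith)
  apply block_gap κ hκ0 r c ?_ ?_ ?_ F hF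
  · intro p hp q hq f g hf hg
    exact cond_indep r c (mem_prs.1 hp).ne (mem_prs.1 hq).ne f g hf hg
  · intro p hp F h
    exact row_slice κ _ r c le_rfl (fun t s _ => h1 t s) (mem_prs.1 hp).ne F h
  · intro q hq F h
    exact col_slice κ _ r c le_rfl (fun t s _ => h2 t s) (mem_prs.1 hq).ne F h

/-- The same with an absolute constant. -/
theorem gap_of_slices_const (κ : ℝ) (hκ : 0 < κ)
    (H : ∀ (n : ℕ) (t : Fin n → ℕ) (s : ℕ), 2 ≤ n → Slice κ t s) : ∃ e, Gap e := by
  obtain ⟨k, hk⟩ := exists_pow_lt_of_lt_one hκ (show (1 / 2 : ℝ) < 1 by norm_num)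
  refine ⟨2 * k, gap_of_slices k fun n t s hn => (H n t s hn).mono ?_⟩
  refine le_trans ?_ hk.le
  rw [div_pow, one_pow]
  have hn' : (2 : ℝ) ≤ n := by exact_mod_cast hn
  apply one_div_le_one_div_of_le (by positivity)
  exact pow_le_pow_left₀ (by norm_num) hn' k

/-- **The sampler, from the slice inequality (polynomial constant).** -/
theorem sampler_of_slices (k : ℕ) (H : ∀ (n : ℕ) (t : Fin n → ℕ) (s : ℕ), 2 ≤ n →
    Slice (1 / (n : ℝ) ^ k) t s) : ∃ (P : Prog) (k : ℕ), IsAlmostUniformSampler P k :=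
  almostUniformSampler_of_gap _ (gap_of_slices k H)

/-- **The sampler, from the slice inequality (absolute constant).** -/
theorem sampler_of_slices_const (κ : ℝ) (hκ : 0 < κ)
    (H : ∀ (n : ℕ) (t : Fin n → ℕ) (s : ℕ), 2 ≤ n → Slice κ t s) :
    ∃ (P : Prog) (k : ℕ), IsAlmostUniformSampler P k := by
  obtain ⟨e, he⟩ := gap_of_slices_const κ hκ H
  exact almostUniformSampler_of_gap e he

/-- **The sampler, from the explicit slice inequality (absolute constant).** -/
theorem sampler_of_sliceE_const (κ : ℝ) (hκ : 0 < κ)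
    (H : ∀ (n : ℕ) (t : Fin n → ℕ) (s : ℕ), 2 ≤ n → SliceE κ t s) :
    ∃ (P : Prog) (k : ℕ), IsAlmostUniformSampler P k :=
  sampler_of_slices_const κ hκ fun n t s hn => slice_of_explicit κ t s (H n t s hn)

end Vale.Agent.P328.Ana
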