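import Vale.Agent.P328.Ana.Cross
import Vale.Agent.P328.MiGap
import Vale.Agent.P328.Conn

/-!
# P328: assembly of the mixed inequality and the gap, from the cross inequality and the slices
-/

namespace Vale.Agent.P328.Ana

open Finset

variable {m n : ℕ}

/-- The conditional independence of the row key and the column key given the outside of the cross
and the height. -/
def CondIndep (r : Fin m → ℕ) (c : Fin n → ℕ) (u v : Fin m) (a b : Fin n) : Prop :=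
  ∀ f g : (Fin m → Fin n → ℕ) → ℝ,
    (∀ X ∈ Tb r c, ∀ Y ∈ Tb r c, ck a b X = ck a b Y → f X = f Y) →
    (∀ X ∈ Tb r c, ∀ Y ∈ Tb r c, rk u v X = rk u v Y → g X = g Y) →
    ∑ X ∈ Tb r c, f X * g X =
      ∑ X ∈ Tb r c, av (Tb r c) (fun X => (wk u v a b X, hK u v a b X)) f X *
        av (Tb r c) (fun X => (wk u v a b X, hK u v a b X)) g X

/-- **[CROSS]** (Lemma 1 in variational form) -/
theorem cross (r : Fin m → ℕ) (c : Fin n → ℕ) {u v : Fin m} {a b : Fin n}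
    (hci : CondIndep r c u v a b) (F : (Fin m → Fin n → ℕ) → ℝ) :
    ∃ h1 h2 : (Fin m → Fin n → ℕ) → ℕ → ℝ,
      (∑ X ∈ Tb r c, ((F X - av (Tb r c) (bk u v a b) F X) ^ 2
        - 2 * ((F X - av (Tb r c) (rk u v) F X) *
            av (Tb r c) (bk u v a b) (fun Y => h1 (wk u v a b Y) (hK u v a b Y)) X)
        + (h1 (wk u v a b X) (hK u v a b X) -
            av (Tb r c) (bk u v a b) (fun Y => h1 (wk u v a b Y) (hK u v a b Y)) X) ^ 2)) +
      (∑ X ∈ Tb r c, ((F X - av (Tb r c) (bk u v a b) F X) ^ 2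
        - 2 * ((F X - av (Tb r c) (ck a b) F X) *
            av (Tb r c) (bk u v a b) (fun Y => h2 (wk u v a b Y) (hK u v a b Y)) X)
        + (h2 (wk u v a b X) (hK u v a b X) -
            av (Tb r c) (bk u v a b) (fun Y => h2 (wk u v a b Y) (hK u v a b Y)) X) ^ 2)) ≤
      2 * ∑ X ∈ Tb r c, (F X - av (Tb r c) (rk u v) F X) * (F X - av (Tb r c) (ck a b) F X) := by
  have hbr : ∀ X ∈ Tb r c, ∀ Y ∈ Tb r c, bk u v a b X = bk u v a b Y → rk u v X = rk u v Y := by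
    intro X _ Y _ h
    funext i j
    have := congrFun (congrFun h i) j
    simp only [bk, rk] at this ⊢
    split_ifs at this ⊢ <;> simp_all
  have hbc : ∀ X ∈ Tb r c, ∀ Y ∈ Tb r c, bk u v a b X = bk u v a b Y → ck a b X = ck a b Y := by
    intro X _ Y _ h
    funext i j
    have := congrFun (congrFun h i) j
    simp only [bk, ck] at this ⊢
    split_ifs at this ⊢ <;> simp_all
  have key := cross_abs (Tb r c) (rk u v) (ck a b) (bk u v a b)
    (fun X => (wk u v a b X, hK u v a b X)) hbr hbc hci F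
  exact ⟨fun w k => fav (Tb r c) (fun X => (wk u v a b X, hK u v a b X))
      (av (Tb r c) (ck a b) F) (w, k),
    fun w k => fav (Tb r c) (fun X => (wk u v a b X, hK u v a b X))
      (av (Tb r c) (rk u v) F) (w, k), key⟩

/-- The slice inequality in all the classes of the rows `u, v`, with constant `κ`. -/
def RowSlice (κ : ℝ) (r : Fin m → ℕ) (c : Fin n → ℕ) (u v : Fin m) : Prop :=
  ∀ (F : (Fin m → Fin n → ℕ) → ℝ) (h : Fin n → Fin n → (Fin m → Fin n → ℕ) → ℕ → ℝ),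
    κ * ∑ X ∈ Tb r c, (F X - av (Tb r c) (rk u v) F X) ^ 2 ≤
      ∑ p ∈ prs n, ∑ X ∈ Tb r c, ((F X - av (Tb r c) (bk u v p.1 p.2) F X) ^ 2
        - 2 * ((F X - av (Tb r c) (rk u v) F X) * av (Tb r c) (bk u v p.1 p.2)
            (fun Y => h p.1 p.2 (wk u v p.1 p.2 Y) (hK u v p.1 p.2 Y)) X)
        + (h p.1 p.2 (wk u v p.1 p.2 X) (hK u v p.1 p.2 X) - av (Tb r c) (bk u v p.1 p.2)
            (fun Y => h p.1 p.2 (wk u v p.1 p.2 Y) (hK u v p.1 p.2 Y)) X) ^ 2)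

/-- The slice inequality in all the classes of the columns `a, b`, with constant `κ`. -/
def ColSlice (κ : ℝ) (r : Fin m → ℕ) (c : Fin n → ℕ) (a b : Fin n) : Prop :=
  ∀ (F : (Fin m → Fin n → ℕ) → ℝ) (h : Fin m → Fin m → (Fin m → Fin n → ℕ) → ℕ → ℝ),
    κ * ∑ X ∈ Tb r c, (F X - av (Tb r c) (ck a b) F X) ^ 2 ≤
      ∑ p ∈ prs m, ∑ X ∈ Tb r c, ((F X - av (Tb r c) (bk p.1 p.2 a b) F X) ^ 2
        - 2 * ((F X - av (Tb r c) (ck a b) F X) * av (Tb r c) (bk p.1 p.2 a b)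
            (fun Y => h p.1 p.2 (wk p.1 p.2 a b Y) (hK p.1 p.2 a b Y)) X)
        + (h p.1 p.2 (wk p.1 p.2 a b X) (hK p.1 p.2 a b X) - av (Tb r c) (bk p.1 p.2 a b)
            (fun Y => h p.1 p.2 (wk p.1 p.2 a b Y) (hK p.1 p.2 a b Y)) X) ^ 2)

theorem mem_prs {n : ℕ} {p : Fin n × Fin n} : p ∈ prs n ↔ p.1 < p.2 := by simp [prs]

/-- **[MIX]** the mixed inequality. -/
theorem mixed (κ : ℝ) (r : Fin m → ℕ) (c : Fin n → ℕ)
    (hci : ∀ p ∈ prs m, ∀ q ∈ prs n, CondIndep r c p.1 p.2 q.1 q.2)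
    (hrow : ∀ p ∈ prs m, RowSlice κ r c p.1 p.2) (hcol : ∀ q ∈ prs n, ColSlice κ r c q.1 q.2)
    (F : (Fin m → Fin n → ℕ) → ℝ) :
    κ * (∑ p ∈ prs m, ∑ X ∈ Tb r c, (F X - av (Tb r c) (rk p.1 p.2) F X) ^ 2 +
        ∑ q ∈ prs n, ∑ X ∈ Tb r c, (F X - av (Tb r c) (ck q.1 q.2) F X) ^ 2) ≤
      2 * ∑ X ∈ Tb r c, (∑ p ∈ prs m, (F X - av (Tb r c) (rk p.1 p.2) F X)) *
        (∑ q ∈ prs n, (F X - av (Tb r c) (ck q.1 q.2) F X)) := by
  classical
  have hc : ∀ p : Fin m × Fin m, ∀ q : Fin n × Fin n, ∃ h1 h2 : (Fin m → Fin n → ℕ) → ℕ → ℝ,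
      p ∈ prs m → q ∈ prs n →
      (∑ X ∈ Tb r c, ((F X - av (Tb r c) (bk p.1 p.2 q.1 q.2) F X) ^ 2
        - 2 * ((F X - av (Tb r c) (rk p.1 p.2) F X) *
            av (Tb r c) (bk p.1 p.2 q.1 q.2)
              (fun Y => h1 (wk p.1 p.2 q.1 q.2 Y) (hK p.1 p.2 q.1 q.2 Y)) X)
        + (h1 (wk p.1 p.2 q.1 q.2 X) (hK p.1 p.2 q.1 q.2 X) -
            av (Tb r c) (bk p.1 p.2 q.1 q.2)
              (fun Y => h1 (wk p.1 p.2 q.1 q.2 Y) (hK p.1 p.2 q.1 q.2 Y)) X) ^ 2)) +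
      (∑ X ∈ Tb r c, ((F X - av (Tb r c) (bk p.1 p.2 q.1 q.2) F X) ^ 2
        - 2 * ((F X - av (Tb r c) (ck q.1 q.2) F X) *
            av (Tb r c) (bk p.1 p.2 q.1 q.2)
              (fun Y => h2 (wk p.1 p.2 q.1 q.2 Y) (hK p.1 p.2 q.1 q.2 Y)) X)
        + (h2 (wk p.1 p.2 q.1 q.2 X) (hK p.1 p.2 q.1 q.2 X) -
            av (Tb r c) (bk p.1 p.2 q.1 q.2)
              (fun Y => h2 (wk p.1 p.2 q.1 q.2 Y) (hK p.1 p.2 q.1 q.2 Y)) X) ^ 2)) ≤
      2 * ∑ X ∈ Tb r c, (F X - av (Tb r c) (rk p.1 p.2) F X) *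
        (F X - av (Tb r c) (ck q.1 q.2) F X) := by
    intro p q
    by_cases hp : p ∈ prs m
    · by_cases hq : q ∈ prs n
      · obtain ⟨h1, h2, h⟩ := cross r c (hci p hp q hq) F
        exact ⟨h1, h2, fun _ _ => h⟩
      · exact ⟨fun _ _ => 0, fun _ _ => 0, fun _ h => absurd h hq⟩
    · exact ⟨fun _ _ => 0, fun _ _ => 0, fun h => absurd h hp⟩
  choose h1 h2 hh using hc
  have hr : κ * ∑ p ∈ prs m, ∑ X ∈ Tb r c, (F X - av (Tb r c) (rk p.1 p.2) F X) ^ 2 ≤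
      ∑ p ∈ prs m, ∑ q ∈ prs n, ∑ X ∈ Tb r c, ((F X - av (Tb r c) (bk p.1 p.2 q.1 q.2) F X) ^ 2
        - 2 * ((F X - av (Tb r c) (rk p.1 p.2) F X) *
            av (Tb r c) (bk p.1 p.2 q.1 q.2)
              (fun Y => h1 p q (wk p.1 p.2 q.1 q.2 Y) (hK p.1 p.2 q.1 q.2 Y)) X)
        + (h1 p q (wk p.1 p.2 q.1 q.2 X) (hK p.1 p.2 q.1 q.2 X) -
            av (Tb r c) (bk p.1 p.2 q.1 q.2)
              (fun Y => h1 p q (wk p.1 p.2 q.1 q.2 Y) (hK p.1 p.2 q.1 q.2 Y)) X) ^ 2) := by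
    rw [mul_sum]
    apply sum_le_sum
    intro p hp
    exact hrow p hp F (fun a b => h1 p (a, b))
  have hcl : κ * ∑ q ∈ prs n, ∑ X ∈ Tb r c, (F X - av (Tb r c) (ck q.1 q.2) F X) ^ 2 ≤
      ∑ q ∈ prs n, ∑ p ∈ prs m, ∑ X ∈ Tb r c, ((F X - av (Tb r c) (bk p.1 p.2 q.1 q.2) F X) ^ 2
        - 2 * ((F X - av (Tb r c) (ck q.1 q.2) F X) *
            av (Tb r c) (bk p.1 p.2 q.1 q.2)
              (fun Y => h2 p q (wk p.1 p.2 q.1 q.2 Y) (hK p.1 p.2 q.1 q.2 Y)) X)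
        + (h2 p q (wk p.1 p.2 q.1 q.2 X) (hK p.1 p.2 q.1 q.2 X) -
            av (Tb r c) (bk p.1 p.2 q.1 q.2)
              (fun Y => h2 p q (wk p.1 p.2 q.1 q.2 Y) (hK p.1 p.2 q.1 q.2 Y)) X) ^ 2) := by
    rw [mul_sum]
    apply sum_le_sum
    intro q hq
    exact hcol q hq F (fun u v => h2 (u, v) q)
  rw [sum_comm (s := prs n) (t := prs m)] at hcl
  have htot : ∑ X ∈ Tb r c, (∑ p ∈ prs m, (F X - av (Tb r c) (rk p.1 p.2) F X)) *
        (∑ q ∈ prs n, (F X - av (Tb r c) (ck q.1 q.2) F X)) =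
      ∑ p ∈ prs m, ∑ q ∈ prs n, ∑ X ∈ Tb r c, (F X - av (Tb r c) (rk p.1 p.2) F X) *
        (F X - av (Tb r c) (ck q.1 q.2) F X) := by
    simp only [sum_mul_sum]
    rw [sum_comm]
    apply sum_congr rfl
    intro p _
    rw [sum_comm]
  rw [htot, mul_add]
  refine (add_le_add hr hcl).trans ?_
  rw [← sum_add_distrib, mul_sum]
  apply sum_le_sum
  intro p hp
  rw [← sum_add_distrib, mul_sum]
  apply sum_le_sum
  intro q hq
  exact hh p q hp hq

/-! ### The spectral step -/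

section spec

variable {Ω β β' ι1 ι2 : Type*} [DecidableEq β] [DecidableEq β']

/-- extension by zero -/
noncomputable def ext0 (S : Finset Ω) (f : S → ℝ) (x : Ω) : ℝ :=
  haveI := Classical.dec (x ∈ S)
  if h : x ∈ S then f ⟨x, h⟩ else 0

theorem ext0_coe (S : Finset Ω) (f : S → ℝ) (x : S) : ext0 S f x = f x := by
  simp [ext0]

theorem ext0_add (S : Finset Ω) (f g : S → ℝ) : ext0 S (f + g) = fun x => ext0 S f x + ext0 S g x := by
  funext x
  simp only [ext0]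
  split_ifs <;> simp

theorem ext0_smul (S : Finset Ω) (a : ℝ) (f : S → ℝ) :
    ext0 S (a • f) = fun x => a * ext0 S f x := by
  funext x
  simp only [ext0]
  split_ifs <;> simp

/-- the operator `Σ_i (1 - av_i)` -/
noncomputable def LL (S : Finset Ω) (I : Finset ι1) (k : ι1 → Ω → β) :
    EuclideanSpace ℝ S →ₗ[ℝ] EuclideanSpace ℝ S where
  toFun f := WithLp.toLp 2 (fun x : S => ∑ i ∈ I,
    (ext0 S (WithLp.ofLp f) x - av S (k i) (ext0 S (WithLp.ofLp f)) x))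
  map_add' f g := by
    ext x
    simp only [WithLp.ofLp_add, ext0_add, av_add, PiLp.add_apply, ← sum_add_distrib]
    apply sum_congr rfl
    intro i _
    ring
  map_smul' a f := by
    ext x
    simp only [WithLp.ofLp_smul, ext0_smul, av_smul, PiLp.smul_apply, RingHom.id_apply,
      smul_eq_mul, mul_sum]
    apply sum_congr rfl
    intro i _
    ring

theorem inner_LL (S : Finset Ω) (I : Finset ι1) (k : ι1 → Ω → β) (f g : EuclideanSpace ℝ S) :
    inner ℝ f (LL S I k g) = ∑ x ∈ S, ext0 S (WithLp.ofLp f) x *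
      ∑ i ∈ I, (ext0 S (WithLp.ofLp g) x - av S (k i) (ext0 S (WithLp.ofLp g)) x) := by
  rw [← sum_coe_sort S]
  simp only [PiLp.inner_apply, LL, LinearMap.coe_mk, AddHom.coe_mk, ext0_coe]
  apply sum_congr rfl
  intro x _
  simp [mul_comm]

theorem sum_mul_sub_av (S : Finset Ω) (I : Finset ι1) (k : ι1 → Ω → β) (F G : Ω → ℝ) :
    ∑ x ∈ S, F x * ∑ i ∈ I, (G x - av S (k i) G x) =
      ∑ i ∈ I, ∑ x ∈ S, (F x - av S (k i) F x) * (G x - av S (k i) G x) := by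
  simp only [mul_sum]
  rw [sum_comm]
  apply sum_congr rfl
  intro i _
  have h := sum_meas_mul_sub S (k i) G (av S (k i) F) (av_meas S (k i) F)
  have e : ∑ x ∈ S, (F x - av S (k i) F x) * (G x - av S (k i) G x) =
      ∑ x ∈ S, F x * (G x - av S (k i) G x) -
        ∑ x ∈ S, av S (k i) F x * (G x - av S (k i) G x) := by
    rw [← sum_sub_distrib]
    exact sum_congr rfl (fun x _ => by ring)
  rw [e, h, sub_zero]

theorem sum_LL (S : Finset Ω) (I : Finset ι1) (k : ι1 → Ω → β) (G : Ω → ℝ) :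
    ∑ x ∈ S, ∑ i ∈ I, (G x - av S (k i) G x) = 0 := by
  rw [sum_comm]
  apply sum_eq_zero
  intro i _
  rw [sum_sub_distrib, sum_av, sub_self]

/-- the mean-zero functions -/
def W0 (S : Finset Ω) : Submodule ℝ (EuclideanSpace ℝ S) where
  carrier := {f | ∑ x ∈ S, ext0 S (WithLp.ofLp f) x = 0}
  add_mem' := by
    intro f g hf hg
    simp only [Set.mem_ofPred_eq, WithLp.ofLp_add, ext0_add, sum_add_distrib] at *
    rw [hf, hg, add_zero]
  zero_mem' := by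
    simp only [Set.mem_ofPred_eq]
    apply sum_eq_zero
    intro x _
    simp [ext0]
  smul_mem' := by
    intro a f hf
    simp only [Set.mem_ofPred_eq, WithLp.ofLp_smul, ext0_smul, ← mul_sum] at *
    rw [hf, mul_zero]

theorem LL_mem (S : Finset Ω) (I : Finset ι1) (k : ι1 → Ω → β) (f : EuclideanSpace ℝ S) :
    LL S I k f ∈ W0 S := by
  show ∑ x ∈ S, ext0 S (WithLp.ofLp (LL S I k f)) x = 0
  have := sum_LL S I k (ext0 S (WithLp.ofLp f))
  rw [← this, ← sum_coe_sort S, ← sum_coe_sort S]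
  apply sum_congr rfl
  intro x _
  rw [ext0_coe]
  rfl

/-- From the mixed inequality to the spectral gap. -/
theorem gap_of_mixed (S : Finset Ω) (I : Finset ι1) (J : Finset ι2) (k : ι1 → Ω → β)
    (l : ι2 → Ω → β') {θ : ℝ} (hθ : 0 < θ)
    (hmix : ∀ F : Ω → ℝ, θ * (∑ i ∈ I, ∑ x ∈ S, (F x - av S (k i) F x) ^ 2 +
        ∑ j ∈ J, ∑ x ∈ S, (F x - av S (l j) F x) ^ 2) ≤
      ∑ x ∈ S, (∑ i ∈ I, (F x - av S (k i) F x)) * (∑ j ∈ J, (F x - av S (l j) F x)))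
    (hker : ∀ F : Ω → ℝ, (∀ i ∈ I, ∀ x ∈ S, av S (k i) F x = F x) →
      ∀ x ∈ S, ∀ y ∈ S, F x = F y)
    (F : Ω → ℝ) (hF : ∑ x ∈ S, F x = 0) :
    θ * ∑ x ∈ S, F x ^ 2 ≤ ∑ i ∈ I, ∑ x ∈ S, (F x - av S (k i) F x) ^ 2 := by
  classical
  set L : W0 S →ₗ[ℝ] W0 S := (LL S I k).restrict (fun f _ => LL_mem S I k f) with hL
  set L' : W0 S →ₗ[ℝ] W0 S := (LL S J l).restrict (fun f _ => LL_mem S J l f) with hL'
  have iL : ∀ f g : W0 S, inner ℝ f (L g) = ∑ i ∈ I, ∑ x ∈ S,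
      (ext0 S (WithLp.ofLp (f : EuclideanSpace ℝ S)) x -
        av S (k i) (ext0 S (WithLp.ofLp (f : EuclideanSpace ℝ S))) x) *
      (ext0 S (WithLp.ofLp (g : EuclideanSpace ℝ S)) x -
        av S (k i) (ext0 S (WithLp.ofLp (g : EuclideanSpace ℝ S))) x) := by
    intro f g
    rw [Submodule.coe_inner, hL, LinearMap.coe_restrict_apply, inner_LL, sum_mul_sub_av]
  have iL' : ∀ f g : W0 S, inner ℝ f (L' g) = ∑ i ∈ J, ∑ x ∈ S,
      (ext0 S (WithLp.ofLp (f : EuclideanSpace ℝ S)) x -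
        av S (l i) (ext0 S (WithLp.ofLp (f : EuclideanSpace ℝ S))) x) *
      (ext0 S (WithLp.ofLp (g : EuclideanSpace ℝ S)) x -
        av S (l i) (ext0 S (WithLp.ofLp (g : EuclideanSpace ℝ S))) x) := by
    intro f g
    rw [Submodule.coe_inner, hL', LinearMap.coe_restrict_apply, inner_LL, sum_mul_sub_av]
  have iLL : ∀ f : W0 S, inner ℝ (L f) (L' f) = ∑ x ∈ S,
      (∑ i ∈ I, (ext0 S (WithLp.ofLp (f : EuclideanSpace ℝ S)) x -
        av S (k i) (ext0 S (WithLp.ofLp (f : EuclideanSpace ℝ S))) x)) *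
      (∑ i ∈ J, (ext0 S (WithLp.ofLp (f : EuclideanSpace ℝ S)) x -
        av S (l i) (ext0 S (WithLp.ofLp (f : EuclideanSpace ℝ S))) x)) := by
    intro f
    rw [Submodule.coe_inner, hL', LinearMap.coe_restrict_apply, 
      LinearMap.coe_restrict_apply, inner_LL]
    apply sum_congr rfl
    intro x hx
    congr 1
    have := ext0_coe S (WithLp.ofLp (LL S I k (f : EuclideanSpace ℝ S))) ⟨x, hx⟩
    rw [this]
    rfl
  set f0 : EuclideanSpace ℝ S := WithLp.toLp 2 (fun x : S => F x) with hf0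
  have ef0 : ∀ x ∈ S, ext0 S (WithLp.ofLp f0) x = F x := by
    intro x hx
    exact ext0_coe S (fun x : S => F x) ⟨x, hx⟩
  have mf0 : f0 ∈ W0 S := by
    show ∑ x ∈ S, ext0 S (WithLp.ofLp f0) x = 0
    rw [← hF]
    exact sum_congr rfl ef0
  have sq : ∀ f : W0 S, ‖f‖ ^ 2 = ∑ x ∈ S, ext0 S (WithLp.ofLp (f : EuclideanSpace ℝ S)) x ^ 2 := by
    intro f
    rw [Submodule.coe_norm, EuclideanSpace.norm_sq_eq, ← sum_coe_sort S]
    apply sum_congr rfl
    intro x _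
    rw [ext0_coe, Real.norm_eq_abs, sq_abs]
  have main := Vale.Agent.P328.mi_gap L L' ?_ ?_ ?_ hθ ?_ ?_ ⟨f0, mf0⟩
  · rw [sq, iL] at main
    have e1 : ∑ x ∈ S, ext0 S (WithLp.ofLp f0) x ^ 2 = ∑ x ∈ S, F x ^ 2 :=
      sum_congr rfl (fun x hx => by rw [ef0 x hx])
    have e2 : ∀ i, ∀ x ∈ S, ext0 S (WithLp.ofLp f0) x -
        av S (k i) (ext0 S (WithLp.ofLp f0)) x = F x - av S (k i) F x := by
      intro i x hx
      rw [ef0 x hx, av_congr_fun S (k i) ef0]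
    simp only at main
    rw [e1] at main
    refine main.trans (le_of_eq ?_)
    apply sum_congr rfl
    intro i _
    apply sum_congr rfl
    intro x hx
    rw [e2 i x hx]
    ring
  · intro f g
    rw [iL, real_inner_comm, iL]
    apply sum_congr rfl
    intro i _
    exact sum_congr rfl (fun x _ => mul_comm _ _)
  · intro f
    rw [iL]
    exact sum_nonneg fun i _ => sum_nonneg fun x _ => mul_self_nonneg _
  · intro f
    rw [iL']
    exact sum_nonneg fun i _ => sum_nonneg fun x _ => mul_self_nonneg _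
  · intro f
    rw [iL, iL', iLL]
    refine (le_of_eq ?_).trans (hmix _)
    congr 1
    congr 1
    · exact sum_congr rfl fun i _ => sum_congr rfl fun x _ => (pow_two _).symm
    · exact sum_congr rfl fun i _ => sum_congr rfl fun x _ => (pow_two _).symm
  · intro f hf _
    rw [iL] at hf
    have h1 : ∀ i ∈ I, ∀ x ∈ S, av S (k i) (ext0 S (WithLp.ofLp (f : EuclideanSpace ℝ S))) x =
        ext0 S (WithLp.ofLp (f : EuclideanSpace ℝ S)) x := by
      intro i hi x hx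
      have h2 := (sum_eq_zero_iff_of_nonneg (fun i _ => sum_nonneg fun x _ =>
        mul_self_nonneg _)).1 hf i hi
      have h3 := (sum_eq_zero_iff_of_nonneg (fun x _ => mul_self_nonneg _)).1 h2 x hx
      have h4 := mul_self_eq_zero.1 h3
      linarith
    have h2 := hker _ h1
    have h3 : ∑ x ∈ S, ext0 S (WithLp.ofLp (f : EuclideanSpace ℝ S)) x = 0 := f.2
    have h4 : ‖f‖ ^ 2 = 0 := by
      rw [sq]
      apply sum_eq_zero
      intro x hx
      have h5 : ∑ y ∈ S, ext0 S (WithLp.ofLp (f : EuclideanSpace ℝ S)) y =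
          ∑ y ∈ S, ext0 S (WithLp.ofLp (f : EuclideanSpace ℝ S)) x :=
        sum_congr rfl (fun y hy => h2 y hy x hx)
      rw [h3, sum_const, nsmul_eq_mul] at h5
      have h6 : (#S : ℝ) ≠ 0 := by
        exact_mod_cast (Finset.card_pos.2 ⟨x, hx⟩).ne'
      have h7 := (mul_eq_zero.1 h5.symm).resolve_left h6
      rw [h7]; norm_num
    have h5 : ‖f‖ = 0 := by
      exact pow_eq_zero_iff (two_ne_zero) |>.1 h4
    exact norm_eq_zero.1 h5

end spec

end Vale.Agent.P328.Ana
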