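import Mathlib

/-!
# P328: the pair operator (Hahn operator) on a pair class

`x` is the first coordinate, `ρ - x` the second one, capacities `a`, `b`.  The operator
`L q x = (ρ - x)(a - x)(q (x+1) - q x) + x (b - ρ + x)(q (x-1) - q x)` is triangular in the
basis `choose x j` with eigenvalues `-k (a + b + 1 - k)`.
-/

namespace Vale.Agent.P328.Ana.Hahn

open Finset

/-- `∑ a_j choose x j`. -/
noncomputable def bin (c : ℕ → ℝ) (k : ℕ) (x : ℕ) : ℝ := ∑ j ∈ range (k + 1), c j * (x.choose j : ℝ)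

theorem bin_succ (c : ℕ → ℝ) (k x : ℕ) :
    bin c k (x + 1) - bin c k x = if k = 0 then 0 else bin (fun j => c (j + 1)) (k - 1) x := by
  rcases Nat.eq_zero_or_pos k with rfl | hk
  · simp [bin]
  obtain ⟨l, rfl⟩ : ∃ l, k = l + 1 := ⟨k - 1, by omega⟩
  rw [if_neg (by omega)]
  simp only [bin, Nat.add_sub_cancel]
  rw [sum_range_succ' (fun j => c j * (((x + 1).choose j : ℕ) : ℝ)),
    sum_range_succ' (fun j => c j * ((x.choose j : ℕ) : ℝ))]
  have : ∀ j, c (j + 1) * (((x + 1).choose (j + 1) : ℕ) : ℝ)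
      = c (j + 1) * ((x.choose j : ℕ) : ℝ) + c (j + 1) * ((x.choose (j + 1) : ℕ) : ℝ) := by
    intro j
    rw [Nat.choose_succ_succ]; push_cast; ring
  rw [sum_congr rfl (fun j _ => this j), sum_add_distrib]
  simp

theorem bin_ne_zero : ∀ (k : ℕ) (c : ℕ → ℝ) (lo : ℕ), c k ≠ 0 →
    ∃ x, lo ≤ x ∧ x ≤ lo + k ∧ bin c k x ≠ 0 := by
  intro k
  induction k with
  | zero =>
    intro c lo hc
    exact ⟨lo, le_refl _, by omega, by simpa [bin] using hc⟩
  | succ k ih =>
    intro c lo hc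
    by_contra hcon
    push Not at hcon
    obtain ⟨x, h1, h2, h3⟩ := ih (fun j => c (j + 1)) lo hc
    apply h3
    have h4 := bin_succ c (k + 1) x
    rw [if_neg (by omega), hcon x h1 (by omega), hcon (x + 1) (by omega) (by omega)] at h4
    simpa using h4.symm

/-- the eigenvalue -/
noncomputable def lam (T : ℝ) (k : ℕ) : ℝ := k * (T + 1 - k)

/-- the operator -/
noncomputable def L (a b ρ : ℝ) (q : ℕ → ℝ) (x : ℕ) : ℝ :=
  (ρ - x) * (a - x) * (q (x + 1) - q x) + x * (b - ρ + x) * (q (x - 1) - q x)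

theorem mul_choose (x j : ℕ) : (x : ℝ) * (x.choose j : ℝ)
    = (j + 1) * (x.choose (j + 1) : ℝ) + j * (x.choose j : ℝ) := by
  have h := Nat.add_one_mul_choose_eq x j
  have h2 : ((x + 1 : ℕ) : ℝ) * (x.choose j : ℝ) = ((x + 1).choose (j + 1) : ℝ) * ((j + 1 : ℕ) : ℝ) := by
    exact_mod_cast h
  rw [Nat.choose_succ_succ] at h2
  push_cast at h2
  linarith

theorem mul_choose_pred (x j : ℕ) : (x : ℝ) * ((x - 1).choose j : ℝ)
    = (j + 1) * (x.choose (j + 1) : ℝ) := by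
  rcases Nat.eq_zero_or_pos x with rfl | hx
  · simp
  obtain ⟨y, rfl⟩ : ∃ y, x = y + 1 := ⟨x - 1, by omega⟩
  have h := Nat.add_one_mul_choose_eq y j
  have h2 : ((y + 1 : ℕ) : ℝ) * (y.choose j : ℝ) = ((y + 1).choose (j + 1) : ℝ) * ((j + 1 : ℕ) : ℝ) := by
    exact_mod_cast h
  rw [Nat.add_sub_cancel, h2]
  push_cast
  ring

theorem L_choose_succ (a b ρ : ℝ) (j x : ℕ) :
    L a b ρ (fun x => ((x.choose (j + 1) : ℕ) : ℝ)) x
      = -lam (a + b) (j + 1) * (x.choose (j + 1) : ℝ)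
        + (ρ - j) * (a - j) * (x.choose j : ℝ) := by
  have h1 : (((x + 1).choose (j + 1) : ℕ) : ℝ) - ((x.choose (j + 1) : ℕ) : ℝ) = (x.choose j : ℝ) := by
    rw [Nat.choose_succ_succ]; push_cast; ring
  have h2 : (x : ℝ) * ((((x - 1).choose (j + 1) : ℕ) : ℝ) - ((x.choose (j + 1) : ℕ) : ℝ))
      = -((x : ℝ) * ((x - 1).choose j : ℝ)) := by
    rcases Nat.eq_zero_or_pos x with rfl | hx
    · simp
    obtain ⟨y, rfl⟩ : ∃ y, x = y + 1 := ⟨x - 1, by omega⟩
    rw [Nat.add_sub_cancel, Nat.choose_succ_succ]; push_cast; ring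
  rw [mul_choose_pred] at h2
  have h3 := mul_choose x j
  have h4 := mul_choose x (j + 1)
  unfold L lam
  have e1 : (x : ℝ) * (b - ρ + x) * ((((x - 1).choose (j + 1) : ℕ) : ℝ) - ((x.choose (j + 1) : ℕ) : ℝ))
      = (b - ρ + x) * (-((j + 1) * (x.choose (j + 1) : ℝ))) := by
    rw [← h2]; ring
  simp only [h1]
  rw [e1]
  push_cast at h4 ⊢
  -- u = choose x j, v = choose x (j+1), w = choose x (j+2)
  -- h3 : x u = (j+1) v + j u ; h4 : x v = (j+2) w + (j+1) v
  linear_combination (-(ρ + a) + x + j) * h3 + 0 * h4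

theorem L_one (a b ρ : ℝ) (x : ℕ) : L a b ρ (fun _ => 1) x = 0 := by
  unfold L; ring

theorem L_add (a b ρ : ℝ) (f g : ℕ → ℝ) (x : ℕ) :
    L a b ρ (fun y => f y + g y) x = L a b ρ f x + L a b ρ g x := by
  unfold L; ring

theorem L_mul (a b ρ : ℝ) (c : ℝ) (f : ℕ → ℝ) (x : ℕ) :
    L a b ρ (fun y => c * f y) x = c * L a b ρ f x := by
  unfold L; ring

theorem L_bin (a b ρ : ℝ) (c : ℕ → ℝ) : ∀ (k : ℕ) (x : ℕ),
    L a b ρ (bin c k) x = ∑ j ∈ range (k + 1), (-lam (a + b) j * c j) * (x.choose j : ℝ)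
      + ∑ j ∈ range k, ((ρ - j) * (a - j) * c (j + 1)) * (x.choose j : ℝ) := by
  intro k
  induction k with
  | zero =>
    intro x
    have : bin c 0 = fun y => c 0 * (fun _ => (1 : ℝ)) y := by
      funext y; simp [bin]
    rw [this, L_mul, L_one]
    simp [lam]
  | succ k ih =>
    intro x
    have : bin c (k + 1) = fun y => bin c k y
        + (fun z => c (k + 1) * (fun w => ((w.choose (k + 1) : ℕ) : ℝ)) z) y := by
      funext y; simp [bin, sum_range_succ]
    rw [this, L_add, ih, L_mul, L_choose_succ, sum_range_succ _ (k + 1),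
      sum_range_succ (fun j => ((ρ - j) * (a - j) * c (j + 1)) * (x.choose j : ℝ)) k]
    ring

/-- eigenfunctions: coefficients, defined downwards from `k` -/
theorem exists_coef (a b ρ : ℝ) (k : ℕ) (hk : ∀ j < k, lam (a + b) j ≠ lam (a + b) k) :
    ∃ c : ℕ → ℝ, c k = 1 ∧ ∀ j < k, (lam (a + b) j - lam (a + b) k) * c j
      = (ρ - j) * (a - j) * c (j + 1) := by
  -- define by i = k - j
  let d : ℕ → ℝ := fun i => Nat.rec (1 : ℝ) (fun i r =>
    (ρ - ((k - (i + 1) : ℕ) : ℝ)) * (a - ((k - (i + 1) : ℕ) : ℝ)) * r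
      / (lam (a + b) (k - (i + 1)) - lam (a + b) k)) i
  refine ⟨fun j => d (k - j), by simp [d], ?_⟩
  intro j hj
  have h1 : k - j = (k - (j + 1)) + 1 := by omega
  have h2 : d (k - j) = (ρ - ((k - ((k - (j + 1)) + 1) : ℕ) : ℝ))
      * (a - ((k - ((k - (j + 1)) + 1) : ℕ) : ℝ)) * d (k - (j + 1))
      / (lam (a + b) (k - ((k - (j + 1)) + 1)) - lam (a + b) k) := by
    rw [h1]
  have h3 : k - ((k - (j + 1)) + 1) = j := by omega
  rw [h3] at h2
  have h4 : lam (a + b) j - lam (a + b) k ≠ 0 := sub_ne_zero.mpr (hk j hj)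
  simp only [h2]
  field_simp

theorem exists_eig (a b ρ : ℝ) (k : ℕ) (hk : ∀ j < k, lam (a + b) j ≠ lam (a + b) k) :
    ∃ q : ℕ → ℝ, (∀ x, L a b ρ q x = -lam (a + b) k * q x) ∧
      ∀ lo, ∃ x, lo ≤ x ∧ x ≤ lo + k ∧ q x ≠ 0 := by
  obtain ⟨c, hc1, hc2⟩ := exists_coef a b ρ k hk
  refine ⟨bin c k, fun x => ?_, fun lo => bin_ne_zero k c lo (by rw [hc1]; norm_num)⟩
  rw [L_bin, sum_range_succ, bin, sum_range_succ, mul_add, mul_sum]
  have : ∑ j ∈ range k, (-lam (a + b) j * c j) * (x.choose j : ℝ)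
      + ∑ j ∈ range k, ((ρ - j) * (a - j) * c (j + 1)) * (x.choose j : ℝ)
      = ∑ j ∈ range k, -lam (a + b) k * (c j * (x.choose j : ℝ)) := by
    rw [← sum_add_distrib]
    refine sum_congr rfl (fun j hj => ?_)
    rw [mem_range] at hj
    rw [← hc2 j hj]
    ring
  rw [← this]
  ring

theorem lam_ne (T : ℝ) (j k : ℕ) (hjk : j < k) (hk : 2 * (k : ℝ) ≤ T) : lam T j ≠ lam T k := by
  unfold lam
  intro h
  have h1 : (j : ℝ) < k := by exact_mod_cast hjk
  have h2 : ((k : ℝ) - j) * (T + 1 - k - j) = 0 := by nlinarith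
  rcases mul_eq_zero.mp h2 with h3 | h3 <;> linarith

/-! ### the symmetrised operator on a pair class -/

/-- rate upwards at `x = lo + i` -/
noncomputable def up (ta ρ lo : ℕ) (i : ℕ) : ℝ :=
  ((ρ : ℝ) - ((lo + i : ℕ) : ℝ)) * ((ta : ℝ) - ((lo + i : ℕ) : ℝ))

/-- rate downwards at `x = lo + i` -/
noncomputable def dn (tb ρ lo : ℕ) (i : ℕ) : ℝ :=
  ((lo + i : ℕ) : ℝ) * ((tb : ℝ) - ρ + ((lo + i : ℕ) : ℝ))

/-- weight at `x = lo + i` -/
noncomputable def wt (ta tb ρ lo : ℕ) (i : ℕ) : ℝ :=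
  (ta.choose (lo + i) : ℝ) * (tb.choose (ρ - (lo + i)) : ℝ)

/-- the symmetrised tridiagonal matrix -/
noncomputable def Tri (ta tb ρ lo m : ℕ) : Matrix (Fin m) (Fin m) ℝ := fun i j =>
  if (j : ℕ) = i + 1 then Real.sqrt (up ta ρ lo i * dn tb ρ lo (i + 1))
  else if (i : ℕ) = j + 1 then Real.sqrt (up ta ρ lo j * dn tb ρ lo (j + 1))
  else if i = j then -(up ta ρ lo i + dn tb ρ lo i) else 0

theorem Tri_symm (ta tb ρ lo m : ℕ) (i j : Fin m) :
    Tri ta tb ρ lo m i j = Tri ta tb ρ lo m j i := by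
  unfold Tri
  by_cases h1 : (j : ℕ) = i + 1
  · have h2 : ¬ (i : ℕ) = j + 1 := by omega
    rw [if_pos h1, if_neg h2, if_pos h1]
  · rw [if_neg h1]
    by_cases h2 : (i : ℕ) = j + 1
    · rw [if_pos h2, if_pos h2]
    · rw [if_neg h2, if_neg h2, if_neg h1]
      by_cases h3 : i = j
      · subst h3; rfl
      · rw [if_neg h3, if_neg (fun h => h3 h.symm)]

theorem wt_pos (ta tb ρ lo i : ℕ) (h1 : lo = ρ - tb) (h2 : lo + i ≤ min ta ρ) :
    0 < wt ta tb ρ lo i := by
  unfold wt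
  have h3 : lo + i ≤ ta := le_trans h2 (min_le_left _ _)
  have h5 : ρ - (lo + i) ≤ tb := by omega
  have h6 : 0 < ta.choose (lo + i) := Nat.choose_pos h3
  have h7 : 0 < tb.choose (ρ - (lo + i)) := Nat.choose_pos h5
  positivity

theorem wt_step (ta tb ρ lo i : ℕ) (h1 : lo = ρ - tb) (h2 : lo + i + 1 ≤ min ta ρ) :
    wt ta tb ρ lo i * up ta ρ lo i = wt ta tb ρ lo (i + 1) * dn tb ρ lo (i + 1) := by
  unfold wt up dn
  have h3 : lo + i + 1 ≤ ta := le_trans h2 (min_le_left _ _)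
  have h4 : lo + i + 1 ≤ ρ := le_trans h2 (min_le_right _ _)
  obtain ⟨y, hy⟩ : ∃ y, ρ - (lo + i) = y + 1 := ⟨ρ - (lo + i) - 1, by omega⟩
  have hy2 : ρ - (lo + (i + 1)) = y := by omega
  have hρ : (ρ : ℝ) = ((lo + i : ℕ) : ℝ) + y + 1 := by
    have : ρ = lo + i + y + 1 := by omega
    rw [this]; push_cast; ring
  have hytb : y + 1 ≤ tb := by omega
  -- choose identities
  have e1 : (ta.choose (lo + i) : ℝ) * ((ta : ℝ) - ((lo + i : ℕ) : ℝ))
      = (ta.choose (lo + (i + 1)) : ℝ) * ((lo + (i + 1) : ℕ) : ℝ) := by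
    have h := Nat.choose_succ_right_eq ta (lo + i)
    have h' : ((ta.choose (lo + i + 1) * (lo + i + 1) : ℕ) : ℝ)
        = ((ta.choose (lo + i) * (ta - (lo + i)) : ℕ) : ℝ) := by exact_mod_cast h
    rw [Nat.cast_mul, Nat.cast_mul, Nat.cast_sub (by omega : lo + i ≤ ta)] at h'
    rw [show lo + (i + 1) = lo + i + 1 by ring]
    linarith
  have e2 : (tb.choose y : ℝ) * ((tb : ℝ) - y) = (tb.choose (y + 1) : ℝ) * ((y : ℝ) + 1) := by
    have h := Nat.choose_succ_right_eq tb y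
    have h' : ((tb.choose (y + 1) * (y + 1) : ℕ) : ℝ)
        = ((tb.choose y * (tb - y) : ℕ) : ℝ) := by exact_mod_cast h
    rw [Nat.cast_mul, Nat.cast_mul, Nat.cast_sub (by omega : y ≤ tb)] at h'
    push_cast at h'
    linarith
  rw [hy, hy2]
  have e3 : (ρ : ℝ) - ((lo + i : ℕ) : ℝ) = y + 1 := by rw [hρ]; ring
  have e4 : (tb : ℝ) - ρ + ((lo + (i + 1) : ℕ) : ℝ) = tb - y := by
    rw [hρ]; push_cast; ring
  rw [e3, e4]
  calc (ta.choose (lo + i) : ℝ) * (tb.choose (y + 1) : ℝ) * (((y : ℝ) + 1) * ((ta : ℝ) - ((lo + i : ℕ) : ℝ)))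
      = ((ta.choose (lo + i) : ℝ) * ((ta : ℝ) - ((lo + i : ℕ) : ℝ))) * ((tb.choose (y + 1) : ℝ) * ((y : ℝ) + 1)) := by ring
    _ = ((ta.choose (lo + (i + 1)) : ℝ) * ((lo + (i + 1) : ℕ) : ℝ)) * ((tb.choose y : ℝ) * ((tb : ℝ) - y)) := by
        rw [e1, e2]
    _ = _ := by ring

theorem up_nonneg (ta ρ lo i : ℕ) (h2 : lo + i ≤ min ta ρ) : 0 ≤ up ta ρ lo i := by
  unfold up
  have h3 : ((lo + i : ℕ) : ℝ) ≤ ta := by exact_mod_cast le_trans h2 (min_le_left _ _)
  have h4 : ((lo + i : ℕ) : ℝ) ≤ ρ := by exact_mod_cast le_trans h2 (min_le_right _ _)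
  exact mul_nonneg (by linarith) (by linarith)

theorem dn_nonneg (tb ρ lo i : ℕ) (h1 : lo = ρ - tb) : 0 ≤ dn tb ρ lo i := by
  unfold dn
  have h3 : (ρ : ℝ) ≤ tb + ((lo + i : ℕ) : ℝ) := by
    have : ρ ≤ tb + (lo + i) := by omega
    exact_mod_cast this
  exact mul_nonneg (by positivity) (by linarith)

theorem up_top (ta ρ lo m : ℕ) (hm : lo + m = min ta ρ + 1) (hm0 : 1 ≤ m) :
    up ta ρ lo (m - 1) = 0 := by
  unfold up
  have h : lo + (m - 1) = min ta ρ := by omega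
  rw [h]
  rcases le_total ta ρ with h1 | h1
  · rw [min_eq_left h1]; ring
  · rw [min_eq_right h1]; ring

theorem dn_bot (tb ρ lo : ℕ) (h1 : lo = ρ - tb) : dn tb ρ lo 0 = 0 := by
  unfold dn
  rcases le_total ρ tb with h | h
  · have : lo = 0 := by omega
    rw [this]; simp
  · have : (ρ : ℝ) = tb + lo := by
      have : ρ = tb + lo := by omega
      exact_mod_cast this
    rw [this]; push_cast; ring

/-- the symmetrised matrix acts on symmetrised functions like `L` -/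
theorem Tri_mul (ta tb ρ lo m : ℕ) (hlo : lo = ρ - tb) (hm : lo + m = min ta ρ + 1)
    (q : ℕ → ℝ) (i : Fin m) :
    ∑ j, Tri ta tb ρ lo m i j * (Real.sqrt (wt ta tb ρ lo j) * q (lo + j))
      = Real.sqrt (wt ta tb ρ lo i) * L ta tb ρ q (lo + i) := by
  classical
  have hi : (i : ℕ) < m := i.2
  -- split the sum in three parts
  have hsplit : ∀ j : Fin m, Tri ta tb ρ lo m i j * (Real.sqrt (wt ta tb ρ lo j) * q (lo + j))
      = (if (j : ℕ) = i + 1 then Real.sqrt (wt ta tb ρ lo i) * up ta ρ lo i * q (lo + i + 1) else 0)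
        + (if (i : ℕ) = j + 1 then Real.sqrt (wt ta tb ρ lo i) * dn tb ρ lo i * q (lo + i - 1) else 0)
        + (if i = j then -(Real.sqrt (wt ta tb ρ lo i) * (up ta ρ lo i + dn tb ρ lo i) * q (lo + i)) else 0) := by
    intro j
    have hj : (j : ℕ) < m := j.2
    unfold Tri
    by_cases h1 : (j : ℕ) = i + 1
    · have h2 : ¬ (i : ℕ) = j + 1 := by omega
      have h3 : ¬ i = j := by intro h; rw [h] at h1; omega
      rw [if_pos h1, if_pos h1, if_neg h2, if_neg h3]
      rw [h1]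
      have hw := wt_step ta tb ρ lo i hlo (by omega)
      have hup := up_nonneg ta ρ lo i (by omega)
      have hwp := wt_pos ta tb ρ lo i hlo (by omega)
      have hwp' := wt_pos ta tb ρ lo (i + 1) hlo (by omega)
      have e : Real.sqrt (up ta ρ lo i * dn tb ρ lo (i + 1)) * Real.sqrt (wt ta tb ρ lo (i + 1))
          = Real.sqrt (wt ta tb ρ lo i) * up ta ρ lo i := by
        rw [← Real.sqrt_mul (mul_nonneg hup (dn_nonneg tb ρ lo _ hlo))]
        have : up ta ρ lo i * dn tb ρ lo (i + 1) * wt ta tb ρ lo (i + 1)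
            = wt ta tb ρ lo i * (up ta ρ lo i) ^ 2 := by
          calc up ta ρ lo i * dn tb ρ lo (i + 1) * wt ta tb ρ lo (i + 1)
              = up ta ρ lo i * (wt ta tb ρ lo (i + 1) * dn tb ρ lo (i + 1)) := by ring
            _ = up ta ρ lo i * (wt ta tb ρ lo i * up ta ρ lo i) := by rw [hw]
            _ = _ := by ring
        rw [this, Real.sqrt_mul hwp.le, Real.sqrt_sq hup]
      rw [← mul_assoc, e, add_zero, add_zero]
      rfl
    · rw [if_neg h1, if_neg h1]
      by_cases h2 : (i : ℕ) = j + 1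
      · have h3 : ¬ i = j := by intro h; rw [h] at h2; omega
        rw [if_pos h2, if_pos h2, if_neg h3]
        have hw := wt_step ta tb ρ lo j hlo (by omega)
        have hdn := dn_nonneg tb ρ lo i hlo
        have hwp := wt_pos ta tb ρ lo i hlo (by omega)
        have e : Real.sqrt (up ta ρ lo j * dn tb ρ lo (j + 1)) * Real.sqrt (wt ta tb ρ lo j)
            = Real.sqrt (wt ta tb ρ lo i) * dn tb ρ lo i := by
          rw [← Real.sqrt_mul (mul_nonneg (up_nonneg ta ρ lo j (by omega)) (dn_nonneg tb ρ lo _ hlo))]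
          have : up ta ρ lo j * dn tb ρ lo (j + 1) * wt ta tb ρ lo j
              = wt ta tb ρ lo i * (dn tb ρ lo i) ^ 2 := by
            calc up ta ρ lo j * dn tb ρ lo (j + 1) * wt ta tb ρ lo j
                = (wt ta tb ρ lo j * up ta ρ lo j) * dn tb ρ lo (j + 1) := by ring
              _ = (wt ta tb ρ lo (j + 1) * dn tb ρ lo (j + 1)) * dn tb ρ lo (j + 1) := by rw [hw]
              _ = _ := by rw [h2]; ring
          rw [this, Real.sqrt_mul hwp.le, Real.sqrt_sq hdn]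
        rw [← mul_assoc, e, add_zero, zero_add]
        have : lo + (i : ℕ) - 1 = lo + j := by omega
        rw [this]
      · rw [if_neg h2, if_neg h2]
        by_cases h3 : i = j
        · rw [if_pos h3, if_pos h3, ← h3]; ring
        · rw [if_neg h3, if_neg h3]; ring
  rw [sum_congr rfl (fun j _ => hsplit j), sum_add_distrib, sum_add_distrib]
  have s3 : ∑ j : Fin m, (if i = j then -(Real.sqrt (wt ta tb ρ lo i) * (up ta ρ lo i + dn tb ρ lo i) * q (lo + i)) else 0)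
      = -(Real.sqrt (wt ta tb ρ lo i) * (up ta ρ lo i + dn tb ρ lo i) * q (lo + i)) := by
    rw [sum_ite_eq]; simp
  have s1 : ∑ j : Fin m, (if (j : ℕ) = i + 1 then Real.sqrt (wt ta tb ρ lo i) * up ta ρ lo i * q (lo + i + 1) else 0)
      = Real.sqrt (wt ta tb ρ lo i) * up ta ρ lo i * q (lo + i + 1) := by
    by_cases h : (i : ℕ) + 1 < m
    · rw [sum_eq_single (⟨i + 1, h⟩ : Fin m)]
      · simp
      · intro j _ hj
        rw [if_neg]
        intro h'; apply hj; ext; exact h'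
      · intro h'; exact absurd (mem_univ _) h'
    · have hi' : (i : ℕ) = m - 1 := by omega
      rw [hi', up_top ta ρ lo m hm (by omega)]
      simp only [mul_zero, zero_mul]
      exact sum_eq_zero (fun j _ => by split_ifs <;> rfl)
  have s2 : ∑ j : Fin m, (if (i : ℕ) = j + 1 then Real.sqrt (wt ta tb ρ lo i) * dn tb ρ lo i * q (lo + i - 1) else 0)
      = Real.sqrt (wt ta tb ρ lo i) * dn tb ρ lo i * q (lo + i - 1) := by
    by_cases h : 1 ≤ (i : ℕ)
    · rw [sum_eq_single (⟨i - 1, by omega⟩ : Fin m)]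
      · rw [if_pos (by simp; omega)]
      · intro j _ hj
        rw [if_neg]
        intro h'; apply hj; ext; simp; omega
      · intro h'; exact absurd (mem_univ _) h'
    · have hi' : (i : ℕ) = 0 := by omega
      rw [hi', dn_bot tb ρ lo hlo]
      simp only [mul_zero, zero_mul]
      exact sum_eq_zero (fun j _ => by split_ifs <;> rfl)
  rw [s1, s2, s3]
  unfold L up dn
  push_cast
  ring

/-- [B1]: orthonormal eigenvectors of the pair operator on a pair class -/
theorem pair_basis (ta tb ρ lo m : ℕ) (hlo : lo = ρ - tb) (hm : lo + m = min ta ρ + 1) :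
    ∃ V : Matrix (Fin m) (Fin m) ℝ, V.transpose * V = 1 ∧
      ∀ i k : Fin m, ∑ j, Tri ta tb ρ lo m i j * V j k
        = -((k : ℝ) * ((ta : ℝ) + tb + 1 - k)) * V i k := by
  classical
  have hk2 : ∀ k : Fin m, 2 * ((k : ℕ) : ℝ) ≤ (ta : ℝ) + tb := by
    intro k
    have h := k.2
    have : 2 * (k : ℕ) ≤ ta + tb := by omega
    exact_mod_cast this
  have hex : ∀ k : Fin m, ∃ q : ℕ → ℝ, (∀ x, L ta tb ρ q x = -lam ((ta : ℝ) + tb) k * q x) ∧
      ∀ lo : ℕ, ∃ x : ℕ, lo ≤ x ∧ x ≤ lo + k ∧ q x ≠ 0 := by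
    intro k
    exact exists_eig ta tb ρ k (fun j hj => lam_ne _ j k hj (hk2 k))
  choose q hq1 hq2 using hex
  let v : Fin m → Fin m → ℝ := fun k i => Real.sqrt (wt ta tb ρ lo i) * q k (lo + i)
  have hv : ∀ k i, ∑ j, Tri ta tb ρ lo m i j * v k j = -lam ((ta : ℝ) + tb) k * v k i := by
    intro k i
    have := Tri_mul ta tb ρ lo m hlo hm (q k) i
    rw [hq1] at this
    simp only [v]
    rw [this]; ring
  have hne : ∀ k, 0 < ∑ i, v k i ^ 2 := by
    intro k
    obtain ⟨x, h1, h2, h3⟩ := hq2 k lo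
    have hx : x - lo < m := by have := k.2; omega
    have h4 : v k ⟨x - lo, hx⟩ ≠ 0 := by
      simp only [v]
      rw [show lo + (x - lo) = x by omega]
      refine mul_ne_zero ?_ h3
      exact (Real.sqrt_pos.mpr (wt_pos ta tb ρ lo (x - lo) hlo (by omega))).ne'
    have h5 : 0 < v k ⟨x - lo, hx⟩ ^ 2 := by positivity
    exact lt_of_lt_of_le h5 (single_le_sum (f := fun i => v k i ^ 2) (fun i _ => sq_nonneg _) (mem_univ _))
  have horth : ∀ k l, k ≠ l → ∑ i, v k i * v l i = 0 := by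
    intro k l hkl
    have h1 : ∑ i, (∑ j, Tri ta tb ρ lo m i j * v k j) * v l i
        = ∑ i, v k i * (∑ j, Tri ta tb ρ lo m i j * v l j) := by
      simp only [sum_mul, mul_sum]
      rw [sum_comm]
      refine sum_congr rfl (fun i _ => sum_congr rfl (fun j _ => ?_))
      rw [Tri_symm ta tb ρ lo m j i]; ring
    simp only [hv] at h1
    have h2 : ∑ i, -lam ((ta : ℝ) + tb) k * v k i * v l i = -lam ((ta : ℝ) + tb) k * ∑ i, v k i * v l i := by
      rw [mul_sum]; exact sum_congr rfl (fun i _ => by ring)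
    have h3 : ∑ i, v k i * (-lam ((ta : ℝ) + tb) l * v l i) = -lam ((ta : ℝ) + tb) l * ∑ i, v k i * v l i := by
      rw [mul_sum]; exact sum_congr rfl (fun i _ => by ring)
    rw [h2, h3] at h1
    have h4 : (lam ((ta : ℝ) + tb) l - lam ((ta : ℝ) + tb) k) * ∑ i, v k i * v l i = 0 := by linarith
    rcases mul_eq_zero.mp h4 with h5 | h5
    · exfalso
      rcases lt_or_gt_of_ne (fun h => hkl (Fin.ext h) : (k : ℕ) ≠ l) with h6 | h6
      · exact lam_ne _ k l h6 (hk2 l) (by linarith)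
      · exact lam_ne _ l k h6 (hk2 k) (by linarith)
    · exact h5
  refine ⟨Matrix.of (fun j k => v k j / Real.sqrt (∑ i, v k i ^ 2)), ?_, ?_⟩
  · ext k l
    rw [Matrix.mul_apply]
    simp only [Matrix.transpose_apply, Matrix.of_apply]
    have e : ∀ j, v k j / Real.sqrt (∑ i, v k i ^ 2) * (v l j / Real.sqrt (∑ i, v l i ^ 2))
        = (v k j * v l j) / (Real.sqrt (∑ i, v k i ^ 2) * Real.sqrt (∑ i, v l i ^ 2)) := by
      intro j; rw [div_mul_div_comm]
    rw [sum_congr rfl (fun j _ => e j), ← sum_div]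
    by_cases hkl : k = l
    · subst hkl
      rw [Matrix.one_apply_eq, Real.mul_self_sqrt (hne k).le]
      rw [show ∑ i, v k i * v k i = ∑ i, v k i ^ 2 from sum_congr rfl (fun i _ => by ring)]
      exact div_self (hne k).ne'
    · rw [Matrix.one_apply_ne hkl, horth k l hkl, zero_div]
  · intro i k
    simp only [Matrix.of_apply]
    have e : ∀ j, Tri ta tb ρ lo m i j * (v k j / Real.sqrt (∑ i, v k i ^ 2))
        = (Tri ta tb ρ lo m i j * v k j) / Real.sqrt (∑ i, v k i ^ 2) := by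
      intro j; exact (mul_div_assoc _ _ _).symm
    rw [sum_congr rfl (fun j _ => e j), ← sum_div, hv]
    unfold lam
    ring

end Vale.Agent.P328.Ana.Hahn
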